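import Vale.Agent.Lib.P072G.Perm3

/-!
Solutions in the sense of Caratheodory, for measurable rates: the integral equation. Basic formulas.
-/

open Finset Filter Topology MeasureTheory Vale.Agent.Lib.P072

namespace Vale.Agent.Lib.P072G

variable {d : ℕ}

/-- A positive solution of the integral equation on `[0, T)`. -/
structure IsCar (R : Finset (Cplx d × Cplx d)) (k : ℝ → Cplx d × Cplx d → ℝ) (T : ℝ)
    (x : ℝ → Fin d → ℝ) : Prop where
  cont : ContinuousOn x (Set.Ico 0 T)
  pos : ∀ t ∈ Set.Ico 0 T, ∀ i, 0 < x t i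
  eqn : ∀ t ∈ Set.Ico 0 T, x t = x 0 + ∫ s in (0 : ℝ)..t, massAction R (k s) (x s)

/-- A measurable bounded function times a continuous function is integrable. -/
lemma integrable_rate {κ g : ℝ → ℝ} (hκ : Measurable κ) {C : ℝ} (hb : ∀ s, |κ s| ≤ C) {a b : ℝ}
    (hg : ContinuousOn g (Set.uIcc a b)) : IntervalIntegrable (fun s => κ s * g s) volume a b := by
  have h1 := hg.intervalIntegrable (μ := volume)
  rw [intervalIntegrable_iff] at h1 ⊢
  exact h1.bdd_mul (c := C) hκ.aestronglyMeasurable (ae_of_all _ fun s => by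
    rw [Real.norm_eq_abs]; exact hb s)

section formulas

variable {R : Finset (Cplx d × Cplx d)} {k : ℝ → Cplx d × Cplx d → ℝ} {C : ℝ}
  {x : ℝ → Fin d → ℝ} {a b : ℝ}

lemma integrable_wgt (hkm : ∀ p, Measurable fun t => k t p) (hkb : ∀ t p, |k t p| ≤ C)
    (hx : ContinuousOn x (Set.uIcc a b)) (r : Cplx d × Cplx d) :
    IntervalIntegrable (fun s => k s r * monom (x s) r.1) volume a b := by
  refine integrable_rate (hkm r) (fun s => hkb s r) ?_
  exact (contDiff_monom r.1).continuous.comp_continuousOn hx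

lemma integrable_ma (hkm : ∀ p, Measurable fun t => k t p) (hkb : ∀ t p, |k t p| ≤ C)
    (hx : ContinuousOn x (Set.uIcc a b)) :
    IntervalIntegrable (fun s => massAction R (k s) (x s)) volume a b := by
  have h := IntervalIntegrable.sum (μ := volume) (a := a) (b := b) R
    (f := fun r s => (k s r * monom (x s) r.1) • rxnVec r) (fun r _ => by
      have h1 := integrable_wgt hkm hkb hx r
      rw [intervalIntegrable_iff] at h1 ⊢
      exact h1.smul_const _)
  have e : (fun s => massAction R (k s) (x s)) =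
      ∑ r ∈ R, fun s => (k s r * monom (x s) r.1) • rxnVec r := by
    funext s
    simp [massAction]
  rw [e]
  exact h

/-- The integral of the vector field, reaction by reaction. -/
lemma integral_ma (hkm : ∀ p, Measurable fun t => k t p) (hkb : ∀ t p, |k t p| ≤ C)
    (hx : ContinuousOn x (Set.uIcc a b)) :
    ∫ s in a..b, massAction R (k s) (x s) =
      ∑ r ∈ R, (∫ s in a..b, k s r * monom (x s) r.1) • rxnVec r := by
  unfold massAction
  rw [intervalIntegral.integral_finsetSum]
  · refine Finset.sum_congr rfl fun r _ => ?_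
    exact intervalIntegral.integral_smul_const _ _
  · intro r _
    have h1 := integrable_wgt hkm hkb hx r
    rw [intervalIntegrable_iff] at h1 ⊢
    exact h1.smul_const _

/-- The integral of the flux. -/
lemma integral_dot (hkm : ∀ p, Measurable fun t => k t p) (hkb : ∀ t p, |k t p| ≤ C)
    (hx : ContinuousOn x (Set.uIcc a b)) (q : Fin d → ℝ) :
    IntervalIntegrable (fun s => dot q (massAction R (k s) (x s))) volume a b ∧
    ∫ s in a..b, dot q (massAction R (k s) (x s)) =
      dot q (∫ s in a..b, massAction R (k s) (x s)) := by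
  have hf : (fun s => dot q (massAction R (k s) (x s))) =
      fun s => ∑ r ∈ R, (k s r * monom (x s) r.1) * (hq q r.2 - hq q r.1) := by
    funext s
    exact dot_massAction R (k s) (x s) q
  rw [hf]
  have hI : ∀ r ∈ R, IntervalIntegrable
      (fun s => (k s r * monom (x s) r.1) * (hq q r.2 - hq q r.1)) volume a b := fun r _ =>
    (integrable_wgt hkm hkb hx r).mul_const _
  constructor
  · have h := IntervalIntegrable.sum (μ := volume) (a := a) (b := b) R
      (f := fun r s => (k s r * monom (x s) r.1) * (hq q r.2 - hq q r.1)) hI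
    have e : (fun s => ∑ r ∈ R, (k s r * monom (x s) r.1) * (hq q r.2 - hq q r.1)) =
        ∑ r ∈ R, fun s => (k s r * monom (x s) r.1) * (hq q r.2 - hq q r.1) := by
      funext s
      simp
    rw [e]
    exact h
  · rw [intervalIntegral.integral_finsetSum hI, integral_ma hkm hkb hx, dot_sum_right]
    refine Finset.sum_congr rfl fun r _ => ?_
    rw [dot_smul_right, dot_rxnVec, intervalIntegral.integral_mul_const]

end formulas

namespace IsCar

variable {R : Finset (Cplx d × Cplx d)} {k : ℝ → Cplx d × Cplx d → ℝ} {C T : ℝ}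
  {x : ℝ → Fin d → ℝ}

lemma uIcc_sub {a b : ℝ} (ha : 0 ≤ a) (hb : 0 ≤ b) (haT : a < T) (hbT : b < T) :
    Set.uIcc a b ⊆ Set.Ico 0 T := by
  intro s hs
  rw [Set.mem_uIcc] at hs
  rcases hs with hs | hs
  · exact ⟨le_trans ha hs.1, lt_of_le_of_lt hs.2 hbT⟩
  · exact ⟨le_trans hb hs.1, lt_of_le_of_lt hs.2 haT⟩

/-- The increment of a solution is the integral of the vector field. -/
lemma sub_eq (hsol : IsCar R k T x) (hkm : ∀ p, Measurable fun t => k t p)
    (hkb : ∀ t p, |k t p| ≤ C) {a b : ℝ} (ha : 0 ≤ a) (hb : 0 ≤ b) (haT : a < T) (hbT : b < T) :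
    x b - x a = ∫ s in a..b, massAction R (k s) (x s) := by
  have h1 := hsol.eqn b ⟨hb, hbT⟩
  have h2 := hsol.eqn a ⟨ha, haT⟩
  have hi : ∀ c : ℝ, 0 ≤ c → c < T →
      IntervalIntegrable (fun s => massAction R (k s) (x s)) volume 0 c := fun c hc hcT =>
    integrable_ma hkm hkb (hsol.cont.mono (uIcc_sub le_rfl hc (lt_of_le_of_lt hc hcT) hcT))
  rw [← intervalIntegral.integral_interval_sub_left (hi b hb hbT) (hi a ha haT)]
  nth_rewrite 1 [h1]
  nth_rewrite 1 [h2]
  abel

/-- The increment lies in the stoichiometric subspace. -/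
lemma mem_class (hsol : IsCar R k T x) (hkm : ∀ p, Measurable fun t => k t p)
    (hkb : ∀ t p, |k t p| ≤ C) {x₀ : Fin d → ℝ} (h0 : x 0 - x₀ ∈ stoich R)
    {t : ℝ} (ht : t ∈ Set.Ico 0 T) : x t - x₀ ∈ stoich R := by
  have h1 : x t - x 0 ∈ stoich R := by
    have hT0 : 0 < T := lt_of_le_of_lt ht.1 ht.2
    rw [hsol.sub_eq hkm hkb le_rfl ht.1 hT0 ht.2,
      integral_ma hkm hkb (hsol.cont.mono (uIcc_sub le_rfl ht.1 hT0 ht.2))]
    refine Submodule.sum_mem _ fun r hr => Submodule.smul_mem _ _ ?_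
    exact Submodule.subset_span ⟨r, hr, rfl⟩
  have : x t - x₀ = (x t - x 0) + (x 0 - x₀) := by abel
  rw [this]
  exact Submodule.add_mem _ h1 h0

/-- The increment along a functional is bounded by a bound of the flux. -/
lemma dot_le (hsol : IsCar R k T x) (hkm : ∀ p, Measurable fun t => k t p)
    (hkb : ∀ t p, |k t p| ≤ C) {a b : ℝ} (ha : 0 ≤ a) (hab : a ≤ b) (hbT : b < T)
    (q : Fin d → ℝ) {L : ℝ} (hL : ∀ s ∈ Set.Icc a b, dot q (massAction R (k s) (x s)) ≤ L) :
    dot q (x b - x a) ≤ L * (b - a) := by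
  have hb := le_trans ha hab
  have haT := lt_of_le_of_lt hab hbT
  have hc := hsol.cont.mono (uIcc_sub ha hb haT hbT)
  obtain ⟨hI, hE⟩ := integral_dot (R := R) hkm hkb hc q
  rw [hsol.sub_eq hkm hkb ha hb haT hbT, ← hE]
  have h1 := intervalIntegral.integral_mono_on hab hI (intervalIntegrable_const (c := L)) hL
  rw [intervalIntegral.integral_const, smul_eq_mul] at h1
  linarith

lemma continuousOn_comp (hx : IsCar R k T x) {F : (Fin d → ℝ) → ℝ}
    (hF : ∀ y, (∀ i, 0 < y i) → ContinuousAt F y) {a b : ℝ} (ha : 0 ≤ a) (hb : b < T) :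
    ContinuousOn (fun s => F (x s)) (Set.Icc a b) := by
  have hsub : Set.Icc a b ⊆ Set.Ico 0 T := fun s hs => ⟨le_trans ha hs.1, lt_of_le_of_lt hs.2 hb⟩
  intro s hs
  have h1 : ContinuousWithinAt x (Set.Icc a b) s := (hx.cont s (hsub hs)).mono hsub
  exact (hF _ (hx.pos s (hsub hs))).comp_continuousWithinAt h1

/-- Logarithms stay close to the right of a time. -/
lemma close (hsol : IsCar R k T x) {s : ℝ} (hs : s ∈ Set.Ico 0 T) {ρ : ℝ} (hρ : 0 < ρ) :
    ∀ᶠ z in 𝓝[>] s, z < T ∧ s < z ∧ ∀ u ∈ Set.Icc s z, ∀ i,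
      |Real.log (x u i) - Real.log (x z i)| ≤ ρ := by
  have hcont : ∀ i, ContinuousWithinAt (fun u => Real.log (x u i)) (Set.Ico 0 T) s := by
    intro i
    have h2 : ContinuousWithinAt (fun z => x z i) (Set.Ico 0 T) s :=
      continuousWithinAt_pi.1 (hsol.cont s hs) i
    exact h2.log (hsol.pos s hs i).ne'
  have hρ2 : 0 < ρ / 2 := by positivity
  have hnear : ∀ᶠ u in 𝓝[Set.Ico 0 T] s, ∀ i, |Real.log (x u i) - Real.log (x s i)| ≤ ρ / 2 := by
    rw [Filter.eventually_all]
    intro i
    have h1 := (hcont i).tendsto.eventually (Metric.closedBall_mem_nhds _ hρ2)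
    filter_upwards [h1] with z hz
    rw [Real.dist_eq] at hz
    exact hz
  obtain ⟨δ, hδ, hball⟩ := Metric.mem_nhdsWithin_iff.1 hnear
  have hI : Set.Ioo s (min (s + δ) T) ∈ 𝓝[>] s :=
    Ioo_mem_nhdsGT (lt_min (by linarith) hs.2)
  filter_upwards [hI] with z hz
  have hz1 : z < s + δ := lt_of_lt_of_le hz.2 (min_le_left _ _)
  have hz2 : z < T := lt_of_lt_of_le hz.2 (min_le_right _ _)
  refine ⟨hz2, hz.1, fun u hu i => ?_⟩
  have hmem : ∀ v ∈ Set.Icc s z, ∀ i, |Real.log (x v i) - Real.log (x s i)| ≤ ρ / 2 := by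
    intro v hv
    apply hball
    refine ⟨?_, ⟨le_trans hs.1 hv.1, lt_of_le_of_lt hv.2 hz2⟩⟩
    rw [Metric.mem_ball, Real.dist_eq, abs_of_nonneg (by linarith [hv.1])]
    linarith [hv.2]
  have h1 := hmem u hu i
  have h2 := hmem z ⟨hz.1.le, le_rfl⟩ i
  have e : Real.log (x u i) - Real.log (x z i) =
      (Real.log (x u i) - Real.log (x s i)) - (Real.log (x z i) - Real.log (x s i)) := by ring
  rw [e]
  calc _ ≤ |Real.log (x u i) - Real.log (x s i)| + |Real.log (x z i) - Real.log (x s i)| :=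
        abs_sub _ _
    _ ≤ ρ := by linarith

end IsCar

end Vale.Agent.Lib.P072G
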