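import Vale.Agent.Lib.P072G.Car1

/-!
The Lyapunov function along solutions of the integral equation, and permanence for measurable rates.
-/

open Finset Filter Topology MeasureTheory Vale.Agent.Lib.P072

namespace Vale.Agent.Lib.P072G

variable {d : ℕ}

/-- A sign condition for `log x` passes to a close point. -/
lemma sign_transfer (P : Par d) {x y q : Fin d → ℝ}
    (hclose : ∀ i, |Real.log (y i) - Real.log (x i)| ≤ 1 / (P.NN + 1))
    (h : ∀ v ∈ P.D, 0 < ev v q → P.dl ≤ ev v (fun i => Real.log (x i))) :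
    ∀ v ∈ P.D, 0 < ev v q → P.dl - 1 ≤ ev v (fun i => Real.log (y i)) := by
  intro v hv hpos
  have hN0 := P.hNN0
  obtain ⟨ρ, hρ⟩ : ∃ ρ : ℝ, ρ = 1 / (P.NN + 1) := ⟨_, rfl⟩
  rw [← hρ] at hclose
  have hρ0 : 0 < ρ := by rw [hρ]; positivity
  have hρN : P.NN * ρ ≤ 1 := by
    rw [hρ]
    have : P.NN * (1 / (P.NN + 1)) = P.NN / (P.NN + 1) := by ring
    rw [this, div_le_one (by linarith)]
    linarith
  have h1 := h v hv hpos
  have h3 : ev v (fun i => Real.log (x i)) - ev v (fun i => Real.log (y i)) =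
      ∑ i, v i * (Real.log (x i) - Real.log (y i)) := by
    unfold ev
    rw [← Finset.sum_sub_distrib]
    refine Finset.sum_congr rfl fun i _ => by ring
  have h4 : ∑ i, v i * (Real.log (x i) - Real.log (y i)) ≤ ∑ i, |v i| * ρ := by
    refine Finset.sum_le_sum fun i _ => ?_
    have h5 := le_abs_self (v i * (Real.log (x i) - Real.log (y i)))
    rw [abs_mul, abs_sub_comm] at h5
    exact le_trans h5 (mul_le_mul_of_nonneg_left (hclose i) (abs_nonneg _))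
  rw [← Finset.sum_mul] at h4
  have h6 := P.hNN v hv
  have h7 : (∑ i, |v i|) * ρ ≤ P.NN * ρ := mul_le_mul_of_nonneg_right h6 hρ0.le
  linarith

section car

variable {R : Finset (Cplx d × Cplx d)} {k : ℝ → Cplx d × Cplx d → ℝ} {C T : ℝ}
  {x : ℝ → Fin d → ℝ} {P : Par d}

/-- The increment of the Lyapunov function to the right of a time. -/
lemma dini_car (hPD : P.D = diffSet R) (hsol : IsCar R k T x)
    (hkm : ∀ p, Measurable fun t => k t p) (hkb : ∀ t p, |k t p| ≤ C) {s : ℝ}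
    (hs : s ∈ Set.Ico 0 T) {L : ℝ}
    (hL : ∀ᶠ z in 𝓝[>] s, z < T → ∀ q : Fin d → ℝ,
      (∀ x', (∀ i, 0 < x' i) → Wf P (x z) - Wf P x' ≤ dot q (x z - x')) →
      (∀ v ∈ P.D, ev v q ≠ 0 → P.kap * P.A0 / 2 ≤ |ev v q|) →
      ∀ u ∈ Set.Icc s z, (∀ v ∈ diffSet R, 0 < ev v q →
        P.dl - 1 ≤ ev v (fun i => Real.log (x u i))) →
        dot q (massAction R (k u) (x u)) ≤ L) :
    ∀ᶠ z in 𝓝[>] s, Wf P (x z) - Wf P (x s) ≤ L * (z - s) := by
  have hρ : 0 < 1 / (P.NN + 1) := by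
    have := P.hNN0
    positivity
  filter_upwards [hL, hsol.close hs hρ] with z hz hc
  obtain ⟨hzT, hsz, hclose⟩ := hc
  have hzdom : z ∈ Set.Ico 0 T := ⟨le_trans hs.1 hsz.le, hzT⟩
  obtain ⟨q, hq1, hq2, _, hq4⟩ := max_pkg2 P (hsol.pos z hzdom)
  have hfl : ∀ u ∈ Set.Icc s z, dot q (massAction R (k u) (x u)) ≤ L := by
    intro u hu
    refine hz hzT q hq1 hq4 u hu ?_
    intro v hv hpos
    rw [← hPD] at hv
    exact sign_transfer P (hclose u hu) hq2 v hv hpos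
  have h1 := hsol.dot_le hkm hkb hs.1 hsz.le hzT q hfl
  have h2 := hq1 (x s) (hsol.pos s hs)
  linarith

/-- The Lyapunov function does not increase along solutions of the integral equation. -/
theorem Wf_anti_car (hWR : WeaklyReversible R) {ε : ℝ} (hε : 0 < ε) (hPD : P.D = diffSet R)
    (hPdl : (R.card : ℝ) * ε⁻¹ ≤ ε * Real.exp (P.dl - 1)) (hk : ∀ t p, ε ≤ k t p ∧ k t p ≤ ε⁻¹)
    (hkm : ∀ p, Measurable fun t => k t p) (hsol : IsCar R k T x) {a t : ℝ} (ha : 0 ≤ a)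
    (hat : a ≤ t) (ht : t < T) : Wf P (x t) ≤ Wf P (x a) := by
  have hkb : ∀ t p, |k t p| ≤ ε⁻¹ := by
    intro t p
    rw [abs_of_pos (lt_of_lt_of_le hε (hk t p).1)]
    exact (hk t p).2
  have hf : ContinuousOn (fun s => Wf P (x s)) (Set.Icc a t) :=
    hsol.continuousOn_comp (fun y hy => Wf_continuousAt P hy) ha ht
  have h := image_le_of_liminf_slope_right_le_deriv_boundary (f := fun s => Wf P (x s))
    (B := fun _ => Wf P (x a)) (B' := fun _ => 0) hf le_rfl continuousOn_const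
    (fun _ _ => hasDerivWithinAt_const _ _ _) ?_
  · exact h ⟨hat, le_rfl⟩
  · intro s hs r hr
    have hs' : s ∈ Set.Ico 0 T := ⟨le_trans ha hs.1, lt_trans hs.2 ht⟩
    have hL : ∀ᶠ z in 𝓝[>] s, z < T → ∀ q : Fin d → ℝ,
        (∀ x', (∀ i, 0 < x' i) → Wf P (x z) - Wf P x' ≤ dot q (x z - x')) →
        (∀ v ∈ P.D, ev v q ≠ 0 → P.kap * P.A0 / 2 ≤ |ev v q|) →
        ∀ u ∈ Set.Icc s z, (∀ v ∈ diffSet R, 0 < ev v q →
          P.dl - 1 ≤ ev v (fun i => Real.log (x u i))) →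
          dot q (massAction R (k u) (x u)) ≤ 0 := by
      refine Eventually.of_forall fun z hzT q _ _ u hu hsign => ?_
      have hu' : u ∈ Set.Ico 0 T := ⟨le_trans hs'.1 hu.1, lt_of_le_of_lt hu.2 hzT⟩
      exact flux_nonpos hWR hε (hk u) (hsol.pos u hu') hPdl hsign
    have h1 := dini_car hPD hsol hkm hkb hs' hL
    have hgtz : ∀ᶠ z in 𝓝[>] s, s < z := self_mem_nhdsWithin
    have h2 : ∀ᶠ z in 𝓝[>] s, slope (fun s => Wf P (x s)) s z < r := by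
      filter_upwards [h1, hgtz] with z hz1 hz2
      have hzs : 0 < z - s := by linarith
      rw [slope_def_field]
      rw [div_lt_iff₀ hzs]
      nlinarith
    exact h2.frequently

/-- Linear decay above the minimum, for solutions of the integral equation. -/
theorem Wf_decay_car (hWR : WeaklyReversible R) {ε : ℝ} (hε : 0 < ε) (hPD : P.D = diffSet R)
    (hPdl : (R.card : ℝ) * ε⁻¹ ≤ ε * Real.exp (P.dl - 1))
    (hPdl2 : (R.card : ℝ) * (ε / 2)⁻¹ ≤ (ε / 2) * Real.exp (P.dl - 1))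
    (hk : ∀ t p, ε ≤ k t p ∧ k t p ≤ ε⁻¹) (hkm : ∀ p, Measurable fun t => k t p)
    (hsol : IsCar R k T x) {c : Fin d → ℝ} (hc : ∀ i, 0 < c i) (hx0c : x 0 - c ∈ stoich R)
    {μ : ℝ} (hμ0 : 0 < μ) (hμ : ∀ s ∈ Set.Ico 0 T, ∀ r ∈ R, μ ≤ monom (x s) r.1) {t : ℝ}
    (ht : t ∈ Set.Ico 0 T) (hgt : Wf P c < Wf P (x t)) :
    Wf P (x t) ≤ Wf P (x 0) - (ε * μ / 2 * (P.kap * P.A0 / 2)) * t := by
  have hkb : ∀ t p, |k t p| ≤ ε⁻¹ := by
    intro t p
    rw [abs_of_pos (lt_of_lt_of_le hε (hk t p).1)]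
    exact (hk t p).2
  obtain ⟨ρ, hρ⟩ : ∃ ρ : ℝ, ρ = ε * μ / 2 * (P.kap * P.A0 / 2) := ⟨_, rfl⟩
  rw [← hρ]
  have hf : ContinuousOn (fun s => Wf P (x s)) (Set.Icc 0 t) :=
    hsol.continuousOn_comp (fun y hy => Wf_continuousAt P hy) le_rfl ht.2
  have hBc : ContinuousOn (fun s : ℝ => Wf P (x 0) - ρ * s) (Set.Icc 0 t) := by fun_prop
  have hB' : ∀ s ∈ Set.Ico 0 t, HasDerivWithinAt (fun s : ℝ => Wf P (x 0) - ρ * s) (-ρ)
      (Set.Ici s) s := by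
    intro s _
    have := ((hasDerivAt_id s).const_mul ρ).const_sub (Wf P (x 0))
    simpa using this.hasDerivWithinAt
  have h := image_le_of_liminf_slope_right_le_deriv_boundary (f := fun s => Wf P (x s))
    (B := fun s => Wf P (x 0) - ρ * s) (B' := fun _ => -ρ) hf (by simp) hBc hB' ?_
  · exact h ⟨ht.1, le_rfl⟩
  · intro s hs r hr
    have hs' : s ∈ Set.Ico 0 T := ⟨hs.1, lt_trans hs.2 ht.2⟩
    have hnear : ∀ᶠ z in 𝓝[>] s, Wf P c < Wf P (x z) := by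
      have hlt : Set.Iio t ∈ 𝓝[>] s := mem_nhdsWithin_of_mem_nhds (Iio_mem_nhds hs.2)
      have hgtz : ∀ᶠ z in 𝓝[>] s, s < z := self_mem_nhdsWithin
      filter_upwards [hlt, hgtz] with z hz1 hz2
      have := Wf_anti_car hWR hε hPD hPdl hk hkm hsol (le_trans hs.1 hz2.le) (le_of_lt hz1) ht.2
      linarith
    have hL : ∀ᶠ z in 𝓝[>] s, z < T → ∀ q : Fin d → ℝ,
        (∀ x', (∀ i, 0 < x' i) → Wf P (x z) - Wf P x' ≤ dot q (x z - x')) →
        (∀ v ∈ P.D, ev v q ≠ 0 → P.kap * P.A0 / 2 ≤ |ev v q|) →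
        ∀ u ∈ Set.Icc s z, (∀ v ∈ diffSet R, 0 < ev v q →
          P.dl - 1 ≤ ev v (fun i => Real.log (x u i))) →
          dot q (massAction R (k u) (x u)) ≤ -ρ := by
      have hgtz : ∀ᶠ z in 𝓝[>] s, s < z := self_mem_nhdsWithin
      filter_upwards [hnear, hgtz] with z hz1 hz2 hzT q hq1 hq4 u hu hsign
      have hzdom : z ∈ Set.Ico 0 T := ⟨le_trans hs'.1 hz2.le, hzT⟩
      have hu' : u ∈ Set.Ico 0 T := ⟨le_trans hs'.1 hu.1, lt_of_le_of_lt hu.2 hzT⟩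
      have hnp : ∃ r₀ ∈ R, dot q (rxnVec r₀) ≠ 0 := by
        by_contra hno
        push Not at hno
        have h1 := hq1 c hc
        rw [dot_stoich hno (hsol.mem_class hkm hkb hx0c hzdom)] at h1
        linarith
      obtain ⟨r₀, hr₀, hne⟩ := hnp
      rw [hρ]
      exact flux_of_not_perp hWR hε hPD (hk u) (hsol.pos u hu') hPdl2 hsign hq4 hμ0 (hμ u hu') hr₀ hne
    have h1 := dini_car hPD hsol hkm hkb hs' hL
    have hgtz : ∀ᶠ z in 𝓝[>] s, s < z := self_mem_nhdsWithin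
    have hr' : 0 < r + ρ := by linarith
    have h2 : ∀ᶠ z in 𝓝[>] s, slope (fun s => Wf P (x s)) s z < r := by
      filter_upwards [h1, hgtz] with z hz1 hz2
      have hzs : 0 < z - s := by linarith
      rw [slope_def_field]
      rw [div_lt_iff₀ hzs]
      nlinarith
    exact h2.frequently

end car

/-- Permanence for measurable rates. -/
theorem permanent_car {R : Finset (Cplx d × Cplx d)} (hWR : WeaklyReversible R) {ε : ℝ}
    (hε : 0 < ε) {c : Fin d → ℝ} (hc : ∀ i, 0 < c i) :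
    ∃ K : Set (Fin d → ℝ), IsCompact K ∧ (∀ x ∈ K, (∀ i, 0 < x i) ∧ x - c ∈ stoich R) ∧
      ∀ x₁ : Fin d → ℝ, (∀ i, 0 < x₁ i) → x₁ - c ∈ stoich R →
        ∃ K₁ : Set (Fin d → ℝ), IsCompact K₁ ∧ (∀ x ∈ K₁, (∀ i, 0 < x i) ∧ x - c ∈ stoich R) ∧
          ∃ T₀ : ℝ, ∀ (k : ℝ → Cplx d × Cplx d → ℝ) (T : ℝ) (x : ℝ → Fin d → ℝ),
            (∀ t p, ε ≤ k t p ∧ k t p ≤ ε⁻¹) → (∀ p, Measurable fun t => k t p) →
            IsCar R k T x → x 0 = x₁ →
            ∀ t ∈ Set.Ico 0 T, x t ∈ K₁ ∧ (T₀ ≤ t → x t ∈ K) := by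
  classical
  obtain ⟨P₀, hP₀D, hP₀1, hP₀2, hP₀3⟩ := exists_par_at R hε c
  refine ⟨Kset P₀ R c, Kset_compact hWR hP₀D hc hP₀3, fun x hx => ⟨hx.1, hx.2.1⟩, ?_⟩
  intro x₁ hx₁ hx₁c
  obtain ⟨P₁, hP₁D, hP₁1, _, hP₁3⟩ := exists_par_at R hε x₁
  have hK₁ := Kset_compact hWR hP₁D hx₁ hP₁3
  refine ⟨Kset P₁ R x₁, hK₁, ?_, ?_⟩
  · intro x hx
    refine ⟨hx.1, ?_⟩
    have : x - c = (x - x₁) + (x₁ - c) := by abel
    rw [this]
    exact Submodule.add_mem _ hx.2.1 hx₁c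
  have hlow : ∀ r : Cplx d × Cplx d, ∃ m, 0 < m ∧ ∀ x ∈ Kset P₁ R x₁, m ≤ monom x r.1 := fun r =>
    exists_lower_of_pos hK₁ (contDiff_monom r.1).continuous fun x hx => monom_pos hx.1 r.1
  choose m hm hmle using hlow
  obtain ⟨μ, hμ0, hμ⟩ := exists_lower_fin R m (fun r _ => hm r)
  obtain ⟨ρ, hρ⟩ : ∃ ρ : ℝ, ρ = ε * μ / 2 * (P₀.kap * P₀.A0 / 2) := ⟨_, rfl⟩
  have hρ0 : 0 < ρ := by
    rw [hρ]
    have := P₀.hkap0
    have := A0_pos P₀
    positivity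
  refine ⟨(Wf P₀ x₁ - Wf P₀ c) / ρ, ?_⟩
  intro k T x hk hkm hsol hx0 t ht
  have hkb : ∀ t p, |k t p| ≤ ε⁻¹ := by
    intro t p
    rw [abs_of_pos (lt_of_lt_of_le hε (hk t p).1)]
    exact (hk t p).2
  have hx0' : x 0 - x₁ ∈ stoich R := by
    rw [hx0, sub_self]
    exact Submodule.zero_mem _
  have hx0c : x 0 - c ∈ stoich R := by
    rw [hx0]
    exact hx₁c
  have hin : ∀ s ∈ Set.Ico 0 T, x s ∈ Kset P₁ R x₁ := by
    intro s hs
    refine ⟨hsol.pos s hs, hsol.mem_class hkm hkb hx0' hs, ?_⟩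
    have := Wf_anti_car hWR hε hP₁D hP₁1 hk hkm hsol le_rfl hs.1 hs.2
    rwa [hx0] at this
  refine ⟨hin t ht, fun hT₀ => ?_⟩
  refine ⟨hsol.pos t ht, hsol.mem_class hkm hkb hx0c ht, ?_⟩
  by_contra hgt
  push Not at hgt
  have hdec := Wf_decay_car hWR hε hP₀D hP₀1 hP₀2 hk hkm hsol hc hx0c hμ0
    (fun s hs r hr => le_trans (hμ r hr) (hmle r _ (hin s hs))) ht hgt
  rw [← hρ, hx0] at hdec
  have h1 : Wf P₀ x₁ - Wf P₀ c ≤ ρ * t := by
    rw [div_le_iff₀ hρ0] at hT₀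
    linarith
  linarith

end Vale.Agent.Lib.P072G
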