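import Vale.Agent.Lib.P072G.Car2

/-!
Global existence for measurable rates: Picard iteration for the truncated field.
-/

open Finset Filter Topology MeasureTheory Vale.Agent.Lib.P072
open scoped NNReal Nat

namespace Vale.Agent.Lib.P072G

variable {d : ℕ}

/-- Picard iterates of the truncated integral equation. -/
noncomputable def pic (R : Finset (Cplx d × Cplx d)) (k : ℝ → Cplx d × Cplx d → ℝ) (a b : ℝ)
    (x₁ : Fin d → ℝ) : ℕ → ℝ → Fin d → ℝ
  | 0 => fun _ => x₁
  | n + 1 => fun t => x₁ + ∫ s in (0 : ℝ)..t, massAction R (k s) (clampv a b (pic R k a b x₁ n s))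

section picard

variable {R : Finset (Cplx d × Cplx d)} {k : ℝ → Cplx d × Cplx d → ℝ} {a b C : ℝ}
  {x₁ : Fin d → ℝ}

lemma continuous_clampv (hab : a ≤ b) : Continuous (clampv (d := d) a b) :=
  (lipschitz_clampv hab).continuous

lemma integrable_trunc (hab : a ≤ b) (hkm : ∀ p, Measurable fun t => k t p)
    (hkb : ∀ t p, |k t p| ≤ C) {y : ℝ → Fin d → ℝ} {α β : ℝ}
    (hy : ContinuousOn y (Set.uIcc α β)) :
    IntervalIntegrable (fun s => massAction R (k s) (clampv a b (y s))) volume α β :=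
  integrable_ma hkm hkb ((continuous_clampv hab).comp_continuousOn hy)

lemma continuous_pic (hab : a ≤ b) (hkm : ∀ p, Measurable fun t => k t p)
    (hkb : ∀ t p, |k t p| ≤ C) (n : ℕ) : Continuous (pic R k a b x₁ n) := by
  induction n with
  | zero => exact continuous_const
  | succ n ih =>
    simp only [pic]
    refine continuous_const.add ?_
    exact intervalIntegral.continuous_primitive
      (fun α β => integrable_trunc hab hkm hkb ih.continuousOn) 0

lemma pic_zero (n : ℕ) : pic R k a b x₁ n 0 = x₁ := by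
  cases n with
  | zero => rfl
  | succ n => simp [pic]

/-- The bound of the successive differences. -/
lemma pic_diff (hab : a ≤ b) (hkm : ∀ p, Measurable fun t => k t p) (hkb : ∀ t p, |k t p| ≤ C)
    {Kf Lf : ℝ≥0} (hKL : ∀ k : Cplx d × Cplx d → ℝ, (∀ p, |k p| ≤ C) →
      LipschitzWith Kf (fun x => massAction R k (clampv a b x)) ∧
      ∀ x, ‖massAction R k (clampv a b x)‖ ≤ Lf) (n : ℕ) {t : ℝ} (ht : 0 ≤ t) :
    ‖pic R k a b x₁ (n + 1) t - pic R k a b x₁ n t‖ ≤
      Lf * Kf ^ n * t ^ (n + 1) / (n + 1)! := by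
  induction n generalizing t with
  | zero =>
    simp only [pic, add_sub_cancel_left, pow_zero, mul_one, zero_add, pow_one, Nat.factorial_one,
      Nat.cast_one, div_one]
    have h := intervalIntegral.norm_integral_le_of_norm_le_const (a := 0) (b := t) (C := (Lf : ℝ))
      (f := fun s => massAction R (k s) (clampv a b x₁))
      (fun s _ => (hKL (k s) (hkb s)).2 x₁)
    rw [sub_zero, abs_of_nonneg ht] at h
    exact h
  | succ n ih =>
    have hc1 := continuous_pic (R := R) (x₁ := x₁) hab hkm hkb (n + 1)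
    have hc0 := continuous_pic (R := R) (x₁ := x₁) hab hkm hkb n
    have hd : pic R k a b x₁ (n + 1 + 1) t - pic R k a b x₁ (n + 1) t =
        ∫ s in (0 : ℝ)..t, (massAction R (k s) (clampv a b (pic R k a b x₁ (n + 1) s)) -
          massAction R (k s) (clampv a b (pic R k a b x₁ n s))) := by
      rw [intervalIntegral.integral_sub (integrable_trunc hab hkm hkb hc1.continuousOn)
        (integrable_trunc hab hkm hkb hc0.continuousOn)]
      simp only [pic]
      abel
    rw [hd]
    obtain ⟨g, hg⟩ : ∃ g : ℝ → ℝ, g = fun s => (Kf : ℝ) * (Lf * Kf ^ n / (n + 1)!) * s ^ (n + 1) :=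
      ⟨_, rfl⟩
    have hgc : Continuous g := by
      rw [hg]
      fun_prop
    have h1 := intervalIntegral.norm_integral_le_of_norm_le (μ := volume) (a := 0) (b := t)
      (f := fun s => massAction R (k s) (clampv a b (pic R k a b x₁ (n + 1) s)) -
          massAction R (k s) (clampv a b (pic R k a b x₁ n s))) (g := g) ht
      (ae_of_all _ fun s hs => ?_) (hgc.intervalIntegrable _ _)
    · refine le_trans h1 (le_of_eq ?_)
      rw [hg, intervalIntegral.integral_const_mul, integral_pow]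
      have h2 : ((n + 1 + 1)! : ℝ) = (n + 2) * (n + 1)! := by
        rw [Nat.factorial_succ]
        push_cast
        ring
      rw [h2]
      have h3 : ((n + 1)! : ℝ) ≠ 0 := by positivity
      have h4 : ((n : ℝ) + 2) ≠ 0 := by positivity
      push_cast
      have h5 : ((n : ℝ) + 1 + 1) = n + 2 := by ring
      rw [zero_pow (by omega), sub_zero, h5]
      field_simp
      ring
    · have h2 := (hKL (k s) (hkb s)).1.dist_le_mul (pic R k a b x₁ (n + 1) s) (pic R k a b x₁ n s)
      rw [dist_eq_norm, dist_eq_norm] at h2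
      refine le_trans h2 ?_
      have h3 := ih (t := s) hs.1.le
      rw [hg]
      simp only
      calc (Kf : ℝ) * ‖pic R k a b x₁ (n + 1) s - pic R k a b x₁ n s‖
          ≤ Kf * (Lf * Kf ^ n * s ^ (n + 1) / (n + 1)!) :=
            mul_le_mul_of_nonneg_left h3 (NNReal.coe_nonneg _)
        _ = _ := by ring

/-- The iterates are uniformly Lipschitz. -/
lemma pic_lip (hab : a ≤ b) (hkm : ∀ p, Measurable fun t => k t p) (hkb : ∀ t p, |k t p| ≤ C)
    {Kf Lf : ℝ≥0} (hKL : ∀ k : Cplx d × Cplx d → ℝ, (∀ p, |k p| ≤ C) →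
      LipschitzWith Kf (fun x => massAction R k (clampv a b x)) ∧
      ∀ x, ‖massAction R k (clampv a b x)‖ ≤ Lf) (n : ℕ) (t t' : ℝ) :
    ‖pic R k a b x₁ n t - pic R k a b x₁ n t'‖ ≤ Lf * |t - t'| := by
  cases n with
  | zero =>
    simp only [pic, sub_self, norm_zero]
    positivity
  | succ n =>
    have hc0 := continuous_pic (R := R) (x₁ := x₁) hab hkm hkb n
    have hi : ∀ c : ℝ, IntervalIntegrable
        (fun s => massAction R (k s) (clampv a b (pic R k a b x₁ n s))) volume 0 c := fun c =>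
      integrable_trunc hab hkm hkb hc0.continuousOn
    have hd : pic R k a b x₁ (n + 1) t - pic R k a b x₁ (n + 1) t' =
        ∫ s in t'..t, massAction R (k s) (clampv a b (pic R k a b x₁ n s)) := by
      rw [← intervalIntegral.integral_interval_sub_left (hi t) (hi t')]
      simp only [pic]
      abel
    rw [hd]
    exact intervalIntegral.norm_integral_le_of_norm_le_const fun s _ => (hKL (k s) (hkb s)).2 _

/-- The limit of the iterates. -/
theorem exists_trunc_global (hab : a ≤ b) (hkm : ∀ p, Measurable fun t => k t p)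
    (hkb : ∀ t p, |k t p| ≤ C) (hC : 0 ≤ C) :
    ∃ α : ℝ → Fin d → ℝ, α 0 = x₁ ∧ ContinuousOn α (Set.Ici 0) ∧ ∀ t, 0 ≤ t →
      α t = x₁ + ∫ s in (0 : ℝ)..t, massAction R (k s) (clampv a b (α s)) := by
  classical
  obtain ⟨Kf, Lf, hKL⟩ := trunc_bounds R (a := a) (b := b) hab hC
  -- pointwise convergence
  have hlim : ∀ t : ℝ, ∃ L : Fin d → ℝ, 0 ≤ t → Tendsto (fun n => pic R k a b x₁ n t) atTop (𝓝 L) := by
    intro t
    by_cases ht : 0 ≤ t
    · have hsum : Summable fun n : ℕ => dist (pic R k a b x₁ n t) (pic R k a b x₁ n.succ t) := by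
        have hs := Real.summable_pow_div_factorial ((Kf : ℝ) * t)
        have hs' := hs.mul_left ((Lf : ℝ) * t)
        refine Summable.of_nonneg_of_le (fun _ => dist_nonneg) (fun n => ?_) hs'
        rw [dist_comm, dist_eq_norm]
        refine le_trans (pic_diff hab hkm hkb hKL n ht) ?_
        have h1 : (n ! : ℝ) ≤ (n + 1)! := by
          exact_mod_cast Nat.factorial_le (Nat.le_succ n)
        have h2 : (0 : ℝ) < n ! := by positivity
        have h3 : (Lf : ℝ) * Kf ^ n * t ^ (n + 1) / (n + 1)! =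
            (Lf * t) * (((Kf : ℝ) * t) ^ n / (n + 1)!) := by
          rw [mul_pow, pow_succ]
          ring
        rw [h3]
        refine mul_le_mul_of_nonneg_left ?_ (by positivity)
        exact div_le_div_of_nonneg_left (by positivity) h2 h1
      have hcs := cauchySeq_of_summable_dist hsum
      obtain ⟨L, hL⟩ := cauchySeq_tendsto_of_complete hcs
      exact ⟨L, fun _ => hL⟩
    · exact ⟨x₁, fun h => absurd h ht⟩
  choose α hα using hlim
  have hα0 : α 0 = x₁ := by
    have h1 := hα 0 le_rfl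
    have h2 : (fun n => pic R k a b x₁ n 0) = fun _ => x₁ := by
      funext n
      exact pic_zero n
    rw [h2] at h1
    exact tendsto_nhds_unique h1 tendsto_const_nhds
  have hlip : ∀ t t' : ℝ, 0 ≤ t → 0 ≤ t' → ‖α t - α t'‖ ≤ Lf * |t - t'| := by
    intro t t' ht ht'
    have h1 := ((hα t ht).sub (hα t' ht')).norm
    exact le_of_tendsto h1 (Eventually.of_forall fun n => pic_lip hab hkm hkb hKL n t t')
  have hcont : ContinuousOn α (Set.Ici 0) := by
    have : LipschitzOnWith Lf α (Set.Ici 0) := by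
      refine LipschitzOnWith.of_dist_le_mul fun t ht t' ht' => ?_
      rw [dist_eq_norm, Real.dist_eq]
      exact hlip t t' ht ht'
    exact this.continuousOn
  refine ⟨α, hα0, hcont, fun t ht => ?_⟩
  -- passing to the limit in the integral equation
  have hsub : Set.uIcc 0 t ⊆ Set.Ici (0 : ℝ) := by
    intro s hs
    rw [Set.uIcc_of_le ht] at hs
    exact hs.1
  have hlimI : Tendsto (fun n => ∫ s in (0 : ℝ)..t,
      massAction R (k s) (clampv a b (pic R k a b x₁ n s))) atTop
      (𝓝 (∫ s in (0 : ℝ)..t, massAction R (k s) (clampv a b (α s)))) := by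
    refine intervalIntegral.tendsto_integral_filter_of_dominated_convergence (fun _ => (Lf : ℝ))
      ?_ ?_ intervalIntegrable_const ?_
    · refine Eventually.of_forall fun n => ?_
      have hc0 := continuous_pic (R := R) (x₁ := x₁) hab hkm hkb n
      have h1 := integrable_trunc (a := a) (b := b) (R := R) hab hkm hkb hc0.continuousOn
        (α := 0) (β := t)
      rw [intervalIntegrable_iff] at h1
      exact h1.aestronglyMeasurable
    · exact Eventually.of_forall fun n => ae_of_all _ fun s _ => (hKL (k s) (hkb s)).2 _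
    · refine ae_of_all _ fun s hs => ?_
      have hs0 : 0 ≤ s := by
        rw [Set.uIoc_of_le ht] at hs
        exact hs.1.le
      have h1 := hα s hs0
      exact ((hKL (k s) (hkb s)).1.continuous.tendsto (α s)).comp h1
  have h2 : Tendsto (fun n => pic R k a b x₁ (n + 1) t) atTop
      (𝓝 (x₁ + ∫ s in (0 : ℝ)..t, massAction R (k s) (clampv a b (α s)))) := by
    simp only [pic]
    exact tendsto_const_nhds.add hlimI
  have h3 := (hα t ht).comp (tendsto_add_atTop_nat 1)
  exact tendsto_nhds_unique h3 h2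

end picard

/-- An a priori bound keeps the truncated solution in the bounded region. -/
lemma trunc_stays_car (R : Finset (Cplx d × Cplx d)) {k : ℝ → Cplx d × Cplx d → ℝ} {m M : ℝ}
    (hm : 0 < m) (hmM : m ≤ M)
    {x₁ : Fin d → ℝ} (hx₁ : ∀ i, m ≤ x₁ i ∧ x₁ i ≤ M)
    (htrap : ∀ (T' : ℝ) (x : ℝ → Fin d → ℝ), IsCar R k T' x → x 0 = x₁ →
      ∀ t ∈ Set.Ico 0 T', ∀ i, m ≤ x t i ∧ x t i ≤ M)
    {α : ℝ → Fin d → ℝ} (hα0 : α 0 = x₁) {T : ℝ} (hT : 0 ≤ T)
    (hcont : ContinuousOn α (Set.Icc 0 T))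
    (hα : ∀ t ∈ Set.Icc 0 T,
      α t = x₁ + ∫ s in (0 : ℝ)..t, massAction R (k s) (clampv (m / 2) (2 * M) (α s))) :
    ∀ t ∈ Set.Icc 0 T, ∀ i, m ≤ α t i ∧ α t i ≤ M := by
  classical
  have hMpos : 0 < M := lt_of_lt_of_le hm hmM
  obtain ⟨Bx, hBx⟩ : ∃ Bx : Set (Fin d → ℝ), Bx = {z | ∀ i, m ≤ z i ∧ z i ≤ M} := ⟨_, rfl⟩
  have hBxclosed : IsClosed Bx := by
    have : Bx = ⋂ i, {z : Fin d → ℝ | m ≤ z i ∧ z i ≤ M} := by
      rw [hBx]; ext z; simp
    rw [this]
    refine isClosed_iInter fun i => ?_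
    exact (isClosed_le continuous_const (continuous_apply i)).inter
      (isClosed_le (continuous_apply i) continuous_const)
  obtain ⟨s, hs⟩ : ∃ s : Set ℝ, s = {t | ∀ u ∈ Set.Icc 0 t, α u ∈ Bx} := ⟨_, rfl⟩
  have hsmem : ∀ t, t ∈ s ↔ ∀ u ∈ Set.Icc 0 t, α u ∈ Bx := fun t => by rw [hs]; rfl
  have hclosed : IsClosed (s ∩ Set.Icc 0 T) := by
    refine isClosed_of_closure_subset fun t ht => ?_
    have htI : t ∈ Set.Icc (0 : ℝ) T :=
      closure_minimal Set.inter_subset_right isClosed_Icc ht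
    refine ⟨(hsmem t).2 fun u hu => ?_, htI⟩
    rcases lt_or_eq_of_le hu.2 with hut | hut
    · have hnhds : Set.Ioi u ∈ 𝓝 t := Ioi_mem_nhds hut
      obtain ⟨t', ht'1, ht'2⟩ := mem_closure_iff_nhds.1 ht _ hnhds
      exact (hsmem t').1 ht'2.1 u ⟨hu.1, (ht'1 : u < t').le⟩
    · subst hut
      have h1 : ContinuousWithinAt α (s ∩ Set.Icc 0 T) u :=
        (hcont u htI).mono Set.inter_subset_right
      have h2 := h1.mem_closure_image ht
      have h3 : α '' (s ∩ Set.Icc 0 T) ⊆ Bx := by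
        rintro _ ⟨t', ht', rfl⟩
        exact (hsmem t').1 ht'.1 t' ⟨ht'.2.1, le_rfl⟩
      exact closure_minimal h3 hBxclosed h2
  have h0 : (0 : ℝ) ∈ s := by
    rw [hsmem]
    intro u hu
    have : u = 0 := le_antisymm hu.2 hu.1
    rw [this, hα0, hBx]
    exact hx₁
  have hstep : ∀ t ∈ s ∩ Set.Ico 0 T, ∀ t' ∈ Set.Ioi t, (s ∩ Set.Ioc t t').Nonempty := by
    intro t ht t' ht'
    have htt : t ∈ Set.Icc 0 T := ⟨ht.2.1, ht.2.2.le⟩
    have hαt : α t ∈ Bx := (hsmem t).1 ht.1 t ⟨ht.2.1, le_rfl⟩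
    rw [hBx] at hαt
    have hU : ∀ᶠ u in 𝓝[Set.Icc 0 T] t, ∀ i, m / 2 < α u i ∧ α u i < 2 * M := by
      rw [Filter.eventually_all]
      intro i
      have hci : ContinuousWithinAt (fun u => α u i) (Set.Icc 0 T) t :=
        (continuousWithinAt_pi.1 (hcont t htt)) i
      have h1 : m / 2 < α t i := by linarith [(hαt i).1]
      have h2 : α t i < 2 * M := by linarith [(hαt i).2]
      exact (hci.eventually (lt_mem_nhds h1)).and (hci.eventually (gt_mem_nhds h2))
    obtain ⟨δ, hδ, hball⟩ := Metric.mem_nhdsWithin_iff.1 hU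
    obtain ⟨t₂, ht₂⟩ : ∃ t₂, t₂ = min t' (min (t + δ / 2) T) := ⟨_, rfl⟩
    have ht₂a : t₂ ≤ t' := by rw [ht₂]; exact min_le_left _ _
    have ht₂b : t₂ ≤ t + δ / 2 := by
      rw [ht₂]; exact le_trans (min_le_right _ _) (min_le_left _ _)
    have ht₂c : t₂ ≤ T := by
      rw [ht₂]; exact le_trans (min_le_right _ _) (min_le_right _ _)
    have ht₂d : t < t₂ := by
      rw [ht₂]
      exact lt_min ht' (lt_min (by linarith) ht.2.2)
    have hbelow : ∀ u ∈ Set.Ico 0 t₂, ∀ i, m / 2 < α u i ∧ α u i < 2 * M := by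
      intro u hu
      rcases le_or_gt u t with hut | hut
      · have h1 := (hsmem t).1 ht.1 u ⟨hu.1, hut⟩
        rw [hBx] at h1
        intro i
        constructor
        · linarith [(h1 i).1]
        · linarith [(h1 i).2]
      · apply hball
        refine ⟨?_, ⟨hu.1, le_trans hu.2.le ht₂c⟩⟩
        rw [Metric.mem_ball, Real.dist_eq, abs_of_pos (by linarith)]
        linarith [hu.2]
    have hsol : IsCar R k t₂ α := by
      refine ⟨hcont.mono fun u hu => ⟨hu.1, le_trans hu.2.le ht₂c⟩, ?_, ?_⟩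
      · intro u hu i
        have := (hbelow u hu i).1
        linarith
      · intro u hu
        have h1 := hα u ⟨hu.1, le_trans hu.2.le ht₂c⟩
        rw [hα0]
        nth_rewrite 1 [h1]
        congr 1
        refine intervalIntegral.integral_congr fun v hv => ?_
        rw [Set.uIcc_of_le hu.1] at hv
        have hv' : v ∈ Set.Ico 0 t₂ := ⟨hv.1, lt_of_le_of_lt hv.2 hu.2⟩
        rw [clampv_of_mem (fun i => ⟨(hbelow v hv' i).1.le, (hbelow v hv' i).2.le⟩)]
    have hbd := htrap t₂ α hsol hα0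
    refine ⟨(t + t₂) / 2, ?_, by linarith, by linarith⟩
    rw [hsmem]
    intro u hu
    rw [hBx]
    exact hbd u ⟨hu.1, by linarith [hu.2]⟩
  have hsub := IsClosed.Icc_subset_of_forall_exists_gt hclosed h0 hstep
  intro t ht i
  have := (hsmem t).1 (hsub ht) t ⟨ht.1, le_rfl⟩
  rw [hBx] at this
  exact this i

/-- Global existence for measurable rates from an a priori bound. -/
theorem exists_global_car (R : Finset (Cplx d × Cplx d)) {k : ℝ → Cplx d × Cplx d → ℝ}
    (hkm : ∀ p, Measurable fun t => k t p) {C : ℝ} (hkb : ∀ t p, |k t p| ≤ C) (hC : 0 ≤ C) {m M : ℝ}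
    (hm : 0 < m) (hmM : m ≤ M) {x₁ : Fin d → ℝ} (hx₁ : ∀ i, m ≤ x₁ i ∧ x₁ i ≤ M)
    (htrap : ∀ (T : ℝ) (x : ℝ → Fin d → ℝ), IsCar R k T x → x 0 = x₁ →
      ∀ t ∈ Set.Ico 0 T, ∀ i, m ≤ x t i ∧ x t i ≤ M) :
    ∃ x : ℝ → Fin d → ℝ, x 0 = x₁ ∧ ContinuousOn x (Set.Ici 0) ∧ ∀ t, 0 ≤ t →
      (∀ i, 0 < x t i) ∧ x t = x₁ + ∫ s in (0 : ℝ)..t, massAction R (k s) (x s) := by
  have hab : m / 2 ≤ 2 * M := by linarith
  obtain ⟨α, hα0, hcont, hα⟩ := exists_trunc_global (R := R) (x₁ := x₁) hab hkm hkb hC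
  have hstay : ∀ t, 0 ≤ t → ∀ i, m ≤ α t i ∧ α t i ≤ M := by
    intro t ht
    exact trunc_stays_car R hm hmM hx₁ htrap hα0 ht
      (hcont.mono fun u hu => hu.1) (fun u hu => hα u hu.1) t ⟨ht, le_rfl⟩
  refine ⟨α, hα0, hcont, fun t ht => ⟨fun i => ?_, ?_⟩⟩
  · have := (hstay t ht i).1
    linarith
  · nth_rewrite 1 [hα t ht]
    congr 1
    refine intervalIntegral.integral_congr fun v hv => ?_
    rw [Set.uIcc_of_le ht] at hv
    rw [clampv_of_mem (fun i => ⟨by linarith [(hstay v hv.1 i).1], by linarith [(hstay v hv.1 i).2]⟩)]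

end Vale.Agent.Lib.P072G
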