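import Vale.Agent.Lib.P072G.Facts

/-!
Decomposition of a maximal site into runs and the bound for the coordinates below a run.
-/

open Finset

namespace Vale.Agent.Lib.P072G

variable {d : ℕ}

lemma head_ties (t : List (Fin d)) (a : Fin d) (b : Bool) (Q : List (Fin d × Bool)) (q : Fin d → ℝ)
    (htq : ∀ i ∈ t, q i = q a) : ∃ e ∈ (ties t ((a, b) :: Q)).head?, q e.1 = q a := by
  cases t with
  | nil => exact ⟨(a, b), by simp, rfl⟩
  | cons j t => exact ⟨(j, true), by simp, htq j (by simp)⟩

lemma head_eq_of_mem {l : List (Fin d × Bool)} {e e' : Fin d × Bool} (he : e ∈ l.head?)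
    (he' : e' ∈ l.head?) : e = e' := by
  rw [Option.mem_def] at he he'
  rw [he] at he'
  exact Option.some.inj he'

/-- A tied entry after a chain must have digit one. -/
lemma digit_of_tie {P : Par d} {q : Fin d → ℝ} {l : List (Fin d × Bool)} {e h : Fin d × Bool}
    (hv : Valid P q (e :: l)) (hh : h ∈ l.head?) (heq : q e.1 = q h.1) : e.2 = true := by
  have hstep := hv.2.2
  cases hb : e.2 with
  | true => rfl
  | false =>
    exfalso
    have hU := head_mem_coords hh
    have hnf := hstep.nonflat hb _ (SS_tie P.D hU)
    rw [ev_single, heq] at hnf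
    have hlen : (word l).length ≤ d := by simpa using valid_length_le hv.1
    have hw := win_pos P hlen
    rcases hnf with h1 | h1 <;> linarith

/-- The oldest run in the new part of a chain. -/
lemma run_of_tail {P : Par d} {q : Fin d → ℝ} {Q : List (Fin d × Bool)} :
    ∀ T : List (Fin d × Bool), Valid P q (T ++ Q) → T ≠ [] →
    ∃ (T' : List (Fin d × Bool)) (t : List (Fin d)) (a : Fin d) (b : Bool),
      T = T' ++ ties t [(a, b)] ∧ (∀ i ∈ t, q i = q a) ∧ (∀ e ∈ T'.getLast?, q e.1 < q a) := by
  intro T
  induction T with
  | nil => intro _ h; exact absurd rfl h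
  | cons e T₀ ih =>
    intro hv _
    by_cases hT₀ : T₀ = []
    · subst hT₀
      exact ⟨[], [], e.1, e.2, by simp, by simp, by simp⟩
    · have hv' : Valid P q (T₀ ++ Q) := hv.1
      obtain ⟨T₁, t, a, b, hT, htq, hlast⟩ := ih hv' hT₀
      by_cases hT₁ : T₁ = []
      · subst hT₁
        simp only [List.nil_append] at hT
        subst hT
        have hlist : ties t [(a, b)] ++ Q = ties t ((a, b) :: Q) := by
          simp [ties]
        have hv2 : Valid P q (e :: ties t ((a, b) :: Q)) := by
          have := hv
          simp only [List.cons_append, hlist] at this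
          exact this
        obtain ⟨h₀, hh₀, hl₀⟩ := head_ties t a b Q q htq
        have hle : q e.1 ≤ q a := by
          have := hv2.2.2.sorted h₀ hh₀
          rwa [hl₀] at this
        rcases lt_or_eq_of_le hle with hlt | heq
        · refine ⟨[e], t, a, b, by simp, htq, ?_⟩
          intro e' he'
          simp only [List.getLast?_singleton, Option.mem_def, Option.some.injEq] at he'
          subst he'
          exact hlt
        · have hdig := digit_of_tie hv2 hh₀ (by rw [heq, hl₀])
          refine ⟨[], e.1 :: t, a, b, ?_, ?_, by simp⟩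
          · simp only [List.nil_append, ties_cons]
            rw [← hdig]
          · intro i hi
            rcases List.mem_cons.1 hi with rfl | hi'
            · exact heq
            · exact htq i hi'
      · refine ⟨e :: T₁, t, a, b, by simp [hT], htq, ?_⟩
        intro e' he'
        apply hlast
        rw [List.getLast?_cons_of_ne_nil hT₁] at he'
        exact he'

lemma getLast_run (T' : List (Fin d × Bool)) (t : List (Fin d)) (a : Fin d) (b : Bool) :
    (T' ++ ties t [(a, b)]).getLast? = some (a, b) := by
  simp [ties]

/-- Everything in the chain after a boundary lies below the level of the boundary. -/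
theorem low_bound {P : Par d} {x q : Fin d → ℝ} (hx : ∀ i, 0 < x i) {s : List (Fin d × Bool)}
    (hv : Valid P q s) (hall : coords s = Finset.univ)
    (hmax : ∀ (q' : Fin d → ℝ) (l' : List (Fin d × Bool)), Valid P q' l' →
      coords l' = Finset.univ → GG P x q' l' ≤ GG P x q s) (n : ℕ) :
    ∀ T Q : List (Fin d × Bool), T.length ≤ n → s = T ++ Q →
      (∀ e ∈ T.getLast?, ∀ e' ∈ Q.head?, q e.1 < q e'.1) →
      ∀ i ∈ coords T, ∀ e' ∈ Q.head?, Real.log (x i) ≤ q e'.1 - P.win (word Q) / 2 + P.Cc := by
  classical
  induction n with
  | zero =>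
    intro T Q hT _ _ i hi
    have : T = [] := List.length_eq_zero_iff.1 (by omega)
    subst this
    simp at hi
  | succ n ih =>
    intro T Q hT hs hbd i hi e' he'
    have hvT : Valid P q (T ++ Q) := hs ▸ hv
    have hTne : T ≠ [] := by
      rintro rfl
      simp at hi
    obtain ⟨T', t, a, b, hTe, htq, hlast⟩ := run_of_tail T hvT hTne
    have hlist : T ++ Q = T' ++ ties t ((a, b) :: Q) := by
      rw [hTe]; simp [ties]
    have hs' : s = T' ++ ties t ((a, b) :: Q) := by rw [hs, hlist]
    have hT'len : T'.length ≤ n := by
      have h1 : T.length = T'.length + (ties t [(a, b)]).length := by rw [hTe]; simp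
      have h2 : (ties t [(a, b)]).length = t.length + 1 := by simp [ties]
      omega
    obtain ⟨h₀, hh₀, hl₀⟩ := head_ties t a b Q q htq
    have hIH := ih T' (ties t ((a, b) :: Q)) hT'len hs' (by
      intro e₁ he₁ e₂ he₂
      rw [head_eq_of_mem he₂ hh₀, hl₀]
      exact hlast e₁ he₁)
    have hlowb : ∀ i ∈ coords T', Real.log (x i) ≤
        q a - P.win (word (ties t ((a, b) :: Q))) / 2 + P.Cc := by
      intro i hi
      have := hIH i hi h₀ hh₀
      rwa [hl₀] at this
    have hstrict : ∀ e ∈ Q.head?, q a < q e.1 := by
      intro e he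
      have := hbd (a, b) (by rw [hTe, getLast_run]; rfl) e he
      exact this
    have hctx : RunCtx P x q Q T' a b t := by
      refine ⟨hx, hs' ▸ hv, hs' ▸ hall, ?_, htq⟩
      intro q₁ l₁ hv₁ hc₁
      rw [← hs']
      exact hmax q₁ l₁ hv₁ hc₁
    have hup := hctx.up hlowb hstrict
    have hlvl := hctx.lvl
    have hvQ := hctx.vPr
    have hlen := hctx.card_le
    have hw := win_pos P (w := word Q) (by omega)
    have hA' := hctx.winA'
    have hA0 := P.hA0
    have hst := hstrict e' he'
    have heU := head_mem_coords he'
    have hy : Real.log (x i) ≤ q a + 2 * P.win (word Q) * (if b then 1 else 0) + P.Cc := by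
      have hi' : i ∈ coords T' ∨ i ∈ runI a t := by
        rw [hTe, coords_append, coords_ties] at hi
        simp only [Finset.mem_union, coords_cons, Finset.mem_insert, coords_nil,
          Finset.notMem_empty, or_false, List.mem_toFinset] at hi
        simp only [runI, Finset.mem_insert, List.mem_toFinset]
        tauto
      rcases hi' with hi' | hi'
      · have := hlowb i hi'
        cases b <;> simp <;> nlinarith
      · have h1 := hctx.y_le_m hi'
        cases b with
        | false => have := hup.1 rfl; simp; linarith
        | true => have := hup.2 rfl; simp; linarith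
    cases b with
    | false =>
      have hL : q a ≤ q e'.1 - P.win (word Q) / 2 := by
        rcases hlvl.nonflat rfl _ (SS_tie P.D heU) with h1 | h1
        · rwa [ev_single] at h1
        · rw [ev_single] at h1
          linarith
      simp at hy
      linarith
    | true =>
      obtain ⟨c₀, hc₀, hLc₀⟩ := hlvl.flat rfl
      have hne : ev (Pi.single e'.1 1) q ≠ ev c₀ q := by
        rw [← hLc₀, ev_single]
        exact hst.ne'
      have hg := gap P hvQ (SS_tie P.D heU) hc₀ hne
      rw [← hLc₀, ev_single, abs_of_pos (by linarith)] at hg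
      simp at hy
      linarith

end Vale.Agent.Lib.P072G
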