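import Mathlib

/-!
The family of centers: a finite family `S U` of linear functionals supported on `U`, closed under
the elimination of a coordinate.
-/

open Finset

namespace Vale.Agent.Lib.P072G

variable {d : ℕ}

/-- Pairing of a functional with a point. -/
noncomputable def ev (c q : Fin d → ℝ) : ℝ := ∑ i, c i * q i

/-- Solving `f = 0` for the coordinate `u`. -/
noncomputable def elim (f : Fin d → ℝ) (u : Fin d) : Fin d → ℝ :=
  fun i => if i = u then 0 else - f i / f u

lemma ev_elim (f q : Fin d → ℝ) (u : Fin d) (hu : f u ≠ 0) :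
    ev f q = f u * (q u - ev (elim f u) q) := by
  unfold ev elim
  have h1 : ∑ i, (if i = u then (0:ℝ) else - f i / f u) * q i
      = - (∑ i, (if i = u then 0 else f i * q i)) / f u := by
    rw [neg_div, Finset.sum_div, ← Finset.sum_neg_distrib]
    refine Finset.sum_congr rfl fun i _ => ?_
    split_ifs
    · simp
    · field_simp
  rw [h1]
  have h2 : ∑ i, f i * q i = f u * q u + ∑ i, (if i = u then 0 else f i * q i) := by
    rw [← Finset.add_sum_erase _ _ (Finset.mem_univ u)]
    congr 1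
    rw [← Finset.add_sum_erase (Finset.univ) (fun i => if i = u then 0 else f i * q i) (Finset.mem_univ u)]
    simp only [if_true, zero_add]
    refine Finset.sum_congr rfl fun i hi => ?_
    rw [if_neg (Finset.ne_of_mem_erase hi)]
  rw [h2]
  field_simp
  ring

lemma ev_sub (c₁ c₂ q : Fin d → ℝ) : ev (c₁ - c₂) q = ev c₁ q - ev c₂ q := by
  unfold ev
  rw [← Finset.sum_sub_distrib]
  refine Finset.sum_congr rfl fun i _ => ?_
  simp only [Pi.sub_apply]
  ring

lemma ev_single (u : Fin d) (q : Fin d → ℝ) : ev (Pi.single u 1) q = q u := by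
  unfold ev
  rw [Finset.sum_eq_single u]
  · simp
  · intro b _ hb
    simp [Pi.single_eq_of_ne hb]
  · simp

lemma ev_congr {c q q' : Fin d → ℝ} {U : Finset (Fin d)} (hc : ∀ i, c i ≠ 0 → i ∈ U)
    (h : ∀ i ∈ U, q i = q' i) : ev c q = ev c q' := by
  unfold ev
  refine Finset.sum_congr rfl fun i _ => ?_
  by_cases hi : c i = 0
  · simp [hi]
  · rw [h i (hc i hi)]

open Classical in
/-- The initial family: ties and solved differences. -/
noncomputable def baseS (D : Finset (Fin d → ℝ)) (U : Finset (Fin d)) : Finset (Fin d → ℝ) :=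
  U.image (fun u => Pi.single u 1) ∪
  ((D ×ˢ (Finset.univ : Finset (Fin d))).filter
    (fun p => p.2 ∉ U ∧ p.1 p.2 ≠ 0 ∧ ∀ i, p.1 i ≠ 0 → i = p.2 ∨ i ∈ U)).image
    (fun p => elim p.1 p.2)

open Classical in
/-- One round of elimination. -/
noncomputable def stepS (prev : Finset (Fin d) → Finset (Fin d → ℝ)) (U : Finset (Fin d)) :
    Finset (Fin d → ℝ) :=
  prev U ∪ ((Finset.univ : Finset (Finset (Fin d))).filter (fun V => U ⊂ V)).biUnion fun V =>
    (V \ U).biUnion fun u =>
      ((prev V ×ˢ prev V).filter (fun p => (p.1 - p.2) u ≠ 0 ∧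
        ∀ i, (p.1 - p.2) i ≠ 0 → i = u ∨ i ∈ U)).image (fun p => elim (p.1 - p.2) u)

/-- Iterated family. -/
noncomputable def Sn (D : Finset (Fin d → ℝ)) : ℕ → Finset (Fin d) → Finset (Fin d → ℝ)
  | 0 => baseS D
  | n + 1 => stepS (Sn D n)

/-- The family of centers. -/
noncomputable def SS (D : Finset (Fin d → ℝ)) (U : Finset (Fin d)) : Finset (Fin d → ℝ) :=
  Sn D (Uᶜ).card U

lemma Sn_mono (D : Finset (Fin d → ℝ)) {m n : ℕ} (h : m ≤ n) (U : Finset (Fin d)) :
    Sn D m U ⊆ Sn D n U := by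
  classical
  induction n, h using Nat.le_induction with
  | base => exact Finset.Subset.refl _
  | succ n _ ih =>
    refine ih.trans ?_
    simp only [Sn, stepS]
    exact Finset.subset_union_left

lemma base_subset (D : Finset (Fin d → ℝ)) (n : ℕ) (U : Finset (Fin d)) :
    baseS D U ⊆ Sn D n U := Sn_mono D (Nat.zero_le n) U

lemma SS_tie (D : Finset (Fin d → ℝ)) {U : Finset (Fin d)} {u : Fin d} (hu : u ∈ U) :
    Pi.single u 1 ∈ SS D U := by
  classical
  apply base_subset D _ U
  unfold baseS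
  refine Finset.mem_union_left _ (Finset.mem_image.2 ⟨u, hu, rfl⟩)

lemma SS_solve (D : Finset (Fin d → ℝ)) {U : Finset (Fin d)} {v : Fin d → ℝ} {a : Fin d}
    (hv : v ∈ D) (ha : a ∉ U) (hva : v a ≠ 0) (hs : ∀ i, v i ≠ 0 → i = a ∨ i ∈ U) :
    elim v a ∈ SS D U := by
  classical
  apply base_subset D _ U
  unfold baseS
  refine Finset.mem_union_right _ (Finset.mem_image.2 ⟨(v, a), ?_, rfl⟩)
  simp only [Finset.mem_filter, Finset.mem_product, Finset.mem_univ, and_true]
  exact ⟨hv, ha, hva, hs⟩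

lemma SS_elim (D : Finset (Fin d → ℝ)) {U V : Finset (Fin d)} {u : Fin d} {c₁ c₂ : Fin d → ℝ}
    (hUV : U ⊂ V) (hu : u ∈ V) (huU : u ∉ U) (h₁ : c₁ ∈ SS D V) (h₂ : c₂ ∈ SS D V)
    (hs : ∀ i, (c₁ - c₂) i ≠ 0 → i = u ∨ i ∈ U) (hne : (c₁ - c₂) u ≠ 0) :
    elim (c₁ - c₂) u ∈ SS D U := by
  classical
  have hcard : (Vᶜ).card < (Uᶜ).card := by
    apply Finset.card_lt_card
    exact Finset.compl_ssubset_compl.2 hUV
  obtain ⟨n, hn⟩ : ∃ n, (Uᶜ).card = n + 1 := ⟨(Uᶜ).card - 1, by omega⟩
  have hle : (Vᶜ).card ≤ n := by omega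
  unfold SS at h₁ h₂ ⊢
  rw [hn]
  have h₁' := Sn_mono D hle V h₁
  have h₂' := Sn_mono D hle V h₂
  simp only [Sn, stepS]
  refine Finset.mem_union_right _ ?_
  simp only [Finset.mem_biUnion, Finset.mem_filter, Finset.mem_univ, true_and, Finset.mem_sdiff,
    Finset.mem_image, Finset.mem_product]
  exact ⟨V, hUV, u, ⟨hu, huU⟩, (c₁, c₂), ⟨⟨h₁', h₂'⟩, hne, hs⟩, rfl⟩

lemma Sn_supp (D : Finset (Fin d → ℝ)) (n : ℕ) (U : Finset (Fin d)) {c : Fin d → ℝ}
    (hc : c ∈ Sn D n U) : ∀ i, c i ≠ 0 → i ∈ U := by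
  classical
  induction n generalizing U c with
  | zero =>
    intro i hi
    simp only [Sn, baseS, Finset.mem_union, Finset.mem_image] at hc
    rcases hc with ⟨u, hu, rfl⟩ | ⟨p, hp, rfl⟩
    · by_cases h : i = u
      · rw [h]; exact hu
      · exact absurd (by simp [Pi.single_eq_of_ne h]) hi
    · simp only [Finset.mem_filter, Finset.mem_product, Finset.mem_univ, and_true] at hp
      have h1 : i ≠ p.2 := by
        intro h
        apply hi
        simp [elim, h]
      have h2 : p.1 i ≠ 0 := by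
        intro h
        apply hi
        simp [elim, h1, h]
      rcases hp.2.2.2 i h2 with h | h
      · exact absurd h h1
      · exact h
  | succ n ih =>
    intro i hi
    simp only [Sn, stepS, Finset.mem_union, Finset.mem_biUnion, Finset.mem_filter,
      Finset.mem_image, Finset.mem_product, Finset.mem_sdiff, Finset.mem_univ, true_and] at hc
    rcases hc with hc | ⟨V, _, u, _, p, ⟨_, _, hp⟩, rfl⟩
    · exact ih U hc i hi
    · have h1 : i ≠ u := by
        intro h
        apply hi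
        simp [elim, h]
      have h2 : (p.1 - p.2) i ≠ 0 := by
        intro h
        apply hi
        simp [elim, h1, h]
      rcases hp i h2 with h | h
      · exact absurd h h1
      · exact h

lemma SS_supp (D : Finset (Fin d → ℝ)) {U : Finset (Fin d)} {c : Fin d → ℝ}
    (hc : c ∈ SS D U) : ∀ i, c i ≠ 0 → i ∈ U := Sn_supp D _ U hc

/-- A finite set of reals has a positive lower bound on its nonzero absolute values. -/
lemma exists_kappa (T : Finset ℝ) : ∃ κ : ℝ, 0 < κ ∧ κ ≤ 1 ∧ ∀ t ∈ T, t ≠ 0 → κ ≤ |t| := by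
  classical
  induction T using Finset.induction_on with
  | empty => exact ⟨1, one_pos, le_rfl, by simp⟩
  | @insert a s _ ih =>
    obtain ⟨κ, h0, h1, h⟩ := ih
    by_cases ha : a = 0
    · refine ⟨κ, h0, h1, fun t ht hne => ?_⟩
      rcases Finset.mem_insert.1 ht with rfl | ht'
      · exact absurd ha hne
      · exact h t ht' hne
    · refine ⟨min κ |a|, lt_min h0 (abs_pos.2 ha), le_trans (min_le_left _ _) h1, fun t ht hne => ?_⟩
      rcases Finset.mem_insert.1 ht with rfl | ht'
      · exact min_le_right _ _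
      · exact le_trans (min_le_left _ _) (h t ht' hne)

/-- The constant `κ`: all nonzero coordinates of differences of centers and of the vectors of `D`
have absolute value at least `κ`. -/
lemma exists_kappa_closure (D : Finset (Fin d → ℝ)) :
    ∃ κ : ℝ, 0 < κ ∧ κ ≤ 1 ∧
      (∀ V : Finset (Fin d), ∀ c₁ ∈ SS D V, ∀ c₂ ∈ SS D V, ∀ u, (c₁ - c₂) u ≠ 0 → κ ≤ |(c₁ - c₂) u|) ∧
      (∀ v ∈ D, ∀ u, v u ≠ 0 → κ ≤ |v u|) := by
  classical
  let T₁ : Finset ℝ := (Finset.univ : Finset (Finset (Fin d))).biUnion fun V =>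
    (SS D V ×ˢ SS D V).biUnion fun p => (Finset.univ : Finset (Fin d)).image fun u => (p.1 - p.2) u
  let T₂ : Finset ℝ := D.biUnion fun v => (Finset.univ : Finset (Fin d)).image fun u => v u
  obtain ⟨κ, h0, h1, h⟩ := exists_kappa (T₁ ∪ T₂)
  refine ⟨κ, h0, h1, ?_, ?_⟩
  · intro V c₁ hc₁ c₂ hc₂ u hu
    refine h _ (Finset.mem_union_left _ ?_) hu
    simp only [T₁, Finset.mem_biUnion, Finset.mem_univ, true_and, Finset.mem_product, Finset.mem_image]
    exact ⟨V, (c₁, c₂), ⟨hc₁, hc₂⟩, u, rfl⟩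
  · intro v hv u hu
    refine h _ (Finset.mem_union_right _ ?_) hu
    simp only [T₂, Finset.mem_biUnion, Finset.mem_univ, true_and, Finset.mem_image]
    exact ⟨v, hv, u, rfl⟩

end Vale.Agent.Lib.P072G
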