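import Vale.Agent.Lib.P072G.Params
import Vale.Agent.Lib.P072.PermExist

/-!
The flux of a weakly reversible network through the levels of a linear functional compatible with
`log x`.
-/

open Finset Vale.Agent.Lib.P072

namespace Vale.Agent.Lib.P072G

variable {d : ℕ}

/-- Layer cake: if the flux through every level is nonpositive, so is the total. -/
lemma layer_cake {ι : Type*} (s : Finset ι) (w : ι → ℝ) (n : ℕ) : ∀ a b : ι → ℝ,
    (s.image a ∪ s.image b).card ≤ n →
    (∀ τ : ℝ, ∑ r ∈ s, w r * ((if τ < b r then 1 else 0) - (if τ < a r then 1 else 0)) ≤ 0) →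
    ∑ r ∈ s, w r * (b r - a r) ≤ 0 := by
  classical
  induction n with
  | zero =>
    intro a b hV _
    have h1 : s.image a ∪ s.image b = ∅ := Finset.card_eq_zero.1 (by omega)
    have h2 : s = ∅ := by
      by_contra hne
      obtain ⟨r, hr⟩ := Finset.nonempty_iff_ne_empty.2 hne
      have : a r ∈ s.image a ∪ s.image b :=
        Finset.mem_union_left _ (Finset.mem_image_of_mem _ hr)
      rw [h1] at this
      simp at this
    simp [h2]
  | succ n ih =>
    intro a b hV hF
    by_cases hne : (s.image a ∪ s.image b).Nonempty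
    · obtain ⟨V, hVdef⟩ : ∃ V, V = s.image a ∪ s.image b := ⟨_, rfl⟩
      rw [← hVdef] at hne hV
      have hVa : ∀ r ∈ s, a r ∈ V := fun r hr => by
        rw [hVdef]; exact Finset.mem_union_left _ (Finset.mem_image_of_mem _ hr)
      have hVb : ∀ r ∈ s, b r ∈ V := fun r hr => by
        rw [hVdef]; exact Finset.mem_union_right _ (Finset.mem_image_of_mem _ hr)
      obtain ⟨τ, hτ⟩ : ∃ τ, τ = V.min' hne := ⟨_, rfl⟩
      have hτV : τ ∈ V := by rw [hτ]; exact Finset.min'_mem _ _
      have hτle : ∀ v ∈ V, τ ≤ v := fun v hv => by rw [hτ]; exact Finset.min'_le _ _ hv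
      by_cases hne2 : (V.erase τ).Nonempty
      · obtain ⟨τ', hτ'⟩ : ∃ τ', τ' = (V.erase τ).min' hne2 := ⟨_, rfl⟩
        have hτ'V : τ' ∈ V.erase τ := by rw [hτ']; exact Finset.min'_mem _ _
        have hτ'le : ∀ v ∈ V, v ≠ τ → τ' ≤ v := fun v hv hvτ => by
          rw [hτ']; exact Finset.min'_le _ _ (Finset.mem_erase.2 ⟨hvτ, hv⟩)
        have hlt : τ < τ' := lt_of_le_of_ne (hτle τ' (Finset.mem_of_mem_erase hτ'V))
          (Ne.symm (Finset.ne_of_mem_erase hτ'V))
        -- the key identity for a value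
        have hid : ∀ v ∈ V, max v τ' = v + (τ' - τ) * (1 - if τ < v then 1 else 0) := by
          intro v hv
          by_cases hvτ : v = τ
          · subst hvτ
            simp only [lt_irrefl, if_false, sub_zero, mul_one]
            rw [max_eq_right hlt.le]
            ring
          · have h1 : τ < v := lt_of_le_of_ne (hτle v hv) (Ne.symm hvτ)
            rw [max_eq_left (hτ'le v hv hvτ), if_pos h1]
            ring
        -- new family
        have hsub : (s.image fun r => max (a r) τ') ∪ (s.image fun r => max (b r) τ') ⊆ V.erase τ := by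
          have hgen : ∀ v ∈ V, max v τ' ∈ V.erase τ := by
            intro v hv
            by_cases hvτ : v = τ
            · subst hvτ
              rw [max_eq_right hlt.le]
              exact hτ'V
            · rw [max_eq_left (hτ'le v hv hvτ)]
              exact Finset.mem_erase.2 ⟨hvτ, hv⟩
          intro u hu
          rcases Finset.mem_union.1 hu with h1 | h1
          · obtain ⟨r, hr, rfl⟩ := Finset.mem_image.1 h1
            exact hgen _ (hVa r hr)
          · obtain ⟨r, hr, rfl⟩ := Finset.mem_image.1 h1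
            exact hgen _ (hVb r hr)
        have hcard : ((s.image fun r => max (a r) τ') ∪ (s.image fun r => max (b r) τ')).card ≤ n := by
          have h1 := Finset.card_le_card hsub
          have h2 : (V.erase τ).card = V.card - 1 := Finset.card_erase_of_mem hτV
          have h3 : 0 < V.card := Finset.card_pos.2 hne
          omega
        have hF' : ∀ σ : ℝ, ∑ r ∈ s, w r * ((if σ < max (b r) τ' then 1 else 0) -
            (if σ < max (a r) τ' then 1 else 0)) ≤ 0 := by
          intro σ
          by_cases hσ : σ < τ'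
          · have h0 : ∑ r ∈ s, w r * ((if σ < max (b r) τ' then (1:ℝ) else 0) -
                (if σ < max (a r) τ' then 1 else 0)) = 0 := by
              refine Finset.sum_eq_zero fun r _ => ?_
              rw [if_pos (lt_max_of_lt_right hσ), if_pos (lt_max_of_lt_right hσ)]
              ring
            rw [h0]
          · push Not at hσ
            have hiff : ∀ v : ℝ, (σ < max v τ') ↔ σ < v := by
              intro v
              rw [lt_max_iff]
              constructor
              · rintro (h | h)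
                · exact h
                · exact absurd h (not_lt.2 hσ)
              · exact Or.inl
            simp only [hiff]
            exact hF σ
        have hIH := ih _ _ hcard hF'
        have hsplit : ∑ r ∈ s, w r * (b r - a r) = ∑ r ∈ s, w r * (max (b r) τ' - max (a r) τ') +
            (τ' - τ) * ∑ r ∈ s, w r * ((if τ < b r then 1 else 0) - (if τ < a r then 1 else 0)) := by
          rw [Finset.mul_sum, ← Finset.sum_add_distrib]
          refine Finset.sum_congr rfl fun r hr => ?_
          rw [hid _ (hVb r hr), hid _ (hVa r hr)]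
          ring
        rw [hsplit]
        have h1 := hF τ
        have h2 : 0 < τ' - τ := by linarith
        have h3 := mul_nonpos_of_nonneg_of_nonpos h2.le h1
        linarith
      · -- a single value
        have hall : ∀ v ∈ V, v = τ := by
          intro v hv
          by_contra hvτ
          exact hne2 ⟨v, Finset.mem_erase.2 ⟨hvτ, hv⟩⟩
        have h0 : ∑ r ∈ s, w r * (b r - a r) = 0 := by
          refine Finset.sum_eq_zero fun r hr => ?_
          rw [hall _ (hVb r hr), hall _ (hVa r hr)]
          ring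
        rw [h0]
    · have hempty : s = ∅ := by
        by_contra hs
        obtain ⟨r, hr⟩ := Finset.nonempty_iff_ne_empty.2 hs
        exact hne ⟨a r, Finset.mem_union_left _ (Finset.mem_image_of_mem _ hr)⟩
      simp [hempty]

/-- The linear functional `q` on complexes. -/
noncomputable def hq (q : Fin d → ℝ) (y : Cplx d) : ℝ := ∑ i, (y i : ℝ) * q i

/-- The complexes of a network. -/
def cplxs (R : Finset (Cplx d × Cplx d)) : Finset (Cplx d) := R.image Prod.fst ∪ R.image Prod.snd

open Classical in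
/-- The differences of complexes in the same linkage class. -/
noncomputable def diffSet (R : Finset (Cplx d × Cplx d)) : Finset (Fin d → ℝ) :=
  ((cplxs R ×ˢ cplxs R).filter (fun p => Rch R p.2 p.1)).image
    (fun p i => (p.1 i : ℝ) - (p.2 i : ℝ))

lemma ev_diff (y₁ y₂ : Cplx d) (q : Fin d → ℝ) :
    ev (fun i => (y₁ i : ℝ) - (y₂ i : ℝ)) q = hq q y₁ - hq q y₂ := by
  unfold ev hq
  rw [← Finset.sum_sub_distrib]
  refine Finset.sum_congr rfl fun i _ => by ring

/-- A path from above the level `τ` to below crosses the level. -/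
lemma path_cross {R : Finset (Cplx d × Cplx d)} (h : Cplx d → ℝ) {τ : ℝ} {a b : Cplx d}
    (hab : Rch R a b) (ha : τ < h a) (hb : h b ≤ τ) :
    ∃ z ∈ R, Rch R a z.1 ∧ τ < h z.1 ∧ h z.2 ≤ τ := by
  induction hab using Relation.ReflTransGen.head_induction_on with
  | refl => exact absurd hb (not_le.2 ha)
  | @head a c hac hcb ih =>
    by_cases hc : τ < h c
    · obtain ⟨z, hz, hcz, h1, h2⟩ := ih hc
      exact ⟨z, hz, Relation.ReflTransGen.head hac hcz, h1, h2⟩
    · push Not at hc
      exact ⟨(a, c), hac, Relation.ReflTransGen.refl, ha, hc⟩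

/-- The flux through one level. -/
lemma level_flux {R : Finset (Cplx d × Cplx d)} (hWR : WeaklyReversible R) {ε : ℝ} (hε : 0 < ε)
    {k : Cplx d × Cplx d → ℝ} (hk : ∀ p, ε ≤ k p ∧ k p ≤ ε⁻¹) {x : Fin d → ℝ} (hx : ∀ i, 0 < x i)
    {q : Fin d → ℝ} {δ : ℝ} (hδ : (R.card : ℝ) * ε⁻¹ ≤ ε * Real.exp δ)
    (hsign : ∀ v ∈ diffSet R, 0 < ev v q → δ ≤ ev v (fun i => Real.log (x i))) (τ : ℝ) :
    ∑ r ∈ R, (k r * monom x r.1) *
      ((if τ < hq q r.2 then 1 else 0) - (if τ < hq q r.1 then 1 else 0)) ≤ 0 := by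
  classical
  have hw : ∀ r, 0 < k r * monom x r.1 := by
    intro r
    have h1 : 0 < k r := lt_of_lt_of_le hε (hk r).1
    have h2 : 0 < monom x r.1 := by
      rw [monom_eq_exp hx]; exact Real.exp_pos _
    positivity
  obtain ⟨w, hwd⟩ : ∃ w : Cplx d × Cplx d → ℝ, w = fun r => k r * monom x r.1 := ⟨_, rfl⟩
  have hw' : ∀ r, 0 < w r := fun r => by rw [hwd]; exact hw r
  have hsumeq : ∑ r ∈ R, (k r * monom x r.1) *
      ((if τ < hq q r.2 then 1 else 0) - (if τ < hq q r.1 then 1 else 0)) =
      ∑ r ∈ R.filter (fun r => hq q r.1 ≤ τ ∧ τ < hq q r.2), w r -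
        ∑ r ∈ R.filter (fun r => hq q r.2 ≤ τ ∧ τ < hq q r.1), w r := by
    rw [Finset.sum_filter, Finset.sum_filter, ← Finset.sum_sub_distrib]
    refine Finset.sum_congr rfl fun r _ => ?_
    rw [hwd]
    by_cases h1 : τ < hq q r.1 <;> by_cases h2 : τ < hq q r.2
    · simp [h1, h2, not_le.2 h1, not_le.2 h2]
    · simp [h1, h2, not_le.2 h1, not_lt.1 h2]
    · simp [h1, h2, not_lt.1 h1, not_le.2 h2]
    · simp [h1, h2, not_lt.1 h1, not_lt.1 h2]
  rw [hsumeq]
  obtain ⟨Up, hUp⟩ : ∃ Up, Up = R.filter (fun r => hq q r.1 ≤ τ ∧ τ < hq q r.2) := ⟨_, rfl⟩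
  obtain ⟨Dn, hDn⟩ : ∃ Dn, Dn = R.filter (fun r => hq q r.2 ≤ τ ∧ τ < hq q r.1) := ⟨_, rfl⟩
  rw [← hUp, ← hDn]
  have hDn0 : 0 ≤ ∑ r ∈ Dn, w r := Finset.sum_nonneg fun r _ => (hw' r).le
  by_cases hUne : Up.Nonempty
  · -- each reaction up is dominated by one reaction down
    have hdom : ∀ r ∈ Up, ∃ z ∈ Dn, (R.card : ℝ) * w r ≤ w z := by
      intro r hr
      rw [hUp] at hr
      obtain ⟨hrR, hr1, hr2⟩ := Finset.mem_filter.1 hr
      have hback : Rch R r.2 r.1 := hWR r hrR
      obtain ⟨z, hzR, hrz, hz1, hz2⟩ := path_cross (hq q) hback hr2 hr1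
      refine ⟨z, by rw [hDn]; exact Finset.mem_filter.2 ⟨hzR, hz2, hz1⟩, ?_⟩
      have hmem : (fun i => (z.1 i : ℝ) - (r.1 i : ℝ)) ∈ diffSet R := by
        unfold diffSet
        refine Finset.mem_image.2 ⟨(z.1, r.1), ?_, rfl⟩
        refine Finset.mem_filter.2 ⟨Finset.mem_product.2 ⟨?_, ?_⟩, ?_⟩
        · exact Finset.mem_union_left _ (Finset.mem_image.2 ⟨z, hzR, rfl⟩)
        · exact Finset.mem_union_left _ (Finset.mem_image.2 ⟨r, hrR, rfl⟩)
        · exact Relation.ReflTransGen.head hrR hrz
      have hs := hsign _ hmem (by rw [ev_diff]; linarith)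
      rw [ev_diff] at hs
      have hmono : Real.exp δ * monom x r.1 ≤ monom x z.1 := by
        rw [monom_eq_exp hx, monom_eq_exp hx, ← Real.exp_add]
        apply Real.exp_le_exp.2
        have h1 : hq (fun i => Real.log (x i)) z.1 = psi x z.1 := rfl
        have h2 : hq (fun i => Real.log (x i)) r.1 = psi x r.1 := rfl
        rw [h1, h2] at hs
        linarith
      have hm0 : 0 < monom x r.1 := by
        rw [monom_eq_exp hx]; exact Real.exp_pos _
      rw [hwd]
      calc (R.card : ℝ) * (k r * monom x r.1) ≤ (R.card : ℝ) * (ε⁻¹ * monom x r.1) := by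
            apply mul_le_mul_of_nonneg_left _ (Nat.cast_nonneg _)
            exact mul_le_mul_of_nonneg_right (hk r).2 hm0.le
        _ = ((R.card : ℝ) * ε⁻¹) * monom x r.1 := by ring
        _ ≤ (ε * Real.exp δ) * monom x r.1 := mul_le_mul_of_nonneg_right hδ hm0.le
        _ = ε * (Real.exp δ * monom x r.1) := by ring
        _ ≤ ε * monom x z.1 := mul_le_mul_of_nonneg_left hmono hε.le
        _ ≤ k z * monom x z.1 := by
            apply mul_le_mul_of_nonneg_right (hk z).1
            rw [monom_eq_exp hx]; exact (Real.exp_pos _).le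
    obtain ⟨r₀, hr₀⟩ := hUne
    obtain ⟨z₀, hz₀, _⟩ := hdom r₀ hr₀
    have hDne : Dn.Nonempty := ⟨z₀, hz₀⟩
    obtain ⟨zm, hzm, hzmax⟩ := Finset.exists_max_image Dn w hDne
    have hzsum : w zm ≤ ∑ r ∈ Dn, w r :=
      Finset.single_le_sum (fun r _ => (hw' r).le) hzm
    have hUpsum : (R.card : ℝ) * ∑ r ∈ Up, w r ≤ (Up.card : ℝ) * w zm := by
      rw [Finset.mul_sum, ← nsmul_eq_mul]
      refine le_trans (Finset.sum_le_sum (g := fun _ => w zm) ?_) ?_
      · intro r hr
        obtain ⟨z, hz, hzle⟩ := hdom r hr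
        exact le_trans hzle (hzmax z hz)
      · simp
    have hUpcard : (Up.card : ℝ) ≤ R.card := by
      have : Up.card ≤ R.card := by
        rw [hUp]; exact Finset.card_filter_le _ _
      exact_mod_cast this
    have hRpos : (0 : ℝ) < R.card := by
      have hr₀R : r₀ ∈ R := by
        rw [hUp] at hr₀
        exact (Finset.mem_filter.1 hr₀).1
      exact_mod_cast Finset.card_pos.2 ⟨r₀, hr₀R⟩
    have h3 : (R.card : ℝ) * ∑ r ∈ Up, w r ≤ (R.card : ℝ) * w zm :=
      le_trans hUpsum (mul_le_mul_of_nonneg_right hUpcard (hw' zm).le)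
    have h4 := le_of_mul_le_mul_left h3 hRpos
    linarith
  · rw [Finset.not_nonempty_iff_eq_empty.1 hUne]
    simp only [Finset.sum_empty]
    linarith

/-- The vector field does not increase along a functional compatible with `log x`. -/
theorem flux_nonpos {R : Finset (Cplx d × Cplx d)} (hWR : WeaklyReversible R) {ε : ℝ} (hε : 0 < ε)
    {k : Cplx d × Cplx d → ℝ} (hk : ∀ p, ε ≤ k p ∧ k p ≤ ε⁻¹) {x : Fin d → ℝ} (hx : ∀ i, 0 < x i)
    {q : Fin d → ℝ} {δ : ℝ} (hδ : (R.card : ℝ) * ε⁻¹ ≤ ε * Real.exp δ)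
    (hsign : ∀ v ∈ diffSet R, 0 < ev v q → δ ≤ ev v (fun i => Real.log (x i))) :
    dot q (massAction R k x) ≤ 0 := by
  classical
  have hdot : dot q (massAction R k x) =
      ∑ r ∈ R, (k r * monom x r.1) * (hq q r.2 - hq q r.1) := by
    unfold massAction
    rw [dot_sum_right]
    refine Finset.sum_congr rfl fun r _ => ?_
    rw [dot_smul_right]
    congr 1
    unfold dot rxnVec hq
    rw [← Finset.sum_sub_distrib]
    refine Finset.sum_congr rfl fun i _ => by ring
  rw [hdot]
  refine layer_cake R _ _ (fun r => hq q r.1) (fun r => hq q r.2) le_rfl ?_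
  intro τ
  exact level_flux hWR hε hk hx hδ hsign τ

end Vale.Agent.Lib.P072G
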