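import Vale.Agent.Lib.P072G.Run

/-!
The analysis of one run in a maximal site: where its coordinates lie with respect to its level.
-/

open Finset

namespace Vale.Agent.Lib.P072G

variable {d : ℕ}

/-- The three possibilities for the natural choice at a value `m`. -/
lemma natural_lvl (P : Par d) {q : Fin d → ℝ} {l : List (Fin d × Bool)} (hv : Valid P q l) (m : ℝ) :
    (∃ c ∈ SS P.D (coords l), (∀ e ∈ l.head?, ev c q ≤ q e.1) ∧
      ev c q - P.win (word l) + 2 ≤ m ∧ m < ev c q + 2 * P.win (word l)) ∨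
    (∃ e ∈ l.head?, q e.1 ≤ m) ∨ LvlOK P q l m false := by
  have hlen : (word l).length ≤ d := by simpa using valid_length_le hv
  have hA1 := P.hwin_ge (word l) hlen
  have hA0 := P.hA0
  by_cases hc : ∃ c ∈ SS P.D (coords l), (∀ e ∈ l.head?, ev c q ≤ q e.1) ∧
      ev c q - P.win (word l) + 2 ≤ m ∧ m < ev c q + 2 * P.win (word l)
  · exact Or.inl hc
  by_cases htie : ∃ e ∈ l.head?, q e.1 ≤ m
  · exact Or.inr (Or.inl htie)
  push Not at hc htie
  refine Or.inr (Or.inr ⟨fun e he => (htie e he).le, by simp, ?_⟩)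
  intro _ c hcS
  by_cases hle : ∀ e ∈ l.head?, ev c q ≤ q e.1
  · by_cases hw : ev c q - P.win (word l) + 2 ≤ m
    · right
      have := hc c hcS hle hw
      linarith
    · left
      push Not at hw
      linarith
  · push Not at hle
    obtain ⟨e, he, hlt⟩ := hle
    left
    have heU := head_mem_coords he
    have hg := gap P hv hcS (SS_tie P.D heU) (by rw [ev_single]; exact hlt.ne')
    rw [ev_single, abs_of_pos (by linarith)] at hg
    have := htie e he
    linarith

lemma OmB_nonneg (P : Par d) (b : Bool) (w : List Bool) (n : ℕ) (h : w.length + 1 + n ≤ d) :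
    0 ≤ OmB P b w n := by
  cases b with
  | false => linarith [OmB_false_ge P w n h]
  | true =>
    have h1 := OmB_true_ge P w n h
    have h2 := EE_pos (P.hwin_ge w (by omega) |> fun h3 => le_trans (A0_pos P).le h3)
    linarith

lemma exp_neg_two_le : Real.exp (-2) ≤ 1 / 7 := by
  have h1 := Real.exp_one_gt_d9
  have h2 : Real.exp 2 = Real.exp 1 * Real.exp 1 := by rw [← Real.exp_add]; norm_num
  have h3 : (7 : ℝ) ≤ Real.exp 2 := by rw [h2]; nlinarith
  rw [Real.exp_neg]
  rw [inv_le_comm₀ (Real.exp_pos _) (by norm_num)]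
  simpa using h3

lemma EE_exp_le {A c m : ℝ} (hA : 0 ≤ A) {s : ℝ} (h : c ≤ m + A - s) {M : ℝ} (hM : Real.exp m = M) :
    EE A * Real.exp c ≤ (1 + A) * (Real.exp (-s) * M) := by
  unfold EE
  rw [← hM, ← Real.exp_add]
  have h1 : Real.exp (-A) * Real.exp c ≤ Real.exp (-s + m) := by
    rw [← Real.exp_add]
    exact Real.exp_le_exp.2 (by linarith)
  calc (1 + A) * Real.exp (-A) * Real.exp c = (1 + A) * (Real.exp (-A) * Real.exp c) := by ring
    _ ≤ _ := mul_le_mul_of_nonneg_left h1 (by linarith)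

lemma exp_beats {C K s A : ℝ} (hC : 0 ≤ C) (hK : 0 ≤ K) (hs : 0 < s) (hA : 0 ≤ A)
    (hexpC : 2 * (C + K + 1) ≤ Real.exp C)
    (h : (7 / 8) * ((1 + A) * (Real.exp C * Real.exp s)) ≤ s + A + C + K) : False := by
  have h5 := Real.add_one_le_exp s
  have h8 : 2 * (C + K + 1) * (s + 1) ≤ Real.exp C * Real.exp s :=
    mul_le_mul hexpC h5 (by linarith) (Real.exp_pos _).le
  have h9 : (1 + A) * (2 * (C + K + 1) * (s + 1)) ≤ (1 + A) * (Real.exp C * Real.exp s) :=
    mul_le_mul_of_nonneg_left h8 (by linarith)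
  have h10 : 0 ≤ A * s := by positivity
  have h11 : 0 ≤ (C + K) * (A * s) := by positivity
  have h12 : 0 ≤ (C + K) * A := by positivity
  have h13 : 0 ≤ (C + K) * s := by positivity
  have h14 : (1 + A) * (2 * (C + K + 1) * (s + 1)) =
      2 * ((C + K) + (C + K) * A + (C + K) * s + (C + K) * (A * s) + 1 + A + s + A * s) := by ring
  rw [h14] at h9
  linarith

namespace RunCtx

variable {P : Par d} {x q : Fin d → ℝ} {Pr T' : List (Fin d × Bool)} {a : Fin d} {b : Bool}
  {t : List (Fin d)} (h : RunCtx P x q Pr T' a b t)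

include h

lemma Mpos : 0 < ∑ i ∈ runI a t, x i := Finset.sum_pos (fun i _ => h.hx i) h.Ine

lemma exp_m : Real.exp (Real.log (∑ i ∈ runI a t, x i)) = ∑ i ∈ runI a t, x i :=
  Real.exp_log h.Mpos

lemma y_le_m {i : Fin d} (hi : i ∈ runI a t) :
    Real.log (x i) ≤ Real.log (∑ i ∈ runI a t, x i) := by
  apply Real.log_le_log (h.hx i)
  exact Finset.single_le_sum (f := x) (fun j _ => (h.hx j).le) hi

lemma winA : P.A0 ≤ P.win (word Pr) ∧ P.win (word Pr) ≤ P.Am := by
  have hlen := h.card_le
  exact ⟨P.hwin_ge _ (by omega), P.hwin_le _ (by omega)⟩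

lemma wordQ : word (ties t ((a, b) :: Pr)) = List.replicate t.length true ++ b :: word Pr := by
  rw [word_ties]; simp

lemma winA' : P.A0 ≤ P.win (word (ties t ((a, b) :: Pr))) := by
  have hlen := h.card_le
  apply P.hwin_ge
  rw [h.wordQ]
  simp
  simp at hlen
  omega

/-- The mass below the run is small. -/
lemma tail_bound (hlowb : ∀ i ∈ coords T', Real.log (x i) ≤
      q a - P.win (word (ties t ((a, b) :: Pr))) / 2 + P.Cc) :
    P.K0 * ∑ i ∈ coords T', x i ≤ (1 / 8) * Real.exp (q a - P.Cc +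
      (P.A0 - P.win (word (ties t ((a, b) :: Pr)))) / 2) := by
  obtain ⟨A', hA'⟩ : ∃ A', A' = P.win (word (ties t ((a, b) :: Pr))) := ⟨_, rfl⟩
  rw [← hA'] at hlowb ⊢
  have hd : (0 : ℝ) ≤ d := Nat.cast_nonneg d
  have hK : 0 ≤ P.K0 := by
    unfold Par.K0
    have := A0_le_Am P
    have := P.hA0
    have := P.hC3
    linarith
  have h1 : ∑ i ∈ coords T', x i ≤ ((d : ℝ) + 1) * Real.exp (q a - A' / 2 + P.Cc) := by
    have h2 : ∑ i ∈ coords T', x i ≤ ∑ _i ∈ coords T', Real.exp (q a - A' / 2 + P.Cc) := by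
      refine Finset.sum_le_sum fun i hi => ?_
      calc x i = Real.exp (Real.log (x i)) := (Real.exp_log (h.hx i)).symm
        _ ≤ _ := Real.exp_le_exp.2 (hlowb i hi)
    refine le_trans h2 ?_
    rw [Finset.sum_const, nsmul_eq_mul]
    refine mul_le_mul_of_nonneg_right ?_ (Real.exp_pos _).le
    have : (coords T').card ≤ d := by
      calc (coords T').card ≤ (Finset.univ : Finset (Fin d)).card := Finset.card_le_univ _
        _ = d := by simp
    have : ((coords T').card : ℝ) ≤ d := by exact_mod_cast this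
    linarith
  have h2 := P.hTail
  have h3 : P.K0 * ((d : ℝ) + 1) * Real.exp (2 * P.Cc) ≤ (1 / 8) * Real.exp (P.A0 / 2) := by
    have : 8 * (5 * P.Am + P.Cc) * ((d : ℝ) + 1) = 8 * (P.K0 * ((d : ℝ) + 1)) := by
      unfold Par.K0; ring
    rw [this] at h2
    linarith
  have h4 : Real.exp (q a - P.Cc + (P.A0 - A') / 2) =
      Real.exp (P.A0 / 2) * Real.exp (q a - A' / 2 + P.Cc - 2 * P.Cc) := by
    rw [← Real.exp_add]; congr 1; ring
  have h5 : Real.exp (q a - A' / 2 + P.Cc) =
      Real.exp (2 * P.Cc) * Real.exp (q a - A' / 2 + P.Cc - 2 * P.Cc) := by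
    rw [← Real.exp_add]; congr 1; ring
  rw [h4]
  calc P.K0 * ∑ i ∈ coords T', x i ≤ P.K0 * (((d : ℝ) + 1) * Real.exp (q a - A' / 2 + P.Cc)) :=
        mul_le_mul_of_nonneg_left h1 hK
    _ = (P.K0 * ((d : ℝ) + 1) * Real.exp (2 * P.Cc)) * Real.exp (q a - A' / 2 + P.Cc - 2 * P.Cc) := by
        rw [h5]; ring
    _ ≤ ((1 / 8) * Real.exp (P.A0 / 2)) * Real.exp (q a - A' / 2 + P.Cc - 2 * P.Cc) :=
        mul_le_mul_of_nonneg_right h3 (Real.exp_pos _).le
    _ = _ := by ring

/-- Gain of a flat competitor above the level of the run. -/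
lemma flat_gain {c : Fin d → ℝ} (hc : c ∈ SS P.D (coords Pr)) (hle : ∀ e ∈ Pr.head?, ev c q ≤ q e.1)
    (h1 : ev c q - P.win (word Pr) + 2 ≤ Real.log (∑ i ∈ runI a t, x i))
    (hLc : q a ≤ ev c q) (hlow : ∀ i ∈ coords T', Real.log (x i) ≤ q a + P.Cc)
    (htail : P.K0 * ∑ i ∈ coords T', x i ≤ (1 / 8) * ∑ i ∈ runI a t, x i) :
    ev c q - q a ≤ (2 / 7) * (1 + P.win (word Pr)) + 1 / 8 := by
  obtain ⟨hA1, hA2⟩ := h.winA
  have hlen := h.card_le
  have hlv : LvlOK P q Pr (ev c q) true := ⟨hle, fun _ => ⟨c, hc, rfl⟩, by simp⟩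
  have hmi := h.MI_level hlv (by
    intro i hi
    have := hlow i hi
    unfold Par.Tt
    linarith [A0_le_Am P, P.hA0])
  have hM0 := h.Mpos
  have hexp := h.exp_m
  obtain ⟨M, hM⟩ : ∃ M, M = ∑ i ∈ runI a t, x i := ⟨_, rfl⟩
  rw [← hM] at hmi hM0 hexp htail h1
  obtain ⟨A, hA⟩ : ∃ A, A = P.win (word Pr) := ⟨_, rfl⟩
  rw [← hA] at h1 hA1 hA2 ⊢
  have hA0 := P.hA0
  have h2 := OmB_true_le P (word Pr) t.length hlen
  rw [← hA] at h2
  have h3 : OmB P true (word Pr) t.length * Real.exp (ev c q) ≤ (2 / 7) * (1 + A) * M := by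
    have h4 := EE_exp_le (A := A) (s := 2) (c := ev c q) (m := Real.log M) (by linarith)
      (by linarith) hexp
    have h5 : 0 ≤ (1 + A) * M := mul_nonneg (by linarith) hM0.le
    calc OmB P true (word Pr) t.length * Real.exp (ev c q)
        ≤ (2 * EE A) * Real.exp (ev c q) := mul_le_mul_of_nonneg_right h2 (Real.exp_pos _).le
      _ = 2 * (EE A * Real.exp (ev c q)) := by ring
      _ ≤ 2 * ((1 + A) * (Real.exp (-2) * M)) := by linarith
      _ = 2 * (Real.exp (-2) * ((1 + A) * M)) := by ring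
      _ ≤ 2 * ((1 / 7) * ((1 + A) * M)) := by
          have := mul_le_mul_of_nonneg_right exp_neg_two_le h5
          linarith
      _ = _ := by ring
  have h6 : 0 ≤ OmB P b (word Pr) t.length * Real.exp (q a) :=
    mul_nonneg (OmB_nonneg P b _ _ hlen) (Real.exp_pos _).le
  have h7 : (ev c q - q a) * M ≤ ((2 / 7) * (1 + A) + 1 / 8) * M := by nlinarith
  exact le_of_mul_le_mul_right h7 hM0

/-- Gain of a non-flat competitor at the ideal level. -/
lemma nonflat_gain (hlv : LvlOK P q Pr (Real.log (∑ i ∈ runI a t, x i)) false)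
    (hlow : ∀ i ∈ coords T', Real.log (x i) ≤ Real.log (∑ i ∈ runI a t, x i) + P.Cc)
    (htail : P.K0 * ∑ i ∈ coords T', x i ≤ (1 / 8) * ∑ i ∈ runI a t, x i) :
    Real.log (∑ i ∈ runI a t, x i) - q a ≤ 2 + 1 / 8 := by
  have hlen := h.card_le
  have hmi := h.MI_level hlv (by
    intro i hi
    have := hlow i hi
    unfold Par.Tt
    linarith [A0_le_Am P, P.hA0])
  have hM0 := h.Mpos
  have hexp := h.exp_m
  rw [hexp] at hmi
  obtain ⟨M, hM⟩ : ∃ M, M = ∑ i ∈ runI a t, x i := ⟨_, rfl⟩
  rw [← hM] at hmi hM0 htail ⊢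
  have h2 := OmB_false_le P (word Pr) t.length hlen
  have h6 : 0 ≤ OmB P b (word Pr) t.length * Real.exp (q a) :=
    mul_nonneg (OmB_nonneg P b _ _ hlen) (Real.exp_pos _).le
  have h7 : (Real.log M - q a) * M ≤ (2 + 1 / 8) * M := by nlinarith
  exact le_of_mul_le_mul_right h7 hM0

/-- Upper bound for the logarithm of the mass of the run. -/
lemma up (hlowb : ∀ i ∈ coords T', Real.log (x i) ≤
      q a - P.win (word (ties t ((a, b) :: Pr))) / 2 + P.Cc)
    (hstrict : ∀ e ∈ Pr.head?, q a < q e.1) :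
    (b = false → Real.log (∑ i ∈ runI a t, x i) ≤ q a + P.Cc) ∧
    (b = true → Real.log (∑ i ∈ runI a t, x i) ≤ q a + 2 * P.win (word Pr) + P.Cc) := by
  obtain ⟨hA1, hA2⟩ := h.winA
  have hA' := h.winA'
  have hA0 := P.hA0
  have hC := P.hC3
  have hlvl := h.lvl
  have hexp := h.exp_m
  have hlow : ∀ i ∈ coords T', Real.log (x i) ≤ q a + P.Cc := by
    intro i hi
    have := hlowb i hi
    linarith
  have htail0 := h.tail_bound hlowb
  have htail : q a ≤ Real.log (∑ i ∈ runI a t, x i) →
      P.K0 * ∑ i ∈ coords T', x i ≤ (1 / 8) * ∑ i ∈ runI a t, x i := by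
    intro hle
    refine le_trans htail0 ?_
    apply mul_le_mul_of_nonneg_left _ (by norm_num)
    calc _ ≤ Real.exp (Real.log (∑ i ∈ runI a t, x i)) := Real.exp_le_exp.2 (by linarith)
      _ = _ := hexp
  have hvPr := h.vPr
  constructor
  · intro hb
    subst hb
    by_contra hcon
    push Not at hcon
    have hle : q a ≤ Real.log (∑ i ∈ runI a t, x i) := by linarith
    rcases natural_lvl P hvPr (Real.log (∑ i ∈ runI a t, x i)) with
      ⟨c, hc, hcle, h1, h2⟩ | ⟨e, he, hem⟩ | hnf
    · have hL : q a ≤ ev c q - P.win (word Pr) / 2 := by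
        rcases hlvl.nonflat rfl c hc with h3 | h3
        · exact h3
        · exfalso; linarith
      have := h.flat_gain hc hcle h1 (by linarith) hlow (htail hle)
      linarith
    · have heU := head_mem_coords he
      have hcS := SS_tie P.D heU
      have hL : q a ≤ q e.1 - P.win (word Pr) / 2 := by
        rcases hlvl.nonflat rfl _ hcS with h3 | h3
        · rwa [ev_single] at h3
        · rw [ev_single] at h3
          have := hstrict e he
          linarith
      have := h.flat_gain hcS (by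
        intro e' he'
        rw [ev_single]
        have : e' = e := by
          rw [Option.mem_def] at he he'
          rw [he] at he'
          exact (Option.some.inj he').symm
        rw [this]) (by rw [ev_single]; linarith) (by rw [ev_single]; linarith) hlow (htail hle)
      rw [ev_single] at this
      linarith
    · have := h.nonflat_gain hnf (by intro i hi; have := hlow i hi; linarith) (htail hle)
      linarith
  · intro hb
    subst hb
    by_contra hcon
    push Not at hcon
    have hle : q a ≤ Real.log (∑ i ∈ runI a t, x i) := by linarith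
    obtain ⟨c₀, hc₀, hLc₀⟩ := hlvl.flat rfl
    rcases natural_lvl P hvPr (Real.log (∑ i ∈ runI a t, x i)) with
      ⟨c, hc, hcle, h1, h2⟩ | ⟨e, he, hem⟩ | hnf
    · have hne : ev c q ≠ ev c₀ q := by
        rw [← hLc₀]
        intro hh
        linarith
      have hg := gap P hvPr hc hc₀ hne
      rw [← hLc₀, abs_of_pos (by linarith)] at hg
      have := h.flat_gain hc hcle h1 (by linarith) hlow (htail hle)
      linarith
    · have heU := head_mem_coords he
      have hcS := SS_tie P.D heU
      have hst := hstrict e he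
      have hne : ev (Pi.single e.1 1) q ≠ ev c₀ q := by
        rw [← hLc₀, ev_single]
        exact hst.ne'
      have hg := gap P hvPr hcS hc₀ hne
      rw [← hLc₀, ev_single, abs_of_pos (by linarith)] at hg
      have := h.flat_gain hcS (by
        intro e' he'
        rw [ev_single]
        have : e' = e := by
          rw [Option.mem_def] at he he'
          rw [he] at he'
          exact (Option.some.inj he').symm
        rw [this]) (by rw [ev_single]; linarith) (by rw [ev_single]; linarith) hlow (htail hle)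
      rw [ev_single] at this
      linarith
    · have := h.nonflat_gain hnf (by intro i hi; have := hlow i hi; linarith) (htail hle)
      linarith

/-- The inequality given by removing the whole run. -/
lemma lo_main (hlowb : ∀ i ∈ coords T', Real.log (x i) ≤
      q a - P.win (word (ties t ((a, b) :: Pr))) / 2 + P.Cc)
    (hstrict : ∀ e ∈ Pr.head?, q a < q e.1) (Ol : ℝ)
    (hOl : Ol * Real.exp (q a) ≤ OmB P b (word Pr) t.length * Real.exp (q a) -
      P.K0 * ∑ i ∈ coords T', x i) :
    Ol * Real.exp (q a) ≤ (∑ i ∈ runI a t, x i) *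
      (q a - Real.log (∑ i ∈ runI a t, x i) + ((d : ℝ) + 1 + P.c0)) := by
  obtain ⟨hA1, hA2⟩ := h.winA
  have hC := P.hC3
  have hup := h.up hlowb hstrict
  have hAm := A0_le_Am P
  have hA' := h.winA'
  have hU : Real.log (∑ i ∈ runI a t, x i) ≤ q a + 2 * P.win (word Pr) + P.Cc := by
    cases b with
    | false => have := hup.1 rfl; linarith [P.hA0]
    | true => exact hup.2 rfl
  have hdrop := h.MI_drop (by
    intro i hi e he
    have hLe : q a ≤ q e.1 := (hstrict e he).le
    unfold Par.Tt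
    rcases hi with hi | hi
    · have := h.y_le_m hi
      linarith
    · have := hlowb i hi
      linarith [P.hA0])
  have hent := sum_ent_ge h.hx h.Ine
  rw [Finset.sum_sub_distrib, ← Finset.mul_sum] at hdrop
  obtain ⟨M, hM⟩ : ∃ M, M = ∑ i ∈ runI a t, x i := ⟨_, rfl⟩
  rw [← hM] at hdrop hent ⊢
  have h1 : M * (q a - Real.log M + ((d : ℝ) + 1 + P.c0)) =
      q a * M - M * (Real.log M - ((d : ℝ) + 1)) + P.c0 * M := by ring
  rw [h1]
  linarith

/-- Lower bound for the logarithm of the mass of the run: non-flat case. -/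
lemma lo_false (hb : b = false) (hlowb : ∀ i ∈ coords T', Real.log (x i) ≤
      q a - P.win (word (ties t ((a, b) :: Pr))) / 2 + P.Cc)
    (hstrict : ∀ e ∈ Pr.head?, q a < q e.1) :
    q a ≤ Real.log (∑ i ∈ runI a t, x i) + P.Cc := by
  subst hb
  obtain ⟨hA1, hA2⟩ := h.winA
  have hA' := h.winA'
  have hA0 := P.hA0
  have hC := P.hC3
  have hlen := h.card_le
  have hexp := h.exp_m
  have hM0 := h.Mpos
  have hAm := A0_le_Am P
  have hd : (0 : ℝ) ≤ d := Nat.cast_nonneg d
  have htail0 := h.tail_bound hlowb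
  by_contra hcon
  push Not at hcon
  have h1 := OmB_false_ge P (word Pr) t.length hlen
  have h2 : P.K0 * ∑ i ∈ coords T', x i ≤ (1 / 8) * Real.exp (q a) := by
    refine le_trans htail0 ?_
    apply mul_le_mul_of_nonneg_left _ (by norm_num)
    exact Real.exp_le_exp.2 (by linarith)
  have hexpa := Real.exp_pos (q a)
  have h3 := h.lo_main hlowb hstrict (7 / 8) (by nlinarith)
  obtain ⟨M, hM⟩ : ∃ M, M = ∑ i ∈ runI a t, x i := ⟨_, rfl⟩
  rw [← hM] at h3 hexp hM0 hcon
  obtain ⟨K, hK⟩ : ∃ K, K = (d : ℝ) + 1 + P.c0 := ⟨_, rfl⟩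
  rw [← hK] at h3
  have hKpos : 0 ≤ K := by
    rw [hK]; unfold Par.c0; linarith
  have hexpC : 2 * (P.Cc + K + 1) ≤ Real.exp P.Cc := by
    have h1 := P.hExpC
    have h2 : P.Cc + K + 1 = 2 * P.Cc + (d : ℝ) + 2 + 4 * P.Am := by
      rw [hK]; unfold Par.c0; ring
    rw [h2]
    have h3 : 0 ≤ 2 * P.Cc + (d : ℝ) + 2 + 4 * P.Am := by linarith
    nlinarith
  have hexpL : Real.exp (q a) = M * Real.exp (q a - Real.log M) := by
    calc Real.exp (q a) = Real.exp (Real.log M) * Real.exp (q a - Real.log M) := by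
          rw [← Real.exp_add]; congr 1; ring
      _ = _ := by rw [hexp]
  obtain ⟨s, hs⟩ : ∃ s, s = q a - Real.log M - P.Cc := ⟨_, rfl⟩
  have hs0 : 0 < s := by rw [hs]; linarith
  have h4 : Real.exp (q a - Real.log M) = Real.exp P.Cc * Real.exp s := by
    rw [← Real.exp_add]; congr 1; rw [hs]; ring
  rw [hexpL] at h3
  have h7 : M * ((7 / 8) * Real.exp (q a - Real.log M)) ≤ M * (q a - Real.log M + K) := by
    linarith
  have h6 := le_of_mul_le_mul_left h7 hM0
  rw [h4] at h6
  have hqq : q a - Real.log M = s + P.Cc := by rw [hs]; ring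
  rw [hqq] at h6
  refine exp_beats (A := 0) (by linarith) hKpos hs0 le_rfl hexpC ?_
  linarith

/-- Lower bound for the logarithm of the mass of the run: flat case. -/
lemma lo_true (hb : b = true) (hlowb : ∀ i ∈ coords T', Real.log (x i) ≤
      q a - P.win (word (ties t ((a, b) :: Pr))) / 2 + P.Cc)
    (hstrict : ∀ e ∈ Pr.head?, q a < q e.1) :
    q a ≤ Real.log (∑ i ∈ runI a t, x i) + P.win (word Pr) + P.Cc := by
  subst hb
  obtain ⟨hA1, hA2⟩ := h.winA
  have hA' := h.winA'
  have hA0 := P.hA0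
  have hC := P.hC3
  have hlen := h.card_le
  have hexp := h.exp_m
  have hM0 := h.Mpos
  have hAm := A0_le_Am P
  have hd : (0 : ℝ) ≤ d := Nat.cast_nonneg d
  have htail0 := h.tail_bound hlowb
  by_contra hcon
  push Not at hcon
  obtain ⟨A, hA⟩ : ∃ A, A = P.win (word Pr) := ⟨_, rfl⟩
  rw [← hA] at hA1 hA2 hcon
  have h1 := OmB_true_ge P (word Pr) t.length hlen
  rw [← hA] at h1
  have hEpos := EE_pos (A := A) (by linarith)
  have hA'' : 4 * A ≤ P.win (word (ties t ((a, true) :: Pr))) := by
    rw [h.wordQ, hA]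
    have h3 := P.hwin_true (List.replicate t.length true) (word Pr) (by simp at hlen ⊢; omega)
    have h4 := P.hLam4
    have h5 : 0 ≤ P.win (word Pr) := by linarith
    nlinarith
  have h2 : P.K0 * ∑ i ∈ coords T', x i ≤ (1 / 8) * (EE A * Real.exp (q a)) := by
    refine le_trans htail0 ?_
    apply mul_le_mul_of_nonneg_left _ (by norm_num)
    have h3 : Real.exp (q a - P.Cc + (P.A0 - P.win (word (ties t ((a, true) :: Pr)))) / 2)
        ≤ Real.exp (-A) * Real.exp (q a) := by
      rw [← Real.exp_add]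
      apply Real.exp_le_exp.2
      linarith
    refine le_trans h3 ?_
    apply mul_le_mul_of_nonneg_right _ (Real.exp_pos _).le
    unfold EE
    have := Real.exp_pos (-A)
    nlinarith
  have hexpa := Real.exp_pos (q a)
  have h3 := h.lo_main hlowb hstrict ((7 / 8) * EE A) (by nlinarith [mul_pos hEpos hexpa])
  obtain ⟨M, hM⟩ : ∃ M, M = ∑ i ∈ runI a t, x i := ⟨_, rfl⟩
  rw [← hM] at h3 hexp hM0 hcon
  obtain ⟨K, hK⟩ : ∃ K, K = (d : ℝ) + 1 + P.c0 := ⟨_, rfl⟩
  rw [← hK] at h3
  have hKpos : 0 ≤ K := by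
    rw [hK]; unfold Par.c0; linarith
  have hexpC : 2 * (P.Cc + K + 1) ≤ Real.exp P.Cc := by
    have h1 := P.hExpC
    have h2 : P.Cc + K + 1 = 2 * P.Cc + (d : ℝ) + 2 + 4 * P.Am := by
      rw [hK]; unfold Par.c0; ring
    rw [h2]
    have h3 : 0 ≤ 2 * P.Cc + (d : ℝ) + 2 + 4 * P.Am := by linarith
    nlinarith
  have hexpL : Real.exp (q a) = M * Real.exp (q a - Real.log M) := by
    calc Real.exp (q a) = Real.exp (Real.log M) * Real.exp (q a - Real.log M) := by
          rw [← Real.exp_add]; congr 1; ring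
      _ = _ := by rw [hexp]
  obtain ⟨s, hs⟩ : ∃ s, s = q a - Real.log M - A - P.Cc := ⟨_, rfl⟩
  have hs0 : 0 < s := by rw [hs]; linarith
  have h4 : Real.exp (q a - Real.log M) * Real.exp (-A) = Real.exp P.Cc * Real.exp s := by
    rw [← Real.exp_add, ← Real.exp_add]; congr 1; rw [hs]; ring
  rw [hexpL] at h3
  have h7 : M * ((7 / 8) * ((1 + A) * (Real.exp P.Cc * Real.exp s))) ≤
      M * (q a - Real.log M + K) := by
    rw [← h4]
    unfold EE at h3
    calc _ = (7 / 8) * ((1 + A) * Real.exp (-A)) * (M * Real.exp (q a - Real.log M)) := by ring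
      _ ≤ _ := h3
  have h6 := le_of_mul_le_mul_left h7 hM0
  have hqq : q a - Real.log M = s + A + P.Cc := by rw [hs]; ring
  rw [hqq] at h6
  exact exp_beats (A := A) (C := P.Cc) (K := K) (s := s) (by linarith) hKpos hs0 (by linarith) hexpC h6

/-- A non-flat run stays away from the centers above its level. -/
lemma center (hlowb : ∀ i ∈ coords T', Real.log (x i) ≤
      q a - P.win (word (ties t ((a, b) :: Pr))) / 2 + P.Cc)
    (hstrict : ∀ e ∈ Pr.head?, q a < q e.1) (hb : b = false) {c : Fin d → ℝ}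
    (hc : c ∈ SS P.D (coords Pr)) (hLc : q a < ev c q) :
    Real.log (∑ i ∈ runI a t, x i) ≤ ev c q - P.win (word Pr) + P.Cc := by
  subst hb
  obtain ⟨hA1, hA2⟩ := h.winA
  have hA' := h.winA'
  have hA0 := P.hA0
  have hC := P.hC3
  have hlen := h.card_le
  have hup := (h.up hlowb hstrict).1 rfl
  have hlo := h.lo_false rfl hlowb hstrict
  have hlvl := h.lvl
  have hvPr := h.vPr
  have hM0 := h.Mpos
  have hexp := h.exp_m
  have htail0 := h.tail_bound hlowb
  by_contra hcon
  push Not at hcon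
  have hL : q a ≤ ev c q - P.win (word Pr) / 2 := by
    rcases hlvl.nonflat rfl c hc with h3 | h3
    · exact h3
    · exfalso; linarith
  by_cases hle : ∀ e ∈ Pr.head?, ev c q ≤ q e.1
  · have hlv : LvlOK P q Pr (ev c q) true := ⟨hle, fun _ => ⟨c, hc, rfl⟩, by simp⟩
    have hAm := A0_le_Am P
    have hmi := h.MI_level hlv (by
      intro i hi
      have := hlowb i hi
      unfold Par.Tt
      linarith)
    have htail : P.K0 * ∑ i ∈ coords T', x i ≤ (1 / 8) * ∑ i ∈ runI a t, x i := by
      refine le_trans htail0 ?_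
      apply mul_le_mul_of_nonneg_left _ (by norm_num)
      calc _ ≤ Real.exp (Real.log (∑ i ∈ runI a t, x i)) := Real.exp_le_exp.2 (by linarith)
        _ = _ := hexp
    obtain ⟨M, hM⟩ : ∃ M, M = ∑ i ∈ runI a t, x i := ⟨_, rfl⟩
    rw [← hM] at hmi hM0 hexp htail hcon
    obtain ⟨A, hA⟩ : ∃ A, A = P.win (word Pr) := ⟨_, rfl⟩
    rw [← hA] at hcon hA1 hA2 hL
    have h2 := OmB_true_le P (word Pr) t.length hlen
    rw [← hA] at h2
    have h3 : OmB P true (word Pr) t.length * Real.exp (ev c q) ≤ M := by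
      have h4 := EE_exp_le (A := A) (s := P.Cc) (c := ev c q) (m := Real.log M) (by linarith)
        (by linarith) hexp
      have h5 : 2 * (1 + A) * Real.exp (-P.Cc) ≤ 1 := by
        have h6 := P.hExpC
        have hd : (0 : ℝ) ≤ d := Nat.cast_nonneg d
        have h7 : 2 * (1 + A) ≤ Real.exp P.Cc := by
          refine le_trans ?_ h6
          nlinarith
        have h8 : Real.exp (-P.Cc) * Real.exp P.Cc = 1 := exp_neg_mul_self
        have h9 := Real.exp_pos (-P.Cc)
        nlinarith
      calc OmB P true (word Pr) t.length * Real.exp (ev c q)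
          ≤ (2 * EE A) * Real.exp (ev c q) := mul_le_mul_of_nonneg_right h2 (Real.exp_pos _).le
        _ = 2 * (EE A * Real.exp (ev c q)) := by ring
        _ ≤ 2 * ((1 + A) * (Real.exp (-P.Cc) * M)) := by linarith
        _ = (2 * (1 + A) * Real.exp (-P.Cc)) * M := by ring
        _ ≤ 1 * M := mul_le_mul_of_nonneg_right h5 hM0.le
        _ = M := one_mul M
    have h6 : 0 ≤ OmB P false (word Pr) t.length * Real.exp (q a) :=
      mul_nonneg (OmB_nonneg P false _ _ hlen) (Real.exp_pos _).le
    have h7 : (ev c q - q a) * M ≤ (1 + 1 / 8) * M := by nlinarith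
    have h8 := le_of_mul_le_mul_right h7 hM0
    linarith
  · push Not at hle
    obtain ⟨e, he, hlt⟩ := hle
    have heU := head_mem_coords he
    have hg := gap P hvPr hc (SS_tie P.D heU) (by rw [ev_single]; exact hlt.ne')
    rw [ev_single, abs_of_pos (by linarith)] at hg
    have := hstrict e he
    linarith

/-- The lower coordinates of a run do not lie too far below its level. -/
lemma mem_low (hlowb : ∀ i ∈ coords T', Real.log (x i) ≤
      q a - P.win (word (ties t ((a, b) :: Pr))) / 2 + P.Cc)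
    (hstrict : ∀ e ∈ Pr.head?, q a < q e.1) {a' : Fin d} (ha' : a' ∈ runI a t)
    {H : Finset (Fin d)} (hH : H ⊆ runI a t) (hne : H.Nonempty) (hnot : a' ∉ H)
    (hord : ∀ i ∈ runI a t \ H, Real.log (x i) ≤ Real.log (x a')) :
    q a - P.win (List.replicate (H.card - 1) true ++ b :: word Pr) - P.Cc ≤ Real.log (x a') := by
  classical
  obtain ⟨hA1, hA2⟩ := h.winA
  have hA0 := P.hA0
  have hC := P.hC3
  have hAm := A0_le_Am P
  have hlen := h.card_le
  have hlen' : Pr.length + 1 + t.length ≤ d := by simpa using hlen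
  have hup := h.up hlowb hstrict
  have htail0 := h.tail_bound hlowb
  have hU : Real.log (∑ i ∈ runI a t, x i) ≤ q a + 2 * P.win (word Pr) + P.Cc := by
    cases b with
    | false => have := hup.1 rfl; linarith
    | true => exact hup.2 rfl
  have hd : (0 : ℝ) ≤ d := Nat.cast_nonneg d
  -- indices
  have hcard := h.card
  have hHlt : H.card < (runI a t).card :=
    Finset.card_lt_card (Finset.ssubset_iff_of_subset hH |>.2 ⟨a', ha', hnot⟩)
  have hHpos : 0 < H.card := Finset.card_pos.2 hne
  have hmn : H.card - 1 < t.length := by omega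
  obtain ⟨B, hB⟩ : ∃ B, B = P.win (List.replicate (H.card - 1) true ++ b :: word Pr) := ⟨_, rfl⟩
  rw [← hB]
  have hBge : P.A0 ≤ B := by
    rw [hB]
    apply P.hwin_ge
    simp
    omega
  have hBle : B ≤ P.Am := by
    rw [hB]
    apply P.hwin_le
    simp
    omega
  by_contra hcon
  push Not at hcon
  -- keep
  have hkeep := h.MI_keep hH hne (by
    intro i hi
    unfold Par.Tt
    rcases hi with hi | hi
    · have := h.y_le_m (Finset.mem_sdiff.1 hi).1
      linarith
    · have := hlowb i hi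
      have := h.winA'
      linarith)
  have hdiff : EE B ≤ OmB P b (word Pr) t.length - OmB P b (word Pr) (H.card - 1) := by
    simp only [OmB]
    rw [hB]
    have := tieOm_diff P (b :: word Pr) hmn (by simp; omega)
    linarith
  -- window after the run
  have hA'' : 4 * B ≤ P.win (word (ties t ((a, b) :: Pr))) := by
    rw [h.wordQ]
    have hrep : List.replicate t.length true ++ b :: word Pr =
        List.replicate (t.length - H.card) true ++ true ::
          (List.replicate (H.card - 1) true ++ b :: word Pr) := by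
      have : t.length = (t.length - H.card) + 1 + (H.card - 1) := by omega
      conv_lhs => rw [this]
      rw [List.replicate_add, List.replicate_add, List.append_assoc, List.append_assoc]
      simp
    rw [hrep]
    have h3 := P.hwin_true (List.replicate (t.length - H.card) true)
      (List.replicate (H.card - 1) true ++ b :: word Pr) (by simp; omega)
    rw [← hB] at h3
    have h4 := P.hLam4
    nlinarith
  have htail : P.K0 * ∑ i ∈ coords T', x i ≤ (1 / 8) * (Real.exp (-B) * Real.exp (q a)) := by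
    refine le_trans htail0 ?_
    apply mul_le_mul_of_nonneg_left _ (by norm_num)
    rw [← Real.exp_add]
    apply Real.exp_le_exp.2
    linarith
  -- bound on the removed coordinates
  obtain ⟨K, hK⟩ : ∃ K, K = 1 + P.c0 := ⟨_, rfl⟩
  have hK1 : 1 ≤ K := by
    rw [hK]; unfold Par.c0; linarith
  have hterm : ∀ i ∈ runI a t \ H, (q a * x i - (ent (x i) - P.c0 * x i)) ≤
      Real.exp (q a) * (Real.exp (-(B + P.Cc)) * (B + P.Cc + K)) := by
    intro i hi
    have hyi := hord i hi
    have hxi := h.hx i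
    have hτ : B + P.Cc ≤ q a - Real.log (x i) := by linarith
    have h1 := exp_neg_mul_anti (s := B + P.Cc) (t := q a - Real.log (x i)) (K := K)
      (by linarith) hτ hK1
    have h2 : x i = Real.exp (q a) * Real.exp (-(q a - Real.log (x i))) := by
      rw [← Real.exp_add]
      have : q a + -(q a - Real.log (x i)) = Real.log (x i) := by ring
      rw [this, Real.exp_log hxi]
    have h3 : q a * x i - (ent (x i) - P.c0 * x i) = x i * (q a - Real.log (x i) + K) := by
      unfold ent
      rw [hK]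
      ring
    rw [h3]
    calc x i * (q a - Real.log (x i) + K)
        = Real.exp (q a) * (Real.exp (-(q a - Real.log (x i))) * (q a - Real.log (x i) + K)) := by
          nth_rewrite 1 [h2]
          ring
      _ ≤ _ := mul_le_mul_of_nonneg_left h1 (Real.exp_pos _).le
  have hsumle := Finset.sum_le_sum hterm
  rw [Finset.sum_sub_distrib, ← Finset.mul_sum, Finset.sum_const, nsmul_eq_mul] at hsumle
  have hJcard : ((runI a t \ H).card : ℝ) ≤ (d : ℝ) + 1 := by
    have : (runI a t \ H).card ≤ d := by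
      calc (runI a t \ H).card ≤ (Finset.univ : Finset (Fin d)).card := Finset.card_le_univ _
        _ = d := by simp
    have : ((runI a t \ H).card : ℝ) ≤ d := by exact_mod_cast this
    linarith
  obtain ⟨J, hJ⟩ : ∃ J : ℝ, J = Real.exp (q a) := ⟨_, rfl⟩
  have hJpos : 0 < J := by rw [hJ]; exact Real.exp_pos _
  rw [← hJ] at hsumle htail hkeep
  have hEB : EE B * J ≤ (OmB P b (word Pr) t.length - OmB P b (word Pr) (H.card - 1)) * J :=
    mul_le_mul_of_nonneg_right hdiff hJpos.le
  -- combination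
  have hE2 : Real.exp (-(B + P.Cc)) = Real.exp (-B) * Real.exp (-P.Cc) := by
    rw [← Real.exp_add]; congr 1; ring
  have hEexp := Real.exp_pos (-B)
  have hCexp := Real.exp_pos (-P.Cc)
  have hK2 : 2 * ((d : ℝ) + 1) * (P.Cc + K) * Real.exp (-P.Cc) ≤ 1 := by
    have h6 := P.hExpC
    have h7 : 2 * ((d : ℝ) + 1) * (P.Cc + K) ≤ Real.exp P.Cc := by
      refine le_trans ?_ h6
      apply mul_le_mul_of_nonneg_left _ (by positivity)
      rw [hK]; unfold Par.c0; linarith
    have h8 : Real.exp (-P.Cc) * Real.exp P.Cc = 1 := exp_neg_mul_self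
    nlinarith
  have hBK : B + P.Cc + K ≤ (1 + B) * (P.Cc + K) := by
    have : 0 ≤ B * (P.Cc + K - 1) := mul_nonneg (by linarith) (by linarith)
    nlinarith
  have hfinal : (1 + B) ≤ (1 + B) / 2 + 1 / 8 := by
    have h1 : ((runI a t \ H).card : ℝ) * (J * (Real.exp (-(B + P.Cc)) * (B + P.Cc + K))) ≤
        J * Real.exp (-B) * ((1 + B) / 2) := by
      rw [hE2]
      have h2 : ((runI a t \ H).card : ℝ) * (B + P.Cc + K) * Real.exp (-P.Cc) ≤ (1 + B) / 2 := by
        have h3 : ((runI a t \ H).card : ℝ) * (B + P.Cc + K) ≤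
            ((d : ℝ) + 1) * ((1 + B) * (P.Cc + K)) := by
          apply mul_le_mul hJcard hBK (by linarith) (by linarith)
        have h4 : ((runI a t \ H).card : ℝ) * (B + P.Cc + K) * Real.exp (-P.Cc) ≤
            ((d : ℝ) + 1) * ((1 + B) * (P.Cc + K)) * Real.exp (-P.Cc) :=
          mul_le_mul_of_nonneg_right h3 hCexp.le
        have h5 : ((d : ℝ) + 1) * ((1 + B) * (P.Cc + K)) * Real.exp (-P.Cc) =
            (1 + B) / 2 * (2 * ((d : ℝ) + 1) * (P.Cc + K) * Real.exp (-P.Cc)) := by ring
        rw [h5] at h4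
        have h6 : (1 + B) / 2 * (2 * ((d : ℝ) + 1) * (P.Cc + K) * Real.exp (-P.Cc)) ≤
            (1 + B) / 2 * 1 := mul_le_mul_of_nonneg_left hK2 (by linarith)
        linarith
      have h7 : 0 ≤ J * Real.exp (-B) := by positivity
      calc ((runI a t \ H).card : ℝ) * (J * (Real.exp (-B) * Real.exp (-P.Cc) * (B + P.Cc + K)))
          = (J * Real.exp (-B)) * (((runI a t \ H).card : ℝ) * (B + P.Cc + K) * Real.exp (-P.Cc)) := by
            ring
        _ ≤ _ := mul_le_mul_of_nonneg_left h2 h7
    have h8 : EE B * J = J * Real.exp (-B) * (1 + B) := by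
      unfold EE; ring
    have h9 : 0 < J * Real.exp (-B) := by positivity
    have h10 : J * Real.exp (-B) * (1 + B) ≤ J * Real.exp (-B) * ((1 + B) / 2 + 1 / 8) := by
      rw [← h8]
      have h11 : P.K0 * ∑ i ∈ coords T', x i ≤ J * Real.exp (-B) * (1 / 8) := by
        linarith
      have h12 : J * Real.exp (-B) * ((1 + B) / 2 + 1 / 8) = J * Real.exp (-B) * ((1 + B) / 2) +
          J * Real.exp (-B) * (1 / 8) := by ring
      rw [h12]
      nlinarith
    exact le_of_mul_le_mul_left h10 h9
  linarith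

end RunCtx

end Vale.Agent.Lib.P072G
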