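import Vale.Agent.Lib.P072G.Cut

/-!
The Lyapunov function: the value of a maximal site. It does not increase along solutions of a
weakly reversible network, whatever the rank.
-/

open Finset Filter Topology Vale.Agent.Lib.P072

namespace Vale.Agent.Lib.P072G

variable {d : ℕ}

/-- The Lyapunov function. -/
noncomputable def Wf (P : Par d) (x : Fin d → ℝ) : ℝ :=
  sSup {g | ∃ (q : Fin d → ℝ) (l : List (Fin d × Bool)), Valid P q l ∧ coords l = Finset.univ ∧
    g = GG P x q l}

lemma Wf_spec (P : Par d) {x : Fin d → ℝ} (hx : ∀ i, 0 < x i) :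
    ∃ (q : Fin d → ℝ) (s : List (Fin d × Bool)), Valid P q s ∧ coords s = Finset.univ ∧
      Wf P x = GG P x q s ∧
      ∀ (q' : Fin d → ℝ) (l' : List (Fin d × Bool)), Valid P q' l' →
        coords l' = Finset.univ → GG P x q' l' ≤ GG P x q s := by
  obtain ⟨q, s, hv, hc, hm⟩ := exists_max P hx
  refine ⟨q, s, hv, hc, ?_, hm⟩
  have hg : IsGreatest {g | ∃ (q : Fin d → ℝ) (l : List (Fin d × Bool)), Valid P q l ∧
      coords l = Finset.univ ∧ g = GG P x q l} (GG P x q s) := by
    refine ⟨⟨q, s, hv, hc, rfl⟩, ?_⟩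
    rintro g ⟨q', l', hv', hc', rfl⟩
    exact hm q' l' hv' hc'
  exact hg.csSup_eq

lemma GG_le_Wf (P : Par d) {x : Fin d → ℝ} (hx : ∀ i, 0 < x i) {q : Fin d → ℝ}
    {l : List (Fin d × Bool)} (hv : Valid P q l) (hc : coords l = Finset.univ) :
    GG P x q l ≤ Wf P x := by
  obtain ⟨q₀, s, _, _, hW, hm⟩ := Wf_spec P hx
  rw [hW]
  exact hm q l hv hc

/-- The value of a chain is affine in the point. -/
lemma GG_sub (P : Par d) (x x' q : Fin d → ℝ) {l : List (Fin d × Bool)} (hv : Valid P q l) :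
    GG P x' q l - GG P x q l = ∑ i ∈ coords l, q i * (x' i - x i) := by
  classical
  induction l with
  | nil => simp [GG]
  | cons e l ih =>
    simp only [GG, coords_cons]
    rw [Finset.sum_insert hv.2.1]
    have := ih hv.1
    linarith

lemma dot_eq_sum (q w : Fin d → ℝ) : dot q w = ∑ i, q i * w i := rfl

lemma GG_sub_dot (P : Par d) (x x' q : Fin d → ℝ) {l : List (Fin d × Bool)} (hv : Valid P q l)
    (hc : coords l = Finset.univ) : GG P x' q l - GG P x q l = dot q (x' - x) := by
  rw [GG_sub P x x' q hv, hc, dot_eq_sum]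
  refine Finset.sum_congr rfl fun i _ => ?_
  simp

/-- The positive orthant. -/
def orth (d : ℕ) : Set (Fin d → ℝ) := {x | ∀ i, 0 < x i}

lemma orth_open : IsOpen (orth d) := by
  have : orth d = ⋂ i, {x : Fin d → ℝ | 0 < x i} := by
    ext x; simp [orth]
  rw [this]
  exact isOpen_iInter_of_finite fun i => isOpen_lt continuous_const (continuous_apply i)

lemma orth_convex : Convex ℝ (orth d) := by
  intro x hx y hy a b ha hb hab i
  simp only [Pi.add_apply, Pi.smul_apply, smul_eq_mul]
  have h1 := hx i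
  have h2 := hy i
  rcases lt_or_eq_of_le ha with ha' | ha'
  · have := mul_pos ha' h1
    have := mul_nonneg hb h2.le
    linarith
  · have hb' : b = 1 := by linarith
    rw [← ha', hb']
    simpa using h2

lemma Wf_convex (P : Par d) : ConvexOn ℝ (orth d) (Wf P) := by
  refine ⟨orth_convex, ?_⟩
  intro x hx y hy a b ha hb hab
  have hz : ∀ i, 0 < (a • x + b • y) i := orth_convex hx hy ha hb hab
  obtain ⟨q, s, hv, hc, hW, _⟩ := Wf_spec P hz
  rw [hW]
  have h1 := GG_sub_dot P x (a • x + b • y) q hv hc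
  have h2 := GG_sub_dot P y (a • x + b • y) q hv hc
  have h3 := GG_le_Wf P hx hv hc
  have h4 := GG_le_Wf P hy hv hc
  have h5 : a * dot q (a • x + b • y - x) + b * dot q (a • x + b • y - y) = 0 := by
    simp only [dot_eq_sum, Finset.mul_sum, ← Finset.sum_add_distrib]
    refine Finset.sum_eq_zero fun i _ => ?_
    simp only [Pi.sub_apply, Pi.add_apply, Pi.smul_apply, smul_eq_mul]
    have hb' : b = 1 - a := by linarith
    rw [hb']
    ring
  simp only [smul_eq_mul]
  have h6 : a * GG P x q s ≤ a * Wf P x := mul_le_mul_of_nonneg_left h3 ha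
  have h7 : b * GG P y q s ≤ b * Wf P y := mul_le_mul_of_nonneg_left h4 hb
  have h8 : GG P (a • x + b • y) q s = a * GG P (a • x + b • y) q s + b * GG P (a • x + b • y) q s := by
    have hb' : b = 1 - a := by linarith
    rw [hb']; ring
  rw [h8]
  rw [← h1, ← h2] at h5
  nlinarith

lemma Wf_continuousAt (P : Par d) {x : Fin d → ℝ} (hx : ∀ i, 0 < x i) : ContinuousAt (Wf P) x :=
  ((Wf_convex P).continuousOn orth_open).continuousAt (orth_open.mem_nhds hx)

/-- The properties of a maximal site at a point. -/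
lemma max_pkg (P : Par d) {x : Fin d → ℝ} (hx : ∀ i, 0 < x i) :
    ∃ q : Fin d → ℝ, (∀ x', (∀ i, 0 < x' i) → Wf P x - Wf P x' ≤ dot q (x - x')) ∧
      (∀ v ∈ P.D, 0 < ev v q → P.dl ≤ ev v (fun i => Real.log (x i))) ∧
      (∀ i, |Real.log (x i) - q i| ≤ P.Am + P.Cc + d) := by
  obtain ⟨q, s, hv, hc, hW, hm⟩ := Wf_spec P hx
  refine ⟨q, ?_, ?_, ?_⟩
  · intro x' hx'
    have h1 := GG_le_Wf P hx' hv hc
    have h2 := GG_sub_dot P x' x q hv hc
    rw [hW]
    linarith
  · intro v hvD hpos
    exact sign_of_max hx hv hc hm hvD hpos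
  · intro i
    have h1 := (sign_all hx hv hc hm s.length [] s le_rfl (by simp) (by simp)).1 i (by rw [hc]; simp)
    have hlen : (word s).length ≤ d := by simpa using valid_length_le hv
    have h2 := h1.bound hlen
    have h3 := P.hwin_le _ hlen
    have h4 := P.hLam4
    have h5 := win_pos P hlen
    have h6 : 2 * P.win (word s) / P.Lam ≤ P.Am := by
      rw [div_le_iff₀ (by linarith)]
      nlinarith
    linarith

lemma dot_add_right' (a b c : Fin d → ℝ) : dot a (b + c) = dot a b + dot a c := by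
  simp only [dot_eq_sum, Pi.add_apply, mul_add, Finset.sum_add_distrib]

/-- The value of the Lyapunov function is not increased to first order along a solution. -/
lemma dini {R : Finset (Cplx d × Cplx d)} (hWR : WeaklyReversible R) {ε : ℝ} (hε : 0 < ε)
    {P : Par d} (hPD : P.D = diffSet R) (hPdl : (R.card : ℝ) * ε⁻¹ ≤ ε * Real.exp (P.dl - 1))
    {k : ℝ → Cplx d × Cplx d → ℝ} (hk : ∀ t p, ε ≤ k t p ∧ k t p ≤ ε⁻¹) {T : ℝ}
    {x : ℝ → Fin d → ℝ} (hsol : IsSol R k T x) {s : ℝ} (hs : s ∈ Set.Ico 0 T) {r : ℝ} (hr : 0 < r) :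
    ∀ᶠ z in 𝓝[>] s, Wf P (x z) - Wf P (x s) ≤ (z - s) * (r / 2) := by
  classical
  have hxs := hsol.pos s hs
  have hder := hsol.der s hs
  have hN0 := P.hNN0
  -- closeness of logarithms
  obtain ⟨ρ, hρ⟩ : ∃ ρ : ℝ, ρ = 1 / (P.NN + 1) := ⟨_, rfl⟩
  have hρ0 : 0 < ρ := by rw [hρ]; positivity
  have hρ1 : ρ ≤ 1 := by
    rw [hρ, div_le_one (by linarith)]
    linarith
  have hρN : P.NN * ρ ≤ 1 := by
    rw [hρ]
    have : P.NN * (1 / (P.NN + 1)) = P.NN / (P.NN + 1) := by ring
    rw [this, div_le_one (by linarith)]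
    linarith
  have hgt : 𝓝[>] s ≤ 𝓝[Set.Ici s] s := nhdsWithin_mono s Set.Ioi_subset_Ici_self
  have hcont : ∀ i, Tendsto (fun z => Real.log (x z i)) (𝓝[>] s) (𝓝 (Real.log (x s i))) := by
    intro i
    have h1 : ContinuousWithinAt x (Set.Ici s) s := hder.continuousWithinAt
    have h2 : ContinuousWithinAt (fun z => x z i) (Set.Ici s) s := continuousWithinAt_pi.1 h1 i
    have h3 : ContinuousWithinAt (fun z => Real.log (x z i)) (Set.Ici s) s :=
      h2.log (hxs i).ne'
    exact h3.tendsto.mono_left hgt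
  have hclose : ∀ᶠ z in 𝓝[>] s, ∀ i, |Real.log (x z i) - Real.log (x s i)| ≤ ρ := by
    rw [Filter.eventually_all]
    intro i
    have h1 := (hcont i).eventually (Metric.closedBall_mem_nhds _ hρ0)
    filter_upwards [h1] with z hz
    rw [Real.dist_eq] at hz
    exact hz
  -- the bound of the levels
  obtain ⟨Q, hQ⟩ : ∃ Q : ℝ, Q = ∑ i, (|Real.log (x s i)| + 1 + (P.Am + P.Cc + d)) := ⟨_, rfl⟩
  have hAm := A0_le_Am P
  have hA0 := P.hA0
  have hC := P.hC3
  have hdd : (0 : ℝ) ≤ d := Nat.cast_nonneg d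
  have hterm0 : ∀ i, 0 ≤ |Real.log (x s i)| + 1 + (P.Am + P.Cc + d) := by
    intro i
    have := abs_nonneg (Real.log (x s i))
    linarith
  have hQ0 : 0 ≤ Q := by
    rw [hQ]; exact Finset.sum_nonneg fun i _ => hterm0 i
  -- the linear approximation
  have hlo := (hasDerivWithinAt_iff_isLittleO.1 hder)
  have heta : 0 < r / (2 * (Q + 1)) := by positivity
  have happ : ∀ᶠ z in 𝓝[>] s, ‖x z - x s - (z - s) • massAction R (k s) (x s)‖ ≤
      r / (2 * (Q + 1)) * ‖z - s‖ := (hlo.def heta).filter_mono hgt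
  have hdom : ∀ᶠ z in 𝓝[>] s, z < T := by
    have : Set.Iio T ∈ 𝓝[>] s := mem_nhdsWithin_of_mem_nhds (Iio_mem_nhds hs.2)
    exact this
  have hgtz : ∀ᶠ z in 𝓝[>] s, s < z := self_mem_nhdsWithin
  filter_upwards [hclose, happ, hdom, hgtz] with z hz1 hz2 hz3 hz4
  have hzdom : z ∈ Set.Ico 0 T := ⟨le_trans hs.1 hz4.le, hz3⟩
  have hxz := hsol.pos z hzdom
  obtain ⟨q, hq1, hq2, hq3⟩ := max_pkg P hxz
  -- bounds
  have hqb : ∑ i, |q i| ≤ Q := by
    rw [hQ]
    refine Finset.sum_le_sum fun i _ => ?_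
    have h1 := hq3 i
    have h2 := hz1 i
    have h3 : |q i| ≤ |Real.log (x z i)| + |Real.log (x z i) - q i| := by
      have e : q i = Real.log (x z i) - (Real.log (x z i) - q i) := by ring
      calc |q i| = |Real.log (x z i) - (Real.log (x z i) - q i)| := by rw [← e]
        _ ≤ _ := abs_sub _ _
    have h4 : |Real.log (x z i)| ≤ |Real.log (x s i)| + |Real.log (x z i) - Real.log (x s i)| := by
      have : Real.log (x z i) = Real.log (x s i) + (Real.log (x z i) - Real.log (x s i)) := by ring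
      nth_rewrite 1 [this]
      exact abs_add_le _ _
    linarith
  -- the sign of the flux at `x s`
  have hflux : dot q (massAction R (k s) (x s)) ≤ 0 := by
    refine flux_nonpos hWR hε (hk s) hxs hPdl ?_
    intro v hv hpos
    rw [← hPD] at hv
    have h1 := hq2 v hv hpos
    have h2 : ev v (fun i => Real.log (x z i)) - ev v (fun i => Real.log (x s i)) ≤ 1 := by
      have h3 : ev v (fun i => Real.log (x z i)) - ev v (fun i => Real.log (x s i)) =
          ∑ i, v i * (Real.log (x z i) - Real.log (x s i)) := by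
        unfold ev
        rw [← Finset.sum_sub_distrib]
        refine Finset.sum_congr rfl fun i _ => by ring
      rw [h3]
      have h4 : ∑ i, v i * (Real.log (x z i) - Real.log (x s i)) ≤ ∑ i, |v i| * ρ := by
        refine Finset.sum_le_sum fun i _ => ?_
        have h5 := le_abs_self (v i * (Real.log (x z i) - Real.log (x s i)))
        rw [abs_mul] at h5
        exact le_trans h5 (mul_le_mul_of_nonneg_left (hz1 i) (abs_nonneg _))
      rw [← Finset.sum_mul] at h4
      have h6 := P.hNN v hv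
      have h7 : (∑ i, |v i|) * ρ ≤ P.NN * ρ := mul_le_mul_of_nonneg_right h6 hρ0.le
      linarith
    linarith
  -- conclusion
  have h1 := hq1 (x s) hxs
  have hdec : x z - x s = (z - s) • massAction R (k s) (x s) +
      (x z - x s - (z - s) • massAction R (k s) (x s)) := by abel
  rw [hdec, dot_add_right', dot_smul_right] at h1
  have hzs : 0 < z - s := by linarith
  have h2 : (z - s) * dot q (massAction R (k s) (x s)) ≤ 0 :=
    mul_nonpos_of_nonneg_of_nonpos hzs.le hflux
  have h3 : dot q (x z - x s - (z - s) • massAction R (k s) (x s)) ≤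
      Q * (r / (2 * (Q + 1)) * ‖z - s‖) := by
    rw [dot_eq_sum]
    have h4 : ∀ i, q i * (x z - x s - (z - s) • massAction R (k s) (x s)) i ≤
        |q i| * (r / (2 * (Q + 1)) * ‖z - s‖) := by
      intro i
      have h5 := le_abs_self (q i * (x z - x s - (z - s) • massAction R (k s) (x s)) i)
      rw [abs_mul] at h5
      refine le_trans h5 (mul_le_mul_of_nonneg_left ?_ (abs_nonneg _))
      refine le_trans ?_ hz2
      exact norm_le_pi_norm (x z - x s - (z - s) • massAction R (k s) (x s)) i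
    refine le_trans (Finset.sum_le_sum fun i _ => h4 i) ?_
    rw [← Finset.sum_mul]
    exact mul_le_mul_of_nonneg_right hqb (by positivity)
  have h6 : ‖z - s‖ = z - s := by
    rw [Real.norm_eq_abs, abs_of_pos hzs]
  rw [h6] at h3
  have h7 : Q * (r / (2 * (Q + 1)) * (z - s)) ≤ (z - s) * (r / 2) := by
    have h8 : Q * (r / (2 * (Q + 1)) * (z - s)) = (z - s) * (r / 2) * (Q / (Q + 1)) := by
      field_simp
    rw [h8]
    have h9 : Q / (Q + 1) ≤ 1 := by
      rw [div_le_one (by linarith)]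
      linarith
    have h10 : 0 ≤ (z - s) * (r / 2) := by positivity
    nlinarith
  linarith

/-- The Lyapunov function does not increase along solutions. -/
theorem Wf_le_of_sol {R : Finset (Cplx d × Cplx d)} (hWR : WeaklyReversible R) {ε : ℝ} (hε : 0 < ε)
    {P : Par d} (hPD : P.D = diffSet R) (hPdl : (R.card : ℝ) * ε⁻¹ ≤ ε * Real.exp (P.dl - 1))
    {k : ℝ → Cplx d × Cplx d → ℝ} (hk : ∀ t p, ε ≤ k t p ∧ k t p ≤ ε⁻¹) {T : ℝ}
    {x : ℝ → Fin d → ℝ} (hsol : IsSol R k T x) {t : ℝ} (ht : t ∈ Set.Ico 0 T) :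
    Wf P (x t) ≤ Wf P (x 0) := by
  have hf : ContinuousOn (fun s => Wf P (x s)) (Set.Icc 0 t) :=
    hsol.continuousOn_comp (fun y hy => Wf_continuousAt P hy) le_rfl ht.2
  have h := image_le_of_liminf_slope_right_le_deriv_boundary (f := fun s => Wf P (x s))
    (B := fun _ => Wf P (x 0)) (B' := fun _ => 0) hf le_rfl continuousOn_const
    (fun _ _ => hasDerivWithinAt_const _ _ _) ?_
  · exact h ⟨ht.1, le_rfl⟩
  · intro s hs r hr
    have hs' : s ∈ Set.Ico 0 T := ⟨hs.1, lt_trans hs.2 ht.2⟩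
    have h1 := dini hWR hε hPD hPdl hk hsol hs' hr
    have hgtz : ∀ᶠ z in 𝓝[>] s, s < z := self_mem_nhdsWithin
    have h2 : ∀ᶠ z in 𝓝[>] s, slope (fun s => Wf P (x s)) s z < r := by
      filter_upwards [h1, hgtz] with z hz1 hz2
      have hzs : 0 < z - s := by linarith
      rw [slope_def_field]
      rw [div_lt_iff₀ hzs]
      nlinarith
    exact h2.frequently

/-- Upper bound of the Lyapunov function by the entropy. -/
lemma Wf_le (P : Par d) {x : Fin d → ℝ} (hx : ∀ i, 0 < x i) :
    Wf P x ≤ ∑ i, (ent (x i) + P.Am * x i) := by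
  obtain ⟨q, s, hv, hc, hW, _⟩ := Wf_spec P hx
  have h1 := GG_tail_le P hx s [] (by simpa using hv)
  simp only [List.append_nil, GG, zero_add] at h1
  rw [hc] at h1
  rw [hW]
  exact h1

/-- Lower bound of the Lyapunov function by the entropy. -/
lemma Wf_ge (P : Par d) {x : Fin d → ℝ} (hx : ∀ i, 0 < x i) :
    ∑ i, (ent (x i) - 4 * P.Am * x i) ≤ Wf P x := by
  obtain ⟨q', l', hv', _, hc', hG⟩ := natural P hx (T := 2 * P.Am) le_rfl _
    (Finset.univ : Finset (Fin d)) rfl (fun _ => 0) [] trivial (by simp) (by simp)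
  simp only [List.append_nil, coords_nil, Finset.empty_union] at hv' hc' hG
  simp only [GG, zero_add] at hG
  refine le_trans (le_of_eq ?_) (le_trans hG (GG_le_Wf P hx hv' hc'))
  refine Finset.sum_congr rfl fun i _ => ?_
  ring

end Vale.Agent.Lib.P072G
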