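import Vale.Agent.Lib.P072G.Flow

/-!
Global existence of solutions and the final bounds.
-/

open Finset Filter Topology Set Vale.Agent.Lib.P072
open scoped NNReal

namespace Vale.Agent.Lib.P072G

variable {d : ℕ}

/-- An a priori bound keeps the truncated solution in the bounded region. -/
lemma trunc_stays' (R : Finset (Cplx d × Cplx d)) {k : ℝ → Cplx d × Cplx d → ℝ} {m M : ℝ}
    (hm : 0 < m) (hmM : m ≤ M)
    {x₁ : Fin d → ℝ} (hx₁ : ∀ i, m ≤ x₁ i ∧ x₁ i ≤ M)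
    {T : ℝ} (htrap : ∀ (T' : ℝ) (x : ℝ → Fin d → ℝ), T' ≤ T → IsSol R k T' x → x 0 = x₁ →
      ∀ t ∈ Set.Ico 0 T', ∀ i, m ≤ x t i ∧ x t i ≤ M)
    {α : ℝ → Fin d → ℝ} (hα0 : α 0 = x₁) (hT : 0 ≤ T)
    (hα : ∀ t ∈ Set.Icc 0 T,
      HasDerivWithinAt α (massAction R (k t) (clampv (m / 2) (2 * M) (α t))) (Set.Icc 0 T) t) :
    ∀ t ∈ Set.Icc 0 T, ∀ i, m ≤ α t i ∧ α t i ≤ M := by
  classical
  have hMpos : 0 < M := lt_of_lt_of_le hm hmM
  have hcont : ContinuousOn α (Set.Icc 0 T) := fun t ht => (hα t ht).continuousWithinAt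
  -- the closed region and the set of good times
  obtain ⟨Bx, hBx⟩ : ∃ Bx : Set (Fin d → ℝ), Bx = {z | ∀ i, m ≤ z i ∧ z i ≤ M} := ⟨_, rfl⟩
  have hBxclosed : IsClosed Bx := by
    have : Bx = ⋂ i, {z : Fin d → ℝ | m ≤ z i ∧ z i ≤ M} := by
      rw [hBx]; ext z; simp
    rw [this]
    refine isClosed_iInter fun i => ?_
    exact (isClosed_le continuous_const (continuous_apply i)).inter
      (isClosed_le (continuous_apply i) continuous_const)
  obtain ⟨s, hs⟩ : ∃ s : Set ℝ, s = {t | ∀ u ∈ Set.Icc 0 t, α u ∈ Bx} := ⟨_, rfl⟩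
  have hsmem : ∀ t, t ∈ s ↔ ∀ u ∈ Set.Icc 0 t, α u ∈ Bx := fun t => by rw [hs]; rfl
  have hclosed : IsClosed (s ∩ Set.Icc 0 T) := by
    refine isClosed_of_closure_subset fun t ht => ?_
    have htI : t ∈ Set.Icc (0 : ℝ) T :=
      closure_minimal Set.inter_subset_right isClosed_Icc ht
    refine ⟨(hsmem t).2 fun u hu => ?_, htI⟩
    rcases lt_or_eq_of_le hu.2 with hut | hut
    · -- a good time beyond `u`
      have hnhds : Set.Ioi u ∈ 𝓝 t := Ioi_mem_nhds hut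
      obtain ⟨t', ht'1, ht'2⟩ := mem_closure_iff_nhds.1 ht _ hnhds
      exact (hsmem t').1 ht'2.1 u ⟨hu.1, (ht'1 : u < t').le⟩
    · subst hut
      have h1 : ContinuousWithinAt α (s ∩ Set.Icc 0 T) u :=
        (hcont u htI).mono Set.inter_subset_right
      have h2 := h1.mem_closure_image ht
      have h3 : α '' (s ∩ Set.Icc 0 T) ⊆ Bx := by
        rintro _ ⟨t', ht', rfl⟩
        exact (hsmem t').1 ht'.1 t' ⟨ht'.2.1, le_rfl⟩
      exact closure_minimal h3 hBxclosed h2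
  have h0 : (0 : ℝ) ∈ s := by
    rw [hsmem]
    intro u hu
    have : u = 0 := le_antisymm hu.2 hu.1
    rw [this, hα0, hBx]
    exact hx₁
  have hstep : ∀ t ∈ s ∩ Set.Ico 0 T, ∀ t' ∈ Set.Ioi t, (s ∩ Set.Ioc t t').Nonempty := by
    intro t ht t' ht'
    have htt : t ∈ Set.Icc 0 T := ⟨ht.2.1, ht.2.2.le⟩
    have hαt : α t ∈ Bx := (hsmem t).1 ht.1 t ⟨ht.2.1, le_rfl⟩
    rw [hBx] at hαt
    -- the open region
    have hU : ∀ᶠ u in 𝓝[Set.Icc 0 T] t, ∀ i, m / 2 < α u i ∧ α u i < 2 * M := by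
      rw [Filter.eventually_all]
      intro i
      have hci : ContinuousWithinAt (fun u => α u i) (Set.Icc 0 T) t :=
        (continuousWithinAt_pi.1 (hcont t htt)) i
      have h1 : m / 2 < α t i := by linarith [(hαt i).1]
      have h2 : α t i < 2 * M := by linarith [(hαt i).2]
      exact (hci.eventually (lt_mem_nhds h1)).and (hci.eventually (gt_mem_nhds h2))
    obtain ⟨δ, hδ, hball⟩ := Metric.mem_nhdsWithin_iff.1 hU
    obtain ⟨t₂, ht₂⟩ : ∃ t₂, t₂ = min t' (min (t + δ / 2) T) := ⟨_, rfl⟩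
    have ht₂a : t₂ ≤ t' := by rw [ht₂]; exact min_le_left _ _
    have ht₂b : t₂ ≤ t + δ / 2 := by
      rw [ht₂]; exact le_trans (min_le_right _ _) (min_le_left _ _)
    have ht₂c : t₂ ≤ T := by
      rw [ht₂]; exact le_trans (min_le_right _ _) (min_le_right _ _)
    have ht₂d : t < t₂ := by
      rw [ht₂]
      exact lt_min ht' (lt_min (by linarith) ht.2.2)
    have hbelow : ∀ u ∈ Set.Ico 0 t₂, ∀ i, m / 2 < α u i ∧ α u i < 2 * M := by
      intro u hu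
      rcases le_or_gt u t with hut | hut
      · have h1 := (hsmem t).1 ht.1 u ⟨hu.1, hut⟩
        rw [hBx] at h1
        intro i
        constructor
        · linarith [(h1 i).1]
        · linarith [(h1 i).2]
      · apply hball
        refine ⟨?_, ⟨hu.1, le_trans hu.2.le ht₂c⟩⟩
        rw [Metric.mem_ball, Real.dist_eq, abs_of_pos (by linarith)]
        linarith [hu.2]
    have hsol : IsSol R k t₂ α := by
      refine ⟨hcont.mono fun u hu => ⟨hu.1, le_trans hu.2.le ht₂c⟩, ?_, ?_⟩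
      · intro u hu i
        have := (hbelow u hu i).1
        linarith
      · intro u hu
        have huT : u ∈ Set.Ico 0 T := ⟨hu.1, lt_of_lt_of_le hu.2 ht₂c⟩
        have h1 := hα u ⟨huT.1, huT.2.le⟩
        rw [clampv_of_mem (fun i => ⟨(hbelow u hu i).1.le, (hbelow u hu i).2.le⟩)] at h1
        exact h1.mono_of_mem_nhdsWithin (Icc_mem_nhdsGE_of_mem huT)
    have hbd := htrap t₂ α ht₂c hsol hα0
    refine ⟨(t + t₂) / 2, ?_, by linarith, by linarith⟩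
    rw [hsmem]
    intro u hu
    rw [hBx]
    exact hbd u ⟨hu.1, by linarith [hu.2]⟩
  have hsub := IsClosed.Icc_subset_of_forall_exists_gt hclosed h0 hstep
  intro t ht i
  have := (hsmem t).1 (hsub ht) t ⟨ht.1, le_rfl⟩
  rw [hBx] at this
  exact this i

/-- Global existence from an a priori bound with a lower bound depending on the time horizon. -/
theorem exists_global_of_bounds (R : Finset (Cplx d × Cplx d)) {k : ℝ → Cplx d × Cplx d → ℝ}
    (hkc : ∀ p, Continuous fun t => k t p) {C : ℝ} (hkb : ∀ t p, |k t p| ≤ C) {M : ℝ} {m : ℝ → ℝ}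
    (hm : ∀ T, 0 < m T) (hanti : Antitone m) (hmM : ∀ T, m T ≤ M) {x₁ : Fin d → ℝ}
    (hx₁ : ∀ T, ∀ i, m T ≤ x₁ i ∧ x₁ i ≤ M)
    (htrap : ∀ (T : ℝ) (x : ℝ → Fin d → ℝ), IsSol R k T x → x 0 = x₁ →
      ∀ t ∈ Set.Ico 0 T, ∀ i, m T ≤ x t i ∧ x t i ≤ M) :
    ∃ x : ℝ → Fin d → ℝ, x 0 = x₁ ∧ (∀ T, IsSol R k T x) ∧
      ∀ t, 0 ≤ t → HasDerivWithinAt x (massAction R (k t) (x t)) (Set.Ici 0) t := by
  classical
  have hC : 0 ≤ C := le_trans (abs_nonneg _) (hkb 0 (fun _ => 0, fun _ => 0))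
  obtain ⟨mm, hmm⟩ : ∃ mm : ℕ → ℝ, mm = fun n : ℕ => m ((n : ℝ) + 1) := ⟨_, rfl⟩
  have hmmpos : ∀ n, 0 < mm n := fun n => by rw [hmm]; exact hm _
  have hmmM : ∀ n, mm n ≤ M := fun n => by rw [hmm]; exact hmM _
  have hab : ∀ n, mm n / 2 ≤ 2 * M := fun n => by
    have := hmmpos n
    have := hmmM n
    linarith
  have hMpos : 0 < M := lt_of_lt_of_le (hm 0) (hmM 0)
  have hmmanti : ∀ n j : ℕ, n ≤ j → mm j ≤ mm n := by
    intro n j hnj
    rw [hmm]
    apply hanti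
    have : (n : ℝ) ≤ j := by exact_mod_cast hnj
    linarith
  have hex : ∀ n : ℕ, ∃ α : ℝ → Fin d → ℝ, α 0 = x₁ ∧
      ∀ t ∈ Set.Icc (0 : ℝ) (n + 1),
        HasDerivWithinAt α (massAction R (k t) (clampv (mm n / 2) (2 * M) (α t)))
          (Set.Icc 0 ((n : ℝ) + 1)) t :=
    fun n => exists_trunc_sol R hkc (hab n) hC hkb x₁ (by positivity)
  choose α hα0 hα using hex
  have hstay : ∀ n : ℕ, ∀ t ∈ Set.Icc (0 : ℝ) (n + 1), ∀ i, mm n ≤ α n t i ∧ α n t i ≤ M := by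
    intro n
    refine trunc_stays' R (hmmpos n) (hmmM n) (x₁ := x₁) (fun i => ?_) (fun T' x hT' hx hx0 t ht i => ?_)
      (hα0 n) (by positivity) (hα n)
    · rw [hmm]; exact hx₁ _ i
    · have h1 := htrap T' x hx hx0 t ht i
      refine ⟨?_, h1.2⟩
      rw [hmm]
      exact le_trans (hanti hT') h1.1
  have hclamp : ∀ n j : ℕ, n ≤ j → ∀ t ∈ Set.Icc (0 : ℝ) (n + 1),
      clampv (mm j / 2) (2 * M) (α n t) = α n t := fun n j hnj t ht =>
    clampv_of_mem fun i => ⟨by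
        have h1 := (hstay n t ht i).1
        have h2 := hmmanti n j hnj
        have h3 := hmmpos j
        linarith, by linarith [(hstay n t ht i).2]⟩
  have hright : ∀ n : ℕ, ∀ t ∈ Set.Ico (0 : ℝ) (n + 1),
      HasDerivWithinAt (α n) (massAction R (k t) (α n t)) (Set.Ici t) t := by
    intro n t ht
    have h1 := hα n t ⟨ht.1, ht.2.le⟩
    rw [hclamp n n le_rfl t ⟨ht.1, ht.2.le⟩] at h1
    exact h1.mono_of_mem_nhdsWithin (Icc_mem_nhdsGE_of_mem ht)
  have hαI : ∀ n : ℕ, ∀ t ∈ Set.Icc (0 : ℝ) (n + 1),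
      HasDerivWithinAt (α n) (massAction R (k t) (α n t)) (Set.Icc 0 ((n : ℝ) + 1)) t := by
    intro n t ht
    have h1 := hα n t ht
    rwa [hclamp n n le_rfl t ht] at h1
  have huniq : ∀ n j : ℕ, n ≤ j → Set.EqOn (α n) (α j) (Set.Icc 0 ((n : ℝ) + 1)) := by
    intro n j hnj
    have hle : (n : ℝ) + 1 ≤ (j : ℝ) + 1 := by
      have : (n : ℝ) ≤ j := by exact_mod_cast hnj
      linarith
    obtain ⟨Kf, Lf, hKL⟩ := trunc_bounds R (a := mm j / 2) (b := 2 * M) (hab j) hC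
    refine ODE_solution_unique_of_mem_Icc_right
      (v := fun t x => massAction R (k t) (clampv (mm j / 2) (2 * M) x))
      (s := fun _ => Set.univ) (K := Kf) (fun t _ => (hKL (k t) (hkb t)).1.lipschitzOnWith)
      (fun t ht => (hαI n t ht).continuousWithinAt) (fun t ht => ?_) (fun _ _ => Set.mem_univ _)
      (fun t ht => ((hαI j t ⟨ht.1, le_trans ht.2 hle⟩).continuousWithinAt).mono
        (Set.Icc_subset_Icc_right hle))
      (fun t ht => ?_) (fun _ _ => Set.mem_univ _) ?_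
    · have := hright n t ht
      rwa [hclamp n j hnj t ⟨ht.1, ht.2.le⟩]
    · have htj : t ∈ Set.Ico (0 : ℝ) (j + 1) := ⟨ht.1, lt_of_lt_of_le ht.2 hle⟩
      have := hright j t htj
      rwa [hclamp j j le_rfl t ⟨htj.1, htj.2.le⟩]
    · rw [hα0, hα0]
  -- the glued solution
  have hagreeG : ∀ T : ℝ, ∀ N : ℕ, T ≤ (N : ℝ) → ∀ t ∈ Set.Ico 0 T, α ⌈t⌉₊ t = α N t := by
    intro T N hTN t ht
    have h1 : ⌈t⌉₊ ≤ N := Nat.ceil_le.2 (le_trans ht.2.le hTN)
    refine huniq ⌈t⌉₊ N h1 ⟨ht.1, ?_⟩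
    have := Nat.le_ceil t
    linarith
  refine ⟨fun t => α ⌈t⌉₊ t, by simp [hα0], ?_, ?_⟩
  swap
  · -- the derivative within the half line
    intro t ht
    obtain ⟨N, hN⟩ : ∃ N : ℕ, N = ⌈t + 1⌉₊ := ⟨_, rfl⟩
    have hTN : t + 1 ≤ (N : ℝ) := by rw [hN]; exact Nat.le_ceil _
    have hagree := hagreeG (t + 1) N hTN
    have htmem : t ∈ Set.Ico 0 (t + 1) := ⟨ht, by linarith⟩
    have htI : t ∈ Set.Icc (0 : ℝ) (N + 1) := ⟨ht, by linarith⟩
    have h1 := hαI N t htI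
    have hnh : Set.Icc (0 : ℝ) ((N : ℝ) + 1) ∈ 𝓝[Set.Ici 0] t := by
      have h2 : Set.Iio ((N : ℝ) + 1) ∈ 𝓝 t := Iio_mem_nhds (by linarith)
      filter_upwards [self_mem_nhdsWithin, mem_nhdsWithin_of_mem_nhds h2] with u hu1 hu2
      exact ⟨hu1, (hu2 : u < (N : ℝ) + 1).le⟩
    have h3 := h1.mono_of_mem_nhdsWithin hnh
    show HasDerivWithinAt (fun t => α ⌈t⌉₊ t) (massAction R (k t) (α ⌈t⌉₊ t)) (Set.Ici 0) t
    rw [hagree t htmem]
    refine h3.congr_of_eventuallyEq ?_ (hagree t htmem)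
    have h4 : Set.Iio (t + 1) ∈ 𝓝 t := Iio_mem_nhds (by linarith)
    filter_upwards [self_mem_nhdsWithin, mem_nhdsWithin_of_mem_nhds h4] with u hu1 hu2
    exact hagree u ⟨hu1, hu2⟩
  intro T
  obtain ⟨N, hN⟩ : ∃ N : ℕ, N = ⌈T⌉₊ := ⟨_, rfl⟩
  have hTN : T ≤ (N : ℝ) := by rw [hN]; exact Nat.le_ceil T
  have hagree := hagreeG T N hTN
  have hmem : ∀ t ∈ Set.Ico 0 T, t ∈ Set.Ico (0 : ℝ) (N + 1) :=
    fun t ht => ⟨ht.1, by linarith [ht.2]⟩
  refine ⟨?_, ?_, ?_⟩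
  · intro t ht
    have h1 : ContinuousWithinAt (α N) (Set.Icc 0 ((N : ℝ) + 1)) t :=
      (hαI N t ⟨ht.1, (hmem t ht).2.le⟩).continuousWithinAt
    have h2 : ContinuousWithinAt (α N) (Set.Ico 0 T) t :=
      h1.mono fun u hu => ⟨hu.1, (hmem u hu).2.le⟩
    exact h2.congr (fun u hu => hagree u hu) (hagree t ht)
  · intro t ht i
    show 0 < α ⌈t⌉₊ t i
    rw [hagree t ht]
    have := (hstay N t ⟨ht.1, (hmem t ht).2.le⟩ i).1
    linarith [hmmpos N]
  · intro t ht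
    have h1 := hright N t (hmem t ht)
    show HasDerivWithinAt (fun t => α ⌈t⌉₊ t) (massAction R (k t) (α ⌈t⌉₊ t)) (Set.Ici t) t
    rw [hagree t ht]
    refine h1.congr_of_eventuallyEq ?_ (hagree t ht)
    filter_upwards [Ico_mem_nhdsGE_of_mem ht] with u hu using hagree u hu

/-- A monomial containing the coordinate `i` is bounded by that coordinate. -/
lemma monom_le_coord {M : ℝ} (hM : 1 ≤ M) {x : Fin d → ℝ} (hx : ∀ i, 0 < x i)
    (hxM : ∀ i, x i ≤ M) {y : Cplx d} {i : Fin d} (hy : 1 ≤ y i) :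
    monom x y ≤ x i * M ^ (∑ j, y j) := by
  classical
  unfold monom
  rw [← Finset.mul_prod_erase Finset.univ _ (Finset.mem_univ i)]
  have hsum : ∑ j, y j = y i + ∑ j ∈ Finset.univ.erase i, y j :=
    (Finset.add_sum_erase _ _ (Finset.mem_univ i)).symm
  rw [hsum, pow_add, ← Finset.prod_pow_eq_pow_sum]
  have h1 : x i ^ y i ≤ x i * M ^ y i := by
    obtain ⟨n, hn⟩ : ∃ n, y i = n + 1 := ⟨y i - 1, by omega⟩
    rw [hn, pow_succ, pow_succ, mul_comm]
    have h2 : x i ^ n ≤ M ^ n := pow_le_pow_left₀ (hx i).le (hxM i) n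
    have h3 : 0 < x i := hx i
    have h4 : 0 ≤ M ^ n := by positivity
    have h5 : M ^ n ≤ M ^ n * M := le_mul_of_one_le_right h4 hM
    exact mul_le_mul_of_nonneg_left (le_trans h2 h5) h3.le
  have h5 : ∏ j ∈ Finset.univ.erase i, x j ^ y j ≤ ∏ j ∈ Finset.univ.erase i, M ^ y j :=
    Finset.prod_le_prod (fun j _ => by have := hx j; positivity)
      (fun j _ => pow_le_pow_left₀ (hx j).le (hxM j) _)
  have h6 : 0 ≤ ∏ j ∈ Finset.univ.erase i, x j ^ y j :=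
    Finset.prod_nonneg fun j _ => by have := hx j; positivity
  have h7 : 0 ≤ x i * M ^ y i := by have := hx i; positivity
  calc x i ^ y i * ∏ j ∈ Finset.univ.erase i, x j ^ y j
      ≤ (x i * M ^ y i) * ∏ j ∈ Finset.univ.erase i, M ^ y j := mul_le_mul h1 h5 h6 h7
    _ = _ := by ring

/-- The rate of decay of a coordinate on a bounded region. -/
lemma massAction_ge {R : Finset (Cplx d × Cplx d)} {C M : ℝ} (hC : 0 ≤ C) (hM : 1 ≤ M)
    {k : Cplx d × Cplx d → ℝ} (hk : ∀ p, 0 ≤ k p ∧ k p ≤ C) {x : Fin d → ℝ} (hx : ∀ i, 0 < x i)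
    (hxM : ∀ i, x i ≤ M) (i : Fin d) :
    - (∑ r ∈ R, C * M ^ (∑ j, r.1 j) * |rxnVec r i|) * x i ≤ massAction R k x i := by
  classical
  unfold massAction
  rw [Finset.sum_apply, neg_mul, Finset.sum_mul, ← Finset.sum_neg_distrib]
  refine Finset.sum_le_sum fun r _ => ?_
  simp only [Pi.smul_apply, smul_eq_mul]
  have hmono : 0 < monom x r.1 := by
    unfold monom
    exact Finset.prod_pos fun j _ => pow_pos (hx j) _
  by_cases hnn : 0 ≤ rxnVec r i
  · have h1 : 0 ≤ k r * monom x r.1 * rxnVec r i :=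
      mul_nonneg (mul_nonneg (hk r).1 hmono.le) hnn
    have h2 : 0 ≤ C * M ^ (∑ j, r.1 j) * |rxnVec r i| * x i := by
      have := hx i
      positivity
    linarith
  · push Not at hnn
    have hyi : 1 ≤ r.1 i := by
      unfold rxnVec at hnn
      by_contra hcon
      have h0 : r.1 i = 0 := by omega
      rw [h0] at hnn
      have : (0 : ℝ) ≤ r.2 i := Nat.cast_nonneg _
      simp at hnn
      linarith
    have h1 := monom_le_coord hM hx hxM hyi
    rw [abs_of_neg hnn]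
    have h2 : k r * monom x r.1 ≤ C * (x i * M ^ (∑ j, r.1 j)) :=
      mul_le_mul (hk r).2 h1 hmono.le hC
    have h3 : 0 ≤ - rxnVec r i := by linarith
    have h4 := mul_le_mul_of_nonneg_right h2 h3
    nlinarith

/-- On a bounded region a coordinate decays at most exponentially. -/
lemma lower_of_bounded {R : Finset (Cplx d × Cplx d)} {k : ℝ → Cplx d × Cplx d → ℝ} {T C M : ℝ}
    {x : ℝ → Fin d → ℝ} (hsol : IsSol R k T x) (hC : 0 ≤ C) (hM : 1 ≤ M)
    (hk : ∀ t p, 0 ≤ k t p ∧ k t p ≤ C) (hxM : ∀ t ∈ Set.Ico 0 T, ∀ i, x t i ≤ M)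
    {t : ℝ} (ht : t ∈ Set.Ico 0 T) (i : Fin d) :
    x 0 i * Real.exp (- (∑ r ∈ R, C * M ^ (∑ j, r.1 j) * |rxnVec r i|) * t) ≤ x t i := by
  obtain ⟨K, hK⟩ : ∃ K, K = ∑ r ∈ R, C * M ^ (∑ j, r.1 j) * |rxnVec r i| := ⟨_, rfl⟩
  rw [← hK]
  have h0 : (0 : ℝ) ∈ Set.Ico 0 T := ⟨le_rfl, lt_of_le_of_lt ht.1 ht.2⟩
  have hsub : Set.Icc 0 t ⊆ Set.Ico 0 T := fun s hs => ⟨hs.1, lt_of_le_of_lt hs.2 ht.2⟩
  have hcont : ContinuousOn (fun s => - Real.log (x s i)) (Set.Icc 0 t) := by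
    intro s hs
    have h1 : ContinuousWithinAt x (Set.Icc 0 t) s := (hsol.cont s (hsub hs)).mono hsub
    have h2 : ContinuousWithinAt (fun z => x z i) (Set.Icc 0 t) s := continuousWithinAt_pi.1 h1 i
    exact (h2.log (hsol.pos s (hsub hs) i).ne').neg
  have hder : ∀ s ∈ Set.Ico 0 t, HasDerivWithinAt (fun s => - Real.log (x s i))
      (- (massAction R (k s) (x s) i / x s i)) (Set.Ici s) s := by
    intro s hs
    have hs' : s ∈ Set.Ico 0 T := ⟨hs.1, lt_trans hs.2 ht.2⟩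
    have h1 := hsol.der s hs'
    have h2 : HasDerivWithinAt (fun z => x z i) (massAction R (k s) (x s) i) (Set.Ici s) s :=
      (hasDerivWithinAt_pi.1 h1) i
    exact (h2.log (hsol.pos s hs' i).ne').neg
  have hB : ∀ s ∈ Set.Ico 0 t, HasDerivWithinAt (fun s => - Real.log (x 0 i) + K * s) K
      (Set.Ici s) s := by
    intro s _
    have := ((hasDerivAt_id s).const_mul K).const_add (- Real.log (x 0 i))
    simpa using this.hasDerivWithinAt
  have hbound : ∀ s ∈ Set.Ico 0 t, - (massAction R (k s) (x s) i / x s i) ≤ K := by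
    intro s hs
    have hs' : s ∈ Set.Ico 0 T := ⟨hs.1, lt_trans hs.2 ht.2⟩
    have h1 := massAction_ge (R := R) hC hM (hk s) (hsol.pos s hs') (hxM s hs') i
    rw [← hK] at h1
    have h2 := hsol.pos s hs' i
    have h3 : -K ≤ massAction R (k s) (x s) i / x s i := by
      rw [le_div_iff₀ h2]
      exact h1
    linarith
  have hmain := image_le_of_deriv_right_le_deriv_boundary (f := fun s => - Real.log (x s i))
    (f' := fun s => - (massAction R (k s) (x s) i / x s i))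
    (B := fun s => - Real.log (x 0 i) + K * s) (B' := fun _ => K) hcont hder (by simp)
    (by fun_prop) hB hbound ⟨ht.1, le_rfl⟩
  have hpos0 := hsol.pos 0 h0 i
  have hpost := hsol.pos t ht i
  have h5 : Real.log (x 0 i) - K * t ≤ Real.log (x t i) := by linarith
  have h6 := Real.exp_le_exp.2 h5
  rw [Real.exp_log hpost, Real.exp_sub, Real.exp_log hpos0, div_eq_mul_inv, ← Real.exp_neg] at h6
  have h7 : - (K * t) = - K * t := by ring
  rw [← h7]
  exact h6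

lemma ent_le_sq {u ρ : ℝ} (hu : 0 < u) (huρ : u ≤ ρ) : ent u ≤ ρ ^ 2 := by
  unfold ent
  have h1 := Real.log_le_sub_one_of_pos hu
  have h2 : u * Real.log u ≤ u * (u - 1) := mul_le_mul_of_nonneg_left h1 hu.le
  nlinarith

lemma ent_low {u A : ℝ} (hu : 0 < u) : - Real.exp (4 * A) ≤ ent u - 4 * A * u := by
  unfold ent
  have hexp := Real.exp_pos (-(4 * A))
  have ht : 0 < u * Real.exp (-(4 * A)) := mul_pos hu hexp
  have h1 := Real.one_sub_inv_le_log_of_pos ht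
  rw [Real.log_mul hu.ne' hexp.ne', Real.log_exp, mul_inv, ← Real.exp_neg, neg_neg] at h1
  have h2 : u * (1 - u⁻¹ * Real.exp (4 * A)) ≤ u * (Real.log u + -(4 * A)) :=
    mul_le_mul_of_nonneg_left h1 hu.le
  have h3 : u * (1 - u⁻¹ * Real.exp (4 * A)) = u - Real.exp (4 * A) := by
    field_simp
  rw [h3] at h2
  nlinarith

lemma ent_big {u A : ℝ} (hu : 0 < u) (h : Real.exp (2 + 4 * A) ≤ u) : u ≤ ent u - 4 * A * u := by
  unfold ent
  have h1 : 2 + 4 * A ≤ Real.log u := by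
    rw [Real.le_log_iff_exp_le hu]
    exact h
  nlinarith

/-- Parameters adapted to a network and to bounds of the rates. -/
lemma exists_par_net (R : Finset (Cplx d × Cplx d)) {ε : ℝ} (hε : 0 < ε) :
    ∃ P : Par d, P.D = diffSet R ∧ (R.card : ℝ) * ε⁻¹ ≤ ε * Real.exp (P.dl - 1) := by
  obtain ⟨δ, hδ⟩ : ∃ δ : ℝ, δ = (R.card : ℝ) * ε⁻¹ * ε⁻¹ := ⟨_, rfl⟩
  have hδ0 : 0 ≤ δ := by rw [hδ]; positivity
  obtain ⟨P, hP, hPd⟩ := exists_par (diffSet R) (dl := δ + 1) (by linarith)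
  refine ⟨P, hP, ?_⟩
  rw [hPd]
  have h1 : δ + 1 - 1 = δ := by ring
  rw [h1]
  have h2 := Real.add_one_le_exp δ
  have h3 : ε * δ ≤ ε * Real.exp δ := mul_le_mul_of_nonneg_left (by linarith) hε.le
  have h4 : ε * δ = (R.card : ℝ) * ε⁻¹ := by
    rw [hδ]
    field_simp
  linarith

/-- Boundedness of all solutions, uniformly on bounded sets of initial points. -/
theorem bounded_sol {R : Finset (Cplx d × Cplx d)} (hWR : WeaklyReversible R) {ε : ℝ} (hε : 0 < ε)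
    (ρ : ℝ) : ∃ ρ' : ℝ, ∀ (k : ℝ → Cplx d × Cplx d → ℝ) (T : ℝ) (x : ℝ → Fin d → ℝ),
      (∀ t p, ε ≤ k t p ∧ k t p ≤ ε⁻¹) → IsSol R k T x → (∀ i, x 0 i ≤ ρ) →
      ∀ t ∈ Set.Ico 0 T, ∀ i, x t i ≤ ρ' := by
  classical
  obtain ⟨P, hPD, hPdl⟩ := exists_par_net R hε
  obtain ⟨Y, hY⟩ : ∃ Y : ℝ, Y = ∑ _i : Fin d, (ρ ^ 2 + P.Am * |ρ|) +
      ∑ _i : Fin d, Real.exp (4 * P.Am) := ⟨_, rfl⟩
  refine ⟨Real.exp (2 + 4 * P.Am) + |Y|, ?_⟩
  intro k T x hk hsol hρ t ht i₀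
  have h0 : (0 : ℝ) ∈ Set.Ico 0 T := ⟨le_rfl, lt_of_le_of_lt ht.1 ht.2⟩
  have hx0 := hsol.pos 0 h0
  have hxt := hsol.pos t ht
  have hW := Wf_le_of_sol hWR hε hPD hPdl hk hsol ht
  have h1 := Wf_le P hx0
  have h2 := Wf_ge P hxt
  have hAm0 : 0 ≤ P.Am := le_trans (A0_pos P).le (A0_le_Am P)
  have h3 : ∑ i, (ent (x 0 i) + P.Am * x 0 i) ≤ ∑ _i : Fin d, (ρ ^ 2 + P.Am * |ρ|) := by
    refine Finset.sum_le_sum fun i _ => ?_
    have h4 := ent_le_sq (hx0 i) (hρ i)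
    have h5 : P.Am * x 0 i ≤ P.Am * |ρ| :=
      mul_le_mul_of_nonneg_left (le_trans (hρ i) (le_abs_self _)) hAm0
    linarith
  have h6 : ent (x t i₀) - 4 * P.Am * x t i₀ - ∑ _i : Fin d, Real.exp (4 * P.Am) ≤
      ∑ i, (ent (x t i) - 4 * P.Am * x t i) := by
    rw [← Finset.add_sum_erase _ (fun i => ent (x t i) - 4 * P.Am * x t i) (Finset.mem_univ i₀)]
    have h7 : - ∑ _i : Fin d, Real.exp (4 * P.Am) ≤
        ∑ i ∈ Finset.univ.erase i₀, (ent (x t i) - 4 * P.Am * x t i) := by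
      have h8 : ∑ i ∈ Finset.univ.erase i₀, (- Real.exp (4 * P.Am)) ≤
          ∑ i ∈ Finset.univ.erase i₀, (ent (x t i) - 4 * P.Am * x t i) :=
        Finset.sum_le_sum fun i _ => ent_low (hxt i)
      have h9 : ∑ i ∈ Finset.univ.erase i₀, Real.exp (4 * P.Am) ≤
          ∑ _i : Fin d, Real.exp (4 * P.Am) :=
        Finset.sum_le_sum_of_subset_of_nonneg (Finset.erase_subset _ _)
          (fun _ _ _ => (Real.exp_pos _).le)
      rw [Finset.sum_neg_distrib] at h8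
      linarith
    linarith
  have h10 : ent (x t i₀) - 4 * P.Am * x t i₀ ≤ Y := by
    rw [hY]
    linarith
  by_cases hbig : Real.exp (2 + 4 * P.Am) ≤ x t i₀
  · have h11 := ent_big (hxt i₀) hbig
    have h12 := le_abs_self Y
    have h13 := Real.exp_pos (2 + 4 * P.Am)
    linarith
  · push Not at hbig
    have h12 := abs_nonneg Y
    linarith

/-- Global existence of solutions for continuous rates. -/
theorem global_exists {R : Finset (Cplx d × Cplx d)} (hWR : WeaklyReversible R) {ε : ℝ} (hε : 0 < ε)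
    {k : ℝ → Cplx d × Cplx d → ℝ} (hk : ∀ t p, ε ≤ k t p ∧ k t p ≤ ε⁻¹)
    (hkc : ∀ p, Continuous fun t => k t p) {x₁ : Fin d → ℝ} (hx₁ : ∀ i, 0 < x₁ i) :
    ∃ x : ℝ → Fin d → ℝ, x 0 = x₁ ∧ ∀ t, 0 ≤ t → (∀ i, 0 < x t i) ∧
      HasDerivWithinAt x (massAction R (k t) (x t)) (Set.Ici 0) t := by
  classical
  obtain ⟨ρ, hρ⟩ : ∃ ρ : ℝ, ρ = ∑ i, |x₁ i| := ⟨_, rfl⟩
  have hx₁ρ : ∀ i, x₁ i ≤ ρ := by
    intro i
    rw [hρ]
    exact le_trans (le_abs_self _) (Finset.single_le_sum (f := fun i => |x₁ i|)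
      (fun j _ => abs_nonneg _) (Finset.mem_univ i))
  obtain ⟨ρ', hρ'⟩ := bounded_sol hWR hε ρ
  obtain ⟨M, hMd⟩ : ∃ M : ℝ, M = 1 + |ρ'| + |ρ| := ⟨_, rfl⟩
  have hM1 : 1 ≤ M := by
    rw [hMd]
    linarith [abs_nonneg ρ', abs_nonneg ρ]
  have hρ'M : ρ' ≤ M := by
    rw [hMd]
    linarith [le_abs_self ρ', abs_nonneg ρ]
  have hρM : ρ ≤ M := by
    rw [hMd]
    linarith [le_abs_self ρ, abs_nonneg ρ']
  have hC : 0 ≤ ε⁻¹ := by positivity
  obtain ⟨Kf, hKf⟩ : ∃ Kf : Fin d → ℝ, Kf = fun i =>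
      ∑ r ∈ R, ε⁻¹ * M ^ (∑ j, r.1 j) * |rxnVec r i| := ⟨_, rfl⟩
  have hKf0 : ∀ i, 0 ≤ Kf i := by
    intro i
    rw [hKf]
    exact Finset.sum_nonneg fun r _ => by positivity
  obtain ⟨K, hKd⟩ : ∃ K : ℝ, K = ∑ i, Kf i := ⟨_, rfl⟩
  have hKi : ∀ i, Kf i ≤ K := fun i => by
    rw [hKd]
    exact Finset.single_le_sum (fun j _ => hKf0 j) (Finset.mem_univ i)
  have hK0 : 0 ≤ K := by
    rw [hKd]
    exact Finset.sum_nonneg fun i _ => hKf0 i
  -- the lower bound at time zero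
  obtain ⟨m₁, hm₁, hm₁1, hm₁le⟩ : ∃ m₁ : ℝ, 0 < m₁ ∧ m₁ ≤ 1 ∧ ∀ i, m₁ ≤ x₁ i := by
    have hlow : ∀ s : Finset (Fin d), ∃ m : ℝ, 0 < m ∧ ∀ i ∈ s, m ≤ x₁ i := by
      intro s
      induction s using Finset.induction_on with
      | empty => exact ⟨1, one_pos, by simp⟩
      | @insert a s _ ih =>
        obtain ⟨m, hm, hle⟩ := ih
        refine ⟨min m (x₁ a), lt_min hm (hx₁ a), fun i hi => ?_⟩
        rcases Finset.mem_insert.1 hi with rfl | hi'
        · exact min_le_right _ _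
        · exact le_trans (min_le_left _ _) (hle i hi')
    obtain ⟨m, hm, hle⟩ := hlow Finset.univ
    exact ⟨min m 1, lt_min hm one_pos, min_le_right _ _,
      fun i => le_trans (min_le_left _ _) (hle i (Finset.mem_univ i))⟩
  obtain ⟨m, hmd⟩ : ∃ m : ℝ → ℝ, m = fun T => m₁ * Real.exp (- K * max T 0) := ⟨_, rfl⟩
  have hmpos : ∀ T, 0 < m T := fun T => by
    rw [hmd]; exact mul_pos hm₁ (Real.exp_pos _)
  have hmanti : Antitone m := by
    intro a b hab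
    rw [hmd]
    apply mul_le_mul_of_nonneg_left _ hm₁.le
    apply Real.exp_le_exp.2
    have : max a 0 ≤ max b 0 := max_le_max_right 0 hab
    nlinarith
  have hmle : ∀ T, m T ≤ m₁ := fun T => by
    rw [hmd]
    have : Real.exp (- K * max T 0) ≤ 1 := by
      apply Real.exp_le_one_iff.2
      have : 0 ≤ max T 0 := le_max_right _ _
      nlinarith
    nlinarith
  have hm₁M : m₁ ≤ M := le_trans hm₁1 hM1
  obtain ⟨x, hx0, hxsol, hxder⟩ := exists_global_of_bounds R (k := k) hkc (C := ε⁻¹)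
    (fun t p => by
      rw [abs_of_pos (lt_of_lt_of_le hε (hk t p).1)]
      exact (hk t p).2) (M := M) (m := m) hmpos hmanti (fun T => le_trans (hmle T) hm₁M)
    (x₁ := x₁) (fun T i => ⟨le_trans (hmle T) (hm₁le i), le_trans (hx₁ρ i) hρM⟩)
    (by
      intro T x hsol hx0 t ht i
      have hk' : ∀ t p, 0 ≤ k t p ∧ k t p ≤ ε⁻¹ := fun t p =>
        ⟨le_trans hε.le (hk t p).1, (hk t p).2⟩
      have hbd : ∀ s ∈ Set.Ico 0 T, ∀ i, x s i ≤ M := by
        intro s hs i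
        exact le_trans (hρ' k T x hk hsol (fun j => by rw [hx0]; exact hx₁ρ j) s hs i) hρ'M
      refine ⟨?_, hbd t ht i⟩
      have h1 := lower_of_bounded hsol hC hM1 hk' hbd ht i
      rw [hx0] at h1
      refine le_trans ?_ h1
      have hKfi : Kf i = ∑ r ∈ R, ε⁻¹ * M ^ (∑ j, r.1 j) * |rxnVec r i| := by rw [hKf]
      rw [← hKfi, hmd]
      apply mul_le_mul (hm₁le i) _ (Real.exp_pos _).le (hx₁ i).le
      apply Real.exp_le_exp.2
      have h2 : t ≤ max T 0 := le_trans ht.2.le (le_max_left _ _)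
      have h3 := hKi i
      have h4 := hKf0 i
      have h5 := ht.1
      nlinarith)
  refine ⟨x, hx0, fun t ht => ⟨?_, hxder t ht⟩⟩
  exact (hxsol (t + 1)).pos t ⟨ht, by linarith⟩

end Vale.Agent.Lib.P072G
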