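import Vale.Agent.Lib.P072G.Sign

/-!
Existence of a maximal site at every point.
-/

open Finset

namespace Vale.Agent.Lib.P072G

variable {d : ℕ}

lemma continuous_ev (c : Fin d → ℝ) : Continuous fun q : Fin d → ℝ => ev c q := by
  unfold ev
  fun_prop

lemma isClosed_valid (P : Par d) (l : List (Fin d × Bool)) : IsClosed {q | Valid P q l} := by
  classical
  induction l with
  | nil =>
    have : {q | Valid P q ([] : List (Fin d × Bool))} = Set.univ := by
      ext q; simp [Valid]
    rw [this]
    exact isClosed_univ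
  | cons e l ih =>
    by_cases he : e.1 ∈ coords l
    · have : {q | Valid P q (e :: l)} = ∅ := by
        ext q
        simp [Valid, he]
      rw [this]
      exact isClosed_empty
    have hset : {q | Valid P q (e :: l)} = {q | Valid P q l} ∩
        ((⋂ e' ∈ l.head?, {q : Fin d → ℝ | q e.1 ≤ q e'.1}) ∩
        ({q | e.2 = true → ∃ c ∈ SS P.D (coords l), q e.1 = ev c q} ∩
         {q | e.2 = false → ∀ c ∈ SS P.D (coords l),
          q e.1 ≤ ev c q - P.win (word l) / 2 ∨ ev c q + 2 * P.win (word l) ≤ q e.1})) := by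
      ext q
      simp only [Set.mem_ofPred_eq, Set.mem_inter_iff, Set.mem_iInter, Valid]
      constructor
      · rintro ⟨h1, _, h3⟩
        exact ⟨h1, h3.sorted, h3.flat, h3.nonflat⟩
      · rintro ⟨h1, h2, h3, h4⟩
        exact ⟨h1, he, ⟨h2, h3, h4⟩⟩
    rw [hset]
    refine ih.inter (IsClosed.inter ?_ (IsClosed.inter ?_ ?_))
    · refine isClosed_iInter fun e' => isClosed_iInter fun _ => ?_
      exact isClosed_le (continuous_apply _) (continuous_apply _)
    · by_cases hb : e.2 = true
      · have : {q : Fin d → ℝ | e.2 = true → ∃ c ∈ SS P.D (coords l), q e.1 = ev c q} =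
            ⋃ c ∈ SS P.D (coords l), {q | q e.1 = ev c q} := by
          ext q
          simp [hb]
        rw [this]
        refine Set.Finite.isClosed_biUnion (Finset.finite_toSet _) fun c _ => ?_
        exact isClosed_eq (continuous_apply _) (continuous_ev c)
      · have : {q : Fin d → ℝ | e.2 = true → ∃ c ∈ SS P.D (coords l), q e.1 = ev c q} = Set.univ := by
          ext q
          simp [hb]
        rw [this]
        exact isClosed_univ
    · by_cases hb : e.2 = false
      · have : {q : Fin d → ℝ | e.2 = false → ∀ c ∈ SS P.D (coords l),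
            q e.1 ≤ ev c q - P.win (word l) / 2 ∨ ev c q + 2 * P.win (word l) ≤ q e.1} =
            ⋂ c ∈ SS P.D (coords l), ({q | q e.1 ≤ ev c q - P.win (word l) / 2} ∪
              {q | ev c q + 2 * P.win (word l) ≤ q e.1}) := by
          ext q
          simp [hb]
        rw [this]
        refine isClosed_biInter fun c _ => IsClosed.union ?_ ?_
        · exact isClosed_le (continuous_apply _) ((continuous_ev c).sub continuous_const)
        · exact isClosed_le ((continuous_ev c).add continuous_const) (continuous_apply _)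
      · have : {q : Fin d → ℝ | e.2 = false → ∀ c ∈ SS P.D (coords l),
            q e.1 ≤ ev c q - P.win (word l) / 2 ∨ ev c q + 2 * P.win (word l) ≤ q e.1} = Set.univ := by
          ext q
          simp [hb]
        rw [this]
        exact isClosed_univ

lemma continuous_GG (P : Par d) (x : Fin d → ℝ) (l : List (Fin d × Bool)) :
    Continuous fun q : Fin d → ℝ => GG P x q l := by
  induction l with
  | nil => exact continuous_const
  | cons e l ih =>
    simp only [GG]
    refine ih.add (Continuous.sub ?_ ?_)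
    · exact (continuous_apply _).mul continuous_const
    · exact continuous_const.mul (Real.continuous_exp.comp (continuous_apply _))

/-- The lowest possible weight. -/
noncomputable def om0 (P : Par d) : ℝ := EE P.Am

lemma om0_pos (P : Par d) : 0 < om0 P := EE_pos (le_trans (A0_pos P).le (A0_le_Am P))

lemma om0_le_wgt (P : Par d) (b : Bool) {w : List Bool} (hw : w.length ≤ d) :
    om0 P ≤ wgt P b w := by
  have hA := P.hwin_ge w hw
  have hA2 := P.hwin_le w hw
  have hA0 := A0_pos P
  cases b with
  | true =>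
    simp only [wgt, if_true]
    exact EE_anti (by linarith) hA2
  | false =>
    simp only [wgt, Bool.false_eq_true, if_false]
    exact EE_le_one (by linarith [A0_le_Am P])

/-- The term of one coordinate bounds the value of a chain. -/
lemma GG_le_term (P : Par d) {x q : Fin d → ℝ} (hx : ∀ i, 0 < x i) {l : List (Fin d × Bool)}
    (hv : Valid P q l) {a : Fin d} (ha : a ∈ coords l) :
    GG P x q l ≤ ∑ i ∈ (coords l).erase a, (ent (x i) + P.Am * x i) +
      (q a * x a - om0 P * Real.exp (q a)) := by
  classical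
  induction l with
  | nil => simp at ha
  | cons e l ih =>
    have hlen : (word l).length ≤ d := by simpa using valid_length_le hv.1
    simp only [GG]
    simp only [coords_cons]
    have hnot := hv.2.1
    by_cases hae : a = e.1
    · subst hae
      have h1 := GG_tail_le P hx l [] (by simpa using hv.1)
      simp only [List.append_nil, GG, zero_add] at h1
      rw [Finset.erase_insert hnot]
      have h2 := om0_le_wgt P e.2 hlen
      have h3 : om0 P * Real.exp (q e.1) ≤ wgt P e.2 (word l) * Real.exp (q e.1) :=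
        mul_le_mul_of_nonneg_right h2 (Real.exp_pos _).le
      linarith
    · have ha' : a ∈ coords l := by
        simp only [coords_cons, Finset.mem_insert] at ha
        rcases ha with h | h
        · exact absurd h hae
        · exact h
      have h1 := ih hv.1 ha'
      have heq : (insert e.1 (coords l)).erase a = insert e.1 ((coords l).erase a) := by
        rw [Finset.erase_insert_of_ne (fun h => hae h.symm)]
      rw [heq, Finset.sum_insert (fun h => hnot (Finset.mem_of_mem_erase h))]
      have h2 := wgt_term_le P (hx e.1) hlen e.2 (q e.1)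
      linarith

/-- Boundedness of the level of a coordinate in terms of the size of its term. -/
lemma level_bound {x ω g : ℝ} (hx : 0 < x) (hω : 0 < ω) :
    ∃ r : ℝ, 0 ≤ r ∧ ∀ p : ℝ, g ≤ p * x - ω * Real.exp p → |p| ≤ r := by
  refine ⟨|g / x| + 1 + 2 * (x + |g|) / ω, by positivity, fun p hp => ?_⟩
  have hexp := Real.exp_pos p
  have h1 : g / x ≤ p := by
    rw [div_le_iff₀ hx]
    nlinarith [mul_pos hω hexp]
  have hr0 : 0 ≤ 2 * (x + |g|) / ω := by positivity
  have h2 : p ≤ 1 + 2 * (x + |g|) / ω := by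
    by_contra hcon
    push Not at hcon
    have hp1 : 1 < p := by linarith
    have hq := Real.quadratic_le_exp_of_nonneg (by linarith : (0 : ℝ) ≤ p)
    have h3 : 2 * (x + |g|) / ω * ω = 2 * (x + |g|) := by field_simp
    have h4 : 2 * (x + |g|) < p * ω := by
      have := mul_lt_mul_of_pos_right (show 2 * (x + |g|) / ω < p by linarith) hω
      linarith
    have h5 : ω * (p ^ 2 / 2) ≤ ω * Real.exp p := by
      apply mul_le_mul_of_nonneg_left _ hω.le
      nlinarith
    have h6 : (x + |g|) * p < ω * (p ^ 2 / 2) := by nlinarith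
    have h7 := neg_abs_le g
    have h8 : |g| ≤ |g| * p := by nlinarith [abs_nonneg g]
    have h9 : (x + |g|) * p = p * x + |g| * p := by ring
    linarith
  rw [abs_le]
  constructor
  · have := neg_abs_le (g / x)
    linarith
  · have : 0 ≤ |g / x| := abs_nonneg _
    linarith

/-- There is a maximal site at every point. -/
theorem exists_max (P : Par d) {x : Fin d → ℝ} (hx : ∀ i, 0 < x i) :
    ∃ (q : Fin d → ℝ) (s : List (Fin d × Bool)), Valid P q s ∧ coords s = Finset.univ ∧
      ∀ (q' : Fin d → ℝ) (l' : List (Fin d × Bool)), Valid P q' l' →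
        coords l' = Finset.univ → GG P x q' l' ≤ GG P x q s := by
  classical
  -- a first site
  obtain ⟨q₀, l₀, hv₀, _, hc₀, _⟩ := natural P hx (T := 2 * P.Am + 0) (by linarith) _
    (Finset.univ : Finset (Fin d)) rfl (fun _ => 0) [] trivial (by simp) (by simp)
  have hc₀' : coords l₀ = Finset.univ := by simpa using hc₀
  have hv₀' : Valid P q₀ l₀ := by simpa using hv₀
  obtain ⟨G₀, hG₀⟩ : ∃ G₀, G₀ = GG P x q₀ l₀ := ⟨_, rfl⟩
  -- the box
  obtain ⟨Bs, hBs⟩ : ∃ Bs, Bs = fun a => G₀ - ∑ i ∈ (Finset.univ : Finset (Fin d)).erase a,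
      (ent (x i) + P.Am * x i) := ⟨_, rfl⟩
  have hbox : ∀ a : Fin d, ∃ r : ℝ, 0 ≤ r ∧ ∀ p : ℝ,
      Bs a ≤ p * x a - om0 P * Real.exp p → |p| ≤ r := fun a => level_bound (hx a) (om0_pos P)
  choose r hr0 hr using hbox
  obtain ⟨ρ, hρ⟩ : ∃ ρ, ρ = ∑ a, r a := ⟨_, rfl⟩
  have hρa : ∀ a, r a ≤ ρ := fun a => by
    rw [hρ]
    exact Finset.single_le_sum (fun i _ => hr0 i) (Finset.mem_univ a)
  have hρ0 : 0 ≤ ρ := by
    rw [hρ]
    exact Finset.sum_nonneg fun i _ => hr0 i
  have hinbox : ∀ (q' : Fin d → ℝ) (l' : List (Fin d × Bool)), Valid P q' l' →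
      coords l' = Finset.univ → G₀ ≤ GG P x q' l' → q' ∈ Set.Icc (fun _ => -ρ) (fun _ => ρ) := by
    intro q' l' hv' hc' hG
    have hall : ∀ a, |q' a| ≤ ρ := by
      intro a
      have h1 := GG_le_term P hx hv' (a := a) (by rw [hc']; simp)
      rw [hc'] at h1
      have h2 := hr a (q' a) (by rw [hBs]; simp only; linarith)
      exact le_trans h2 (hρa a)
    exact ⟨fun a => (abs_le.1 (hall a)).1, fun a => (abs_le.1 (hall a)).2⟩
  -- maximum for a fixed chain
  have hcomp : ∀ l : List (Fin d × Bool), IsCompact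
      (Set.Icc (fun _ => -ρ) (fun _ => ρ) ∩ {q : Fin d → ℝ | Valid P q l}) := fun l =>
    isCompact_Icc.inter_right (isClosed_valid P l)
  -- the finite set of chains
  obtain ⟨F, hF⟩ : ∃ F : Set (List (Fin d × Bool)), F = {l | l.length = d ∧ coords l = Finset.univ ∧
      (Set.Icc (fun _ => -ρ) (fun _ => ρ) ∩ {q : Fin d → ℝ | Valid P q l}).Nonempty} := ⟨_, rfl⟩
  have hFfin : F.Finite := by
    refine Set.Finite.subset (List.finite_length_eq (Fin d × Bool) d) ?_
    intro l hl
    rw [hF] at hl
    exact hl.1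
  have hlen₀ : l₀.length = d := by
    rw [valid_length hv₀', hc₀']; simp
  have hFne : F.Nonempty := by
    refine ⟨l₀, ?_⟩
    rw [hF]
    exact ⟨hlen₀, hc₀', q₀, hinbox q₀ l₀ hv₀' hc₀' (by rw [hG₀]), hv₀'⟩
  have hchoice : ∀ l ∈ F, ∃ q ∈ (Set.Icc (fun _ => -ρ) (fun _ => ρ) ∩ {q : Fin d → ℝ | Valid P q l}),
      ∀ q' ∈ (Set.Icc (fun _ => -ρ) (fun _ => ρ) ∩ {q : Fin d → ℝ | Valid P q l}),
        GG P x q' l ≤ GG P x q l := by
    intro l hl
    rw [hF] at hl
    obtain ⟨q, hq, hqm⟩ := (hcomp l).exists_isMaxOn hl.2.2 (continuous_GG P x l).continuousOn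
    exact ⟨q, hq, fun q' hq' => hqm hq'⟩
  choose! qq hqq hqqm using hchoice
  obtain ⟨lm, hlm, hlmm⟩ := Set.exists_max_image F (fun l => GG P x (qq l) l) hFfin hFne
  have hlmF := hlm
  rw [hF] at hlmF
  refine ⟨qq lm, lm, (hqq lm hlm).2, hlmF.2.1, ?_⟩
  intro q' l' hv' hc'
  by_cases hlt : G₀ ≤ GG P x q' l'
  · have hbox' := hinbox q' l' hv' hc' hlt
    have hl'F : l' ∈ F := by
      rw [hF]
      refine ⟨by rw [valid_length hv', hc']; simp, hc', q', hbox', hv'⟩
    exact le_trans (hqqm l' hl'F q' ⟨hbox', hv'⟩) (hlmm l' hl'F)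
  · push Not at hlt
    have hl₀F : l₀ ∈ F := by
      rw [hF]
      exact ⟨hlen₀, hc₀', q₀, hinbox q₀ l₀ hv₀' hc₀' (by rw [hG₀]), hv₀'⟩
    have h1 := hqqm l₀ hl₀F q₀ ⟨hinbox q₀ l₀ hv₀' hc₀' (by rw [hG₀]), hv₀'⟩
    have h2 : GG P x (qq l₀) l₀ ≤ GG P x (qq lm) lm := hlmm l₀ hl₀F
    linarith

end Vale.Agent.Lib.P072G
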