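import Vale.Agent.Lib.P072G.Max

/-!
Existence of parameters satisfying all the requirements.
-/

open Finset

namespace Vale.Agent.Lib.P072G

variable {d : ℕ}

lemma exp_ge_linear {a b C : ℝ} (ha : 0 ≤ a) (hb : 0 ≤ b) (hC : 3 ≤ C) (h2 : 2 * (a + b) ≤ C) :
    a * C + b ≤ Real.exp C := by
  have h1 := Real.quadratic_le_exp_of_nonneg (by linarith : (0 : ℝ) ≤ C)
  have h3 : (a + b) * C ≤ C ^ 2 / 2 := by nlinarith
  have h4 : b ≤ b * C := by nlinarith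
  have h5 : (a + b) * C = a * C + b * C := by ring
  linarith

lemma constants_exist {κ N Q Λ dl D : ℝ} (hκ0 : 0 < κ) (hN0 : 0 ≤ N) (hQ1 : 1 ≤ Q) (hΛ4 : 4 ≤ Λ)
    (hdl : 0 ≤ dl) (hD : 0 ≤ D) :
    ∃ C A₀ : ℝ, 3 ≤ C ∧ 8 ≤ A₀ ∧
      8 * (5 * (A₀ * Q ^ 2) + C) * (D + 1) * Real.exp (2 * C) ≤ Real.exp (A₀ / 2) ∧
      2 * (D + 1) * (2 * C + D + 2 + 4 * (A₀ * Q ^ 2)) ≤ Real.exp C ∧
      (D + 1) * Λ ≤ Real.exp (3 * A₀) ∧ (D + 1) * (1 + A₀) ≤ Real.exp A₀ ∧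
      dl + (κ + N) * (C + D) ≤ (κ / 2) * A₀ := by
  obtain ⟨K', hK'⟩ : ∃ K' : ℝ, K' = 6 + 2 / κ * (κ + N + 1) := ⟨_, rfl⟩
  have hK'6 : 6 ≤ K' := by
    rw [hK']
    have : 0 ≤ 2 / κ * (κ + N + 1) := by positivity
    linarith
  have hQ0 : 0 < Q := by linarith
  obtain ⟨Z, hZ⟩ : ∃ Z : ℝ, Z = K' * Q ^ 2 := ⟨_, rfl⟩
  have hZ0 : 0 ≤ Z := by rw [hZ]; positivity
  obtain ⟨a, ha⟩ : ∃ a : ℝ, a = 8 * (D + 1) * (5 * Z + 1) + 2 * (D + 1) * (2 + 4 * Z) := ⟨_, rfl⟩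
  obtain ⟨b, hb⟩ : ∃ b : ℝ, b = 2 * (D + 1) * (D + 2) := ⟨_, rfl⟩
  have hfa : 0 ≤ 8 * (D + 1) * (5 * Z + 1) := by positivity
  have hfb : 0 ≤ 2 * (D + 1) * (2 + 4 * Z) := by positivity
  have ha0 : 0 ≤ a := by rw [ha]; linarith
  have hb0 : 0 ≤ b := by rw [hb]; positivity
  obtain ⟨C, hC⟩ : ∃ C : ℝ, C = 3 + 2 * a + 2 * b + dl + (κ + N) * D + (D + 1) * Λ := ⟨_, rfl⟩
  have hCκ : 0 ≤ (κ + N) * D := by positivity
  have hCΛ : 0 ≤ (D + 1) * Λ := by positivity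
  have hC3 : 3 ≤ C := by rw [hC]; linarith
  have hexpC : a * C + b ≤ Real.exp C := exp_ge_linear ha0 hb0 hC3 (by rw [hC]; linarith)
  have hA₀K : K' * C = K' * C := rfl
  obtain ⟨A₀, hA₀⟩ : ∃ A₀ : ℝ, A₀ = K' * C := ⟨_, rfl⟩
  have hA6 : 6 * C ≤ A₀ := by
    rw [hA₀]
    exact mul_le_mul_of_nonneg_right hK'6 (by linarith)
  have hA₀8 : 8 ≤ A₀ := by linarith
  have hAm : A₀ * Q ^ 2 = Z * C := by rw [hA₀, hZ]; ring
  have hC0 : 0 < C := by linarith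
  have h5C : 8 * (5 * (Z * C) + C) * (D + 1) ≤ Real.exp C := by
    refine le_trans ?_ hexpC
    have e1 : 8 * (5 * (Z * C) + C) * (D + 1) = 8 * (D + 1) * (5 * Z + 1) * C := by ring
    rw [e1, ha]
    have e2 : (8 * (D + 1) * (5 * Z + 1) + 2 * (D + 1) * (2 + 4 * Z)) * C =
        8 * (D + 1) * (5 * Z + 1) * C + 2 * (D + 1) * (2 + 4 * Z) * C := by ring
    rw [e2]
    have := mul_nonneg hfb hC0.le
    linarith
  have hExpC' : 2 * (D + 1) * (2 * C + D + 2 + 4 * (Z * C)) ≤ Real.exp C := by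
    refine le_trans ?_ hexpC
    have e1 : 2 * (D + 1) * (2 * C + D + 2 + 4 * (Z * C)) =
        2 * (D + 1) * (2 + 4 * Z) * C + 2 * (D + 1) * (D + 2) := by ring
    rw [e1, ha, hb]
    have e2 : (8 * (D + 1) * (5 * Z + 1) + 2 * (D + 1) * (2 + 4 * Z)) * C =
        8 * (D + 1) * (5 * Z + 1) * C + 2 * (D + 1) * (2 + 4 * Z) * C := by ring
    rw [e2]
    have := mul_nonneg hfa hC0.le
    linarith
  have hexpA₀ : Real.exp C * Real.exp (2 * C) ≤ Real.exp (A₀ / 2) := by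
    rw [← Real.exp_add]
    apply Real.exp_le_exp.2
    linarith
  have hTail : 8 * (5 * (Z * C) + C) * (D + 1) * Real.exp (2 * C) ≤ Real.exp (A₀ / 2) :=
    le_trans (mul_le_mul_of_nonneg_right h5C (Real.exp_pos _).le) hexpA₀
  have hTieSum : (D + 1) * Λ ≤ Real.exp (3 * A₀) := by
    have h1 : (D + 1) * Λ ≤ C := by
      rw [hC]
      have : 0 ≤ 2 * a + 2 * b + dl + (κ + N) * D := by
        have : 0 ≤ (κ + N) * D := hCκ
        linarith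
      linarith
    have h2 := Real.add_one_le_exp (3 * A₀)
    linarith
  have hEEsum : (D + 1) * (1 + A₀) ≤ Real.exp A₀ := by
    have h1 := Real.add_one_le_exp (A₀ / 2)
    have h2 : Real.exp A₀ = Real.exp (A₀ / 2) * Real.exp (A₀ / 2) := by
      rw [← Real.exp_add]; congr 1; ring
    have h3 : 2 * (D + 1) ≤ Real.exp (A₀ / 2) := by
      have h4 : 2 * (D + 1) ≤ Real.exp C := by
        refine le_trans ?_ hExpC'
        have hAm0 : 0 ≤ Z * C := by positivity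
        have : 1 ≤ 2 * C + D + 2 + 4 * (Z * C) := by linarith
        have h0 : 0 ≤ 2 * (D + 1) := by positivity
        calc 2 * (D + 1) = 2 * (D + 1) * 1 := by ring
          _ ≤ _ := mul_le_mul_of_nonneg_left this h0
      refine le_trans h4 (Real.exp_le_exp.2 ?_)
      linarith
    rw [h2]
    have h5 : 1 + A₀ ≤ 2 * Real.exp (A₀ / 2) := by linarith
    have h6 : 0 < Real.exp (A₀ / 2) := Real.exp_pos _
    have h7 : 0 ≤ D + 1 := by linarith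
    calc (D + 1) * (1 + A₀) ≤ (D + 1) * (2 * Real.exp (A₀ / 2)) :=
          mul_le_mul_of_nonneg_left h5 h7
      _ = (2 * (D + 1)) * Real.exp (A₀ / 2) := by ring
      _ ≤ Real.exp (A₀ / 2) * Real.exp (A₀ / 2) := mul_le_mul_of_nonneg_right h3 h6.le
  have hA0big : dl + (κ + N) * (C + D) ≤ (κ / 2) * A₀ := by
    have h1 : (κ / 2) * A₀ = (κ / 2 * K') * C := by rw [hA₀]; ring
    have h2 : κ / 2 * K' = 3 * κ + (κ + N + 1) := by
      rw [hK']; field_simp; ring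
    rw [h1, h2]
    have h3 : dl + (κ + N) * D ≤ C := by
      rw [hC]
      have : 0 ≤ (D + 1) * Λ := hCΛ
      linarith
    have h4 : (3 * κ + (κ + N + 1)) * C = 3 * κ * C + (κ + N) * C + C := by ring
    rw [h4]
    have h5 : 0 ≤ 3 * κ * C := by positivity
    have h6 : (κ + N) * (C + D) = (κ + N) * C + (κ + N) * D := by ring
    rw [h6]
    linarith
  refine ⟨C, A₀, hC3, hA₀8, ?_, ?_, hTieSum, hEEsum, hA0big⟩
  · rw [hAm]; exact hTail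
  · rw [hAm]; exact hExpC'

/-- All the numerical requirements can be met for any finite set of vectors `D`. -/
theorem exists_par (D : Finset (Fin d → ℝ)) {dl : ℝ} (hdl : 0 ≤ dl) :
    ∃ P : Par d, P.D = D ∧ P.dl = dl := by
  classical
  obtain ⟨κ, hκ0, hκ1, hκd, hκD⟩ := exists_kappa_closure D
  obtain ⟨N, hN⟩ : ∃ N : ℝ, N = ∑ v ∈ D, ∑ i, |v i| := ⟨_, rfl⟩
  have hN0 : 0 ≤ N := by
    rw [hN]
    exact Finset.sum_nonneg fun v _ => Finset.sum_nonneg fun i _ => abs_nonneg _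
  have hNv : ∀ v ∈ D, ∑ i, |v i| ≤ N := by
    intro v hv
    rw [hN]
    exact Finset.single_le_sum (f := fun v : Fin d → ℝ => ∑ i, |v i|)
      (fun w _ => Finset.sum_nonneg fun i _ => abs_nonneg _) hv
  have hκd0 : 0 < κ ^ d := by positivity
  obtain ⟨Λ, hΛ⟩ : ∃ Λ : ℝ, Λ = 4 + 6 / κ ^ d + 4 * N / κ := ⟨_, rfl⟩
  have h61 : 0 ≤ 6 / κ ^ d := by positivity
  have h62 : 0 ≤ 4 * N / κ := by positivity
  have hΛ4 : 4 ≤ Λ := by
    rw [hΛ]
    linarith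
  have hΛ1 : 1 ≤ Λ := by linarith
  have hgap : 6 ≤ κ ^ d * Λ := by
    have h2 : 6 / κ ^ d ≤ Λ := by
      rw [hΛ]; linarith
    rw [div_le_iff₀ hκd0] at h2
    linarith
  have hLamN : 4 * N ≤ κ * Λ := by
    have h2 : 4 * N / κ ≤ Λ := by
      rw [hΛ]; linarith
    rw [div_le_iff₀ hκ0] at h2
    linarith
  -- the range of the windows
  obtain ⟨Q, hQ⟩ : ∃ Q : ℝ, Q = (Rr Λ d 0) ^ 2 / Λ := ⟨_, rfl⟩
  have hQ1 : 1 ≤ Q := by
    rw [hQ, one_le_div (by linarith)]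
    have h1 := Rr_ge (D := d) hΛ1 0
    nlinarith
  have hQ0 : 0 < Q := by linarith
  have hdd : (0 : ℝ) ≤ d := Nat.cast_nonneg d
  obtain ⟨C, A₀, hC3, hA₀8, hTail, hExpC', hTieSum, hEEsum, hA0big⟩ :=
    constants_exist (κ := κ) (N := N) (Q := Q) (Λ := Λ) (dl := dl) (D := d) hκ0 hN0 hQ1 hΛ4 hdl hdd
  have hA₀0 : 0 < A₀ := by linarith
  obtain ⟨Am, hAm⟩ : ∃ Am : ℝ, Am = A₀ * Q ^ 2 := ⟨_, rfl⟩
  obtain ⟨Ac, hAc⟩ : ∃ Ac : ℝ, Ac = A₀ * Q := ⟨_, rfl⟩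
  have hAc0 : 0 < Ac := by rw [hAc]; positivity
  have hrange : ∀ w : List Bool, w.length ≤ d → A₀ ≤ winF Λ Ac d w ∧ winF Λ Ac d w ≤ Am := by
    intro w hw
    have h1 := winF_range hΛ1 hAc0 w hw
    rw [← hQ] at h1
    constructor
    · refine le_trans (le_of_eq ?_) h1.1
      rw [hAc]; field_simp
    · refine le_trans h1.2 (le_of_eq ?_)
      rw [hAc, hAm]; ring
  rw [← hAm] at hTail hExpC'
  exact ⟨{
    D := D
    win := winF Λ Ac d
    Lam := Λ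
    A0 := A₀
    Am := Am
    kap := κ
    hwin_ge := fun w hw => (hrange w hw).1
    hwin_le := fun w hw => (hrange w hw).2
    hwin_true := fun z w h => winF_true hΛ1 hAc0 z w h
    hwin_false := fun z w h => winF_false hΛ1 hAc0 z w h
    hkap0 := hκ0
    hkap1 := hκ1
    hkap_diff := hκd
    hkap_D := hκD
    hgap := hgap
    hA0 := hA₀8
    Cc := C
    hC3 := hC3
    hTail := hTail
    hLam4 := hΛ4
    hExpC := hExpC'
    hTieSum := hTieSum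
    hEEsum := hEEsum
    NN := N
    dl := dl
    hNN := hNv
    hNN0 := hN0
    hdl0 := hdl
    hLamN := hLamN
    hA0big := hA0big }, rfl, rfl⟩

end Vale.Agent.Lib.P072G
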