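import Vale.Agent.Lib.P072G.Global

/-!
The plateau of the Lyapunov function on a stoichiometric class, the gap of the levels, and a strict
bound of the flux.
-/

open Finset Filter Topology Vale.Agent.Lib.P072

namespace Vale.Agent.Lib.P072G

variable {d : ℕ}

lemma ev_neg (v q : Fin d → ℝ) : ev (-v) q = - ev v q := by
  unfold ev
  rw [← Finset.sum_neg_distrib]
  refine Finset.sum_congr rfl fun i _ => ?_
  simp

/-- The differences of complexes of one linkage class are symmetric. -/
lemma diffSet_neg {R : Finset (Cplx d × Cplx d)} (hWR : WeaklyReversible R) {v : Fin d → ℝ}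
    (hv : v ∈ diffSet R) : -v ∈ diffSet R := by
  classical
  unfold diffSet at hv ⊢
  obtain ⟨p, hp, rfl⟩ := Finset.mem_image.1 hv
  obtain ⟨hp1, hp2⟩ := Finset.mem_filter.1 hp
  obtain ⟨ha, hb⟩ := Finset.mem_product.1 hp1
  refine Finset.mem_image.2 ⟨(p.2, p.1), ?_, ?_⟩
  · refine Finset.mem_filter.2 ⟨Finset.mem_product.2 ⟨hb, ha⟩, rch_symm hWR hp2⟩
  · funext i
    simp

lemma mem_cplxs_left {R : Finset (Cplx d × Cplx d)} {r : Cplx d × Cplx d} (hr : r ∈ R) :
    r.1 ∈ cplxs R := Finset.mem_union_left _ (Finset.mem_image.2 ⟨r, hr, rfl⟩)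

lemma mem_cplxs_right {R : Finset (Cplx d × Cplx d)} {r : Cplx d × Cplx d} (hr : r ∈ R) :
    r.2 ∈ cplxs R := Finset.mem_union_right _ (Finset.mem_image.2 ⟨r, hr, rfl⟩)

/-- The difference of the two complexes of a reaction, source minus target. -/
lemma down_mem_diffSet {R : Finset (Cplx d × Cplx d)} (hWR : WeaklyReversible R)
    {r : Cplx d × Cplx d} (hr : r ∈ R) : (fun i => (r.1 i : ℝ) - (r.2 i : ℝ)) ∈ diffSet R := by
  classical
  unfold diffSet
  refine Finset.mem_image.2 ⟨(r.1, r.2), ?_, rfl⟩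
  exact Finset.mem_filter.2 ⟨Finset.mem_product.2 ⟨mem_cplxs_left hr, mem_cplxs_right hr⟩, hWR r hr⟩

lemma dot_rxnVec (q : Fin d → ℝ) (r : Cplx d × Cplx d) :
    dot q (rxnVec r) = hq q r.2 - hq q r.1 := by
  unfold dot rxnVec hq
  rw [← Finset.sum_sub_distrib]
  refine Finset.sum_congr rfl fun i _ => by ring

/-- A functional vanishing on the reaction vectors vanishes on the stoichiometric subspace. -/
lemma dot_stoich {R : Finset (Cplx d × Cplx d)} {q : Fin d → ℝ}
    (h : ∀ r ∈ R, dot q (rxnVec r) = 0) {s : Fin d → ℝ} (hs : s ∈ stoich R) : dot q s = 0 := by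
  unfold stoich at hs
  induction hs using Submodule.span_induction with
  | mem x hx =>
    obtain ⟨r, hr, rfl⟩ := hx
    exact h r hr
  | zero => simp [dot]
  | add x y _ _ hx hy => rw [dot_add_right', hx, hy, add_zero]
  | smul a x _ hx => rw [dot_smul_right, hx, mul_zero]

/-- The levels of a maximal site at a point of small differences are orthogonal to the class. -/
lemma perp_of_plateau {R : Finset (Cplx d × Cplx d)} (hWR : WeaklyReversible R) {P : Par d}
    (hPD : P.D = diffSet R) {z q : Fin d → ℝ} (hz : ∀ i, 0 < z i) {s : List (Fin d × Bool)}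
    (hv : Valid P q s) (hc : coords s = Finset.univ)
    (hmax : ∀ (q' : Fin d → ℝ) (l' : List (Fin d × Bool)), Valid P q' l' →
      coords l' = Finset.univ → GG P z q' l' ≤ GG P z q s)
    (hdl : ∀ v ∈ P.D, |ev v (fun i => Real.log (z i))| < P.dl) :
    ∀ r ∈ R, dot q (rxnVec r) = 0 := by
  have hsign : ∀ v ∈ P.D, ¬ 0 < ev v q := by
    intro v hvD hpos
    have h1 := sign_of_max hz hv hc hmax hvD hpos
    have h2 := lt_of_abs_lt (hdl v hvD)
    linarith
  intro r hr
  have hm := down_mem_diffSet hWR hr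
  rw [← hPD] at hm
  have h1 := hsign _ hm
  have hm' : -(fun i => (r.1 i : ℝ) - (r.2 i : ℝ)) ∈ P.D := by
    rw [hPD]
    exact diffSet_neg hWR (down_mem_diffSet hWR hr)
  have h2 := hsign _ hm'
  rw [ev_neg] at h2
  rw [ev_diff] at h1 h2
  rw [dot_rxnVec]
  push Not at h1 h2
  linarith

/-- A point of small differences minimizes the Lyapunov function on its class. -/
lemma Wf_min_of_plateau {R : Finset (Cplx d × Cplx d)} (hWR : WeaklyReversible R) {P : Par d}
    (hPD : P.D = diffSet R) {z x : Fin d → ℝ} (hz : ∀ i, 0 < z i)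
    (hdl : ∀ v ∈ P.D, |ev v (fun i => Real.log (z i))| < P.dl) (hx : ∀ i, 0 < x i)
    (hxz : x - z ∈ stoich R) : Wf P z ≤ Wf P x := by
  obtain ⟨q, s, hv, hc, hW, hm⟩ := Wf_spec P hz
  have hperp := perp_of_plateau hWR hPD hz hv hc hm hdl
  have h1 := GG_sub_dot P z x q hv hc
  rw [dot_stoich hperp hxz] at h1
  have h2 := GG_le_Wf P hx hv hc
  linarith

/-- The levels of a valid chain cannot be close to the kernel of a vector of `D` without lying in
it. -/
lemma gap_D (P : Par d) {q : Fin d → ℝ} {l : List (Fin d × Bool)} (hv : Valid P q l)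
    (hc : coords l = Finset.univ) {v : Fin d → ℝ} (hvD : v ∈ P.D) (hne : ev v q ≠ 0) :
    P.kap * P.A0 / 2 ≤ |ev v q| := by
  have hex : ∃ i ∈ coords l, v i ≠ 0 := by
    by_contra hno
    push Not at hno
    apply hne
    unfold ev
    refine Finset.sum_eq_zero fun i _ => ?_
    rw [hno i (by rw [hc]; exact Finset.mem_univ i)]
    simp
  obtain ⟨l₀, u, b, l', hl, hu, h0⟩ := exists_split v l hex
  subst hl
  have hv' : Valid P q ((u, b) :: l') := valid_append_right hv
  have hvl' : Valid P q l' := hv'.1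
  have huU : u ∉ coords l' := hv'.2.1
  have hstep : StepOK P q l' u b := hv'.2.2
  have hsup : ∀ i, v i ≠ 0 → i = u ∨ i ∈ coords l' := by
    intro i hi
    have hi' : i ∈ coords (l₀ ++ (u, b) :: l') := by rw [hc]; exact Finset.mem_univ i
    simp only [coords_append, coords_cons, Finset.mem_union, Finset.mem_insert] at hi'
    rcases hi' with hi' | hi' | hi'
    · exact absurd (h0 i hi') hi
    · exact Or.inl hi'
    · exact Or.inr hi'
  have hel : elim v u ∈ SS P.D (coords l') := SS_solve P.D hvD huU hu hsup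
  have hev := ev_elim v q u hu
  have hku : P.kap ≤ |v u| := P.hkap_D v hvD u hu
  have hlen : (word l').length ≤ d := by simpa using valid_length_le hvl'
  have hA0 := P.hwin_ge _ hlen
  have hA00 := A0_pos P
  have hk0 := P.hkap0
  have hmain : ∀ w : ℝ, P.A0 / 2 ≤ w → w ≤ |q u - ev (elim v u) q| →
      P.kap * P.A0 / 2 ≤ |ev v q| := by
    intro w hw1 hw2
    rw [hev, abs_mul]
    calc P.kap * P.A0 / 2 = P.kap * (P.A0 / 2) := by ring
      _ ≤ |v u| * |q u - ev (elim v u) q| :=
        mul_le_mul hku (le_trans hw1 hw2) (by positivity) (abs_nonneg _)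
  cases b with
  | false =>
    refine hmain (P.win (word l') / 2) (by linarith) ?_
    rcases hstep.nonflat rfl _ hel with h | h
    · rw [abs_of_nonpos (by linarith)]; linarith
    · rw [abs_of_nonneg (by linarith)]; linarith
  | true =>
    obtain ⟨c', hc', hqu⟩ := hstep.flat rfl
    have hne' : ev c' q ≠ ev (elim v u) q := by
      intro heq
      apply hne
      rw [hev, hqu, heq]
      simp
    have hg := gap P hvl' hc' hel hne'
    refine hmain (3 * P.win (word l')) (by linarith) ?_
    rw [hqu]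
    exact hg

lemma dot_massAction (R : Finset (Cplx d × Cplx d)) (k : Cplx d × Cplx d → ℝ)
    (x q : Fin d → ℝ) : dot q (massAction R k x) =
      ∑ r ∈ R, (k r * monom x r.1) * (hq q r.2 - hq q r.1) := by
  unfold massAction
  rw [dot_sum_right]
  refine Finset.sum_congr rfl fun r _ => ?_
  rw [dot_smul_right, dot_rxnVec]

/-- A strict bound of the flux: half of the weight of a reaction going down is left over. -/
theorem flux_strict {R : Finset (Cplx d × Cplx d)} (hWR : WeaklyReversible R) {ε : ℝ} (hε : 0 < ε)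
    {k : Cplx d × Cplx d → ℝ} (hk : ∀ p, ε ≤ k p ∧ k p ≤ ε⁻¹) {x : Fin d → ℝ} (hx : ∀ i, 0 < x i)
    {q : Fin d → ℝ} {δ : ℝ} (hδ : (R.card : ℝ) * (ε / 2)⁻¹ ≤ (ε / 2) * Real.exp δ)
    (hsign : ∀ v ∈ diffSet R, 0 < ev v q → δ ≤ ev v (fun i => Real.log (x i)))
    {z : Cplx d × Cplx d} (hz : z ∈ R) (hdown : hq q z.2 < hq q z.1) :
    dot q (massAction R k x) ≤ - ((k z * monom x z.1) / 2 * (hq q z.1 - hq q z.2)) := by
  classical
  obtain ⟨k', hk'⟩ : ∃ k' : Cplx d × Cplx d → ℝ,
      k' = fun r => if hq q r.2 < hq q r.1 then k r / 2 else k r := ⟨_, rfl⟩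
  have hε2 : 0 < ε / 2 := by positivity
  have hinv : (ε / 2)⁻¹ = 2 * ε⁻¹ := by
    field_simp
  have hb : ∀ p, ε / 2 ≤ k' p ∧ k' p ≤ (ε / 2)⁻¹ := by
    intro p
    have h1 := hk p
    have hi : 0 < ε⁻¹ := by positivity
    rw [hinv, hk']
    by_cases h : hq q p.2 < hq q p.1
    · simp only [h, if_true]
      constructor <;> linarith [h1.1, h1.2]
    · simp only [h, if_false]
      constructor <;> linarith [h1.1, h1.2]
  have h0 := flux_nonpos hWR hε2 hb hx hδ hsign
  rw [dot_massAction] at h0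
  rw [dot_massAction]
  have hsplit : ∑ r ∈ R, (k r * monom x r.1) * (hq q r.2 - hq q r.1) =
      ∑ r ∈ R, (k' r * monom x r.1) * (hq q r.2 - hq q r.1) +
      ∑ r ∈ R, ((k r - k' r) * monom x r.1) * (hq q r.2 - hq q r.1) := by
    rw [← Finset.sum_add_distrib]
    refine Finset.sum_congr rfl fun r _ => by ring
  have hterm : ∀ r ∈ R, ((k r - k' r) * monom x r.1) * (hq q r.2 - hq q r.1) ≤ 0 := by
    intro r _
    have hm := monom_pos hx r.1
    have hkr := lt_of_lt_of_le hε (hk r).1
    rw [hk']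
    by_cases h : hq q r.2 < hq q r.1
    · simp only [h, if_true]
      have h1 : 0 ≤ (k r - k r / 2) * monom x r.1 := by
        have : k r - k r / 2 = k r / 2 := by ring
        rw [this]
        positivity
      exact mul_nonpos_of_nonneg_of_nonpos h1 (by linarith)
    · simp only [h, if_false]
      simp
  have hzterm : ∑ r ∈ R, ((k r - k' r) * monom x r.1) * (hq q r.2 - hq q r.1) ≤
      ((k z - k' z) * monom x z.1) * (hq q z.2 - hq q z.1) := by
    rw [← Finset.add_sum_erase _ _ hz]
    have : ∑ r ∈ R.erase z, ((k r - k' r) * monom x r.1) * (hq q r.2 - hq q r.1) ≤ 0 :=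
      Finset.sum_nonpos fun r hr => hterm r (Finset.mem_of_mem_erase hr)
    linarith
  have hk'z : k' z = k z / 2 := by
    rw [hk']
    simp [hdown]
  rw [hk'z] at hzterm
  rw [hsplit]
  have e : ((k z - k z / 2) * monom x z.1) * (hq q z.2 - hq q z.1) =
      - ((k z * monom x z.1) / 2 * (hq q z.1 - hq q z.2)) := by ring
  rw [e] at hzterm
  linarith

/-- A functional not constant along a reaction goes down along some reaction. -/
lemma exists_down {R : Finset (Cplx d × Cplx d)} (hWR : WeaklyReversible R) {q : Fin d → ℝ}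
    {r : Cplx d × Cplx d} (hr : r ∈ R) (hne : dot q (rxnVec r) ≠ 0) :
    ∃ z ∈ R, hq q z.2 < hq q z.1 := by
  rw [dot_rxnVec] at hne
  rcases lt_or_gt_of_ne (sub_ne_zero.1 hne) with h | h
  · exact ⟨r, hr, h⟩
  · obtain ⟨z, hz, _, h1, h2⟩ := path_cross (τ := hq q r.1) (hq q) (hWR r hr) h le_rfl
    exact ⟨z, hz, lt_of_le_of_lt h2 h1⟩

end Vale.Agent.Lib.P072G
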