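import Vale.Agent.Lib.P072G.Perm1

/-!
The sublevel sets of the Lyapunov function at a minimum on a class are compact subsets of the open
class.
-/

open Finset Filter Topology Vale.Agent.Lib.P072

namespace Vale.Agent.Lib.P072G

variable {d : ℕ}

/-- The properties of a maximal site, with the gap. -/
lemma max_pkg2 (P : Par d) {x : Fin d → ℝ} (hx : ∀ i, 0 < x i) :
    ∃ q : Fin d → ℝ, (∀ x', (∀ i, 0 < x' i) → Wf P x - Wf P x' ≤ dot q (x - x')) ∧
      (∀ v ∈ P.D, 0 < ev v q → P.dl ≤ ev v (fun i => Real.log (x i))) ∧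
      (∀ i, |Real.log (x i) - q i| ≤ P.Am + P.Cc + d) ∧
      (∀ v ∈ P.D, ev v q ≠ 0 → P.kap * P.A0 / 2 ≤ |ev v q|) := by
  obtain ⟨q, s, hv, hc, hW, hm⟩ := Wf_spec P hx
  refine ⟨q, ?_, ?_, ?_, ?_⟩
  · intro x' hx'
    have h1 := GG_le_Wf P hx' hv hc
    have h2 := GG_sub_dot P x' x q hv hc
    rw [hW]
    linarith
  · intro v hvD hpos
    exact sign_of_max hx hv hc hm hvD hpos
  · intro i
    have h1 := (sign_all hx hv hc hm s.length [] s le_rfl (by simp) (by simp)).1 i (by rw [hc]; simp)
    have hlen : (word s).length ≤ d := by simpa using valid_length_le hv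
    have h2 := h1.bound hlen
    have h3 := P.hwin_le _ hlen
    have h4 := P.hLam4
    have h5 := win_pos P hlen
    have h6 : 2 * P.win (word s) / P.Lam ≤ P.Am := by
      rw [div_le_iff₀ (by linarith)]
      nlinarith
    linarith
  · intro v hvD hne
    exact gap_D P hv hc hvD hne

/-- Coordinates are bounded on sublevel sets. -/
lemma coord_le_of_Wf_le (P : Par d) {x : Fin d → ℝ} (hx : ∀ i, 0 < x i) {Y : ℝ} (hY : Wf P x ≤ Y)
    (i₀ : Fin d) : x i₀ ≤ Real.exp (2 + 4 * P.Am) + |Y + ∑ _i : Fin d, Real.exp (4 * P.Am)| := by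
  have h2 := Wf_ge P hx
  have h6 : ent (x i₀) - 4 * P.Am * x i₀ - ∑ _i : Fin d, Real.exp (4 * P.Am) ≤
      ∑ i, (ent (x i) - 4 * P.Am * x i) := by
    rw [← Finset.add_sum_erase _ (fun i => ent (x i) - 4 * P.Am * x i) (Finset.mem_univ i₀)]
    have h7 : - ∑ _i : Fin d, Real.exp (4 * P.Am) ≤
        ∑ i ∈ Finset.univ.erase i₀, (ent (x i) - 4 * P.Am * x i) := by
      have h8 : ∑ i ∈ Finset.univ.erase i₀, (- Real.exp (4 * P.Am)) ≤
          ∑ i ∈ Finset.univ.erase i₀, (ent (x i) - 4 * P.Am * x i) :=
        Finset.sum_le_sum fun i _ => ent_low (hx i)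
      have h9 : ∑ i ∈ Finset.univ.erase i₀, Real.exp (4 * P.Am) ≤
          ∑ _i : Fin d, Real.exp (4 * P.Am) :=
        Finset.sum_le_sum_of_subset_of_nonneg (Finset.erase_subset _ _)
          (fun _ _ _ => (Real.exp_pos _).le)
      rw [Finset.sum_neg_distrib] at h8
      linarith
    linarith
  have h10 : ent (x i₀) - 4 * P.Am * x i₀ ≤ Y + ∑ _i : Fin d, Real.exp (4 * P.Am) := by
    linarith
  by_cases hbig : Real.exp (2 + 4 * P.Am) ≤ x i₀
  · have h11 := ent_big (hx i₀) hbig
    have h12 := le_abs_self (Y + ∑ _i : Fin d, Real.exp (4 * P.Am))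
    have h13 := Real.exp_pos (2 + 4 * P.Am)
    linarith
  · push Not at hbig
    have h12 := abs_nonneg (Y + ∑ _i : Fin d, Real.exp (4 * P.Am))
    linarith

/-- The value of a site is continuous in the point. -/
lemma continuous_GG_x (P : Par d) (q : Fin d → ℝ) (l : List (Fin d × Bool)) :
    Continuous fun x : Fin d → ℝ => GG P x q l := by
  induction l with
  | nil => exact continuous_const
  | cons e l ih =>
    simp only [GG]
    exact ih.add (Continuous.sub (continuous_const.mul (continuous_apply _)) continuous_const)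

/-- One coordinate of a segment ending at a positive value has controlled logarithm. -/
lemma abs_log_seg {a b t : ℝ} (ha : 0 < a) (hb : 0 < b) (ht0 : 0 ≤ t) (ht1 : t ≤ 1) :
    |Real.log (a + t * (b - a))| ≤ |Real.log a| + |Real.log b| := by
  have h0 : min a b ≤ a + t * (b - a) := by
    rcases le_total a b with h | h
    · rw [min_eq_left h]
      nlinarith
    · rw [min_eq_right h]
      nlinarith
  have h1 : a + t * (b - a) ≤ max a b := by
    rcases le_total a b with h | h
    · rw [max_eq_right h]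
      nlinarith
    · rw [max_eq_left h]
      nlinarith
  have hm : 0 < min a b := lt_min ha hb
  have hu := lt_of_lt_of_le hm h0
  have h2 : Real.log (min a b) ≤ Real.log (a + t * (b - a)) := Real.log_le_log hm h0
  have h3 : Real.log (a + t * (b - a)) ≤ Real.log (max a b) := Real.log_le_log hu h1
  have h4 : -(|Real.log a| + |Real.log b|) ≤ Real.log (min a b) := by
    rcases le_total a b with h | h
    · rw [min_eq_left h]
      linarith [neg_abs_le (Real.log a), abs_nonneg (Real.log b)]
    · rw [min_eq_right h]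
      linarith [neg_abs_le (Real.log b), abs_nonneg (Real.log a)]
  have h5 : Real.log (max a b) ≤ |Real.log a| + |Real.log b| := by
    rcases le_total a b with h | h
    · rw [max_eq_right h]
      linarith [le_abs_self (Real.log b), abs_nonneg (Real.log a)]
    · rw [max_eq_left h]
      linarith [le_abs_self (Real.log a), abs_nonneg (Real.log b)]
  rw [abs_le]
  constructor <;> linarith

/-- A nonnegative point of the closed class which is below the minimum for all sites is positive. -/
lemma pos_of_below {R : Finset (Cplx d × Cplx d)} (hWR : WeaklyReversible R) {P : Par d}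
    (hPD : P.D = diffSet R) {z : Fin d → ℝ} (hz : ∀ i, 0 < z i)
    (hdl : ∀ v ∈ P.D, |ev v (fun i => Real.log (z i))| < P.dl) {y : Fin d → ℝ}
    (hy0 : ∀ i, 0 ≤ y i) (hyz : y - z ∈ stoich R)
    (hy : ∀ (q : Fin d → ℝ) (s : List (Fin d × Bool)), Valid P q s → coords s = Finset.univ →
      GG P y q s ≤ Wf P z) : ∀ i, 0 < y i := by
  classical
  by_contra hno
  push Not at hno
  obtain ⟨i₀, hi₀⟩ := hno
  have hyi₀ : y i₀ = 0 := le_antisymm hi₀ (hy0 i₀)
  have hzi₀ := hz i₀
  obtain ⟨B, hB⟩ : ∃ B : ℝ, B = P.Am + P.Cc + d := ⟨_, rfl⟩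
  have hB0 : 0 ≤ B := by
    rw [hB]
    have h1 := A0_pos P
    have h2 := A0_le_Am P
    have h3 := P.hC3
    have h4 : (0 : ℝ) ≤ d := Nat.cast_nonneg d
    linarith
  obtain ⟨C, hC⟩ : ∃ C : Fin d → ℝ, C = fun i => z i * (|Real.log (z i)| + B) +
      (|Real.log (y i)| + |Real.log (z i)| + B) * |z i - y i| := ⟨_, rfl⟩
  have hC0 : ∀ i, 0 ≤ C i := by
    intro i
    rw [hC]
    have := hz i
    positivity
  obtain ⟨Cs, hCs⟩ : ∃ Cs : ℝ, Cs = ∑ i, C i := ⟨_, rfl⟩
  have hCs0 : 0 ≤ Cs := by
    rw [hCs]
    exact Finset.sum_nonneg fun i _ => hC0 i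
  -- the point on the segment
  obtain ⟨L, hL⟩ : ∃ L : ℝ, L = -(Cs + 1) / z i₀ := ⟨_, rfl⟩
  have hLneg : L < 0 := by
    rw [hL]
    exact div_neg_of_neg_of_pos (by linarith) hzi₀
  obtain ⟨t, ht⟩ : ∃ t : ℝ, t = Real.exp L := ⟨_, rfl⟩
  have ht0 : 0 < t := by rw [ht]; exact Real.exp_pos _
  have ht1 : t < 1 := by rw [ht]; exact Real.exp_lt_one_iff.2 hLneg
  have hlogt : Real.log t = L := by rw [ht]; exact Real.log_exp _
  obtain ⟨w, hw⟩ : ∃ w : Fin d → ℝ, w = fun i => y i + t * (z i - y i) := ⟨_, rfl⟩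
  have hwpos : ∀ i, 0 < w i := by
    intro i
    rw [hw]
    have h1 := hy0 i
    have h2 := hz i
    have h3 : 0 ≤ (1 - t) * y i := mul_nonneg (by linarith) h1
    have h4 : 0 < t * z i := mul_pos ht0 h2
    simp only
    linarith
  have hwz : w - z ∈ stoich R := by
    have : w - z = (1 - t) • (y - z) := by
      rw [hw]
      funext i
      simp only [Pi.sub_apply, Pi.smul_apply, smul_eq_mul]
      ring
    rw [this]
    exact Submodule.smul_mem _ _ hyz
  obtain ⟨q, s, hv, hc, hW, hm⟩ := Wf_spec P hwpos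
  have hmin := Wf_min_of_plateau hWR hPD hz hdl hwpos hwz
  have hbelow := hy q s hv hc
  have hdot := GG_sub_dot P y w q hv hc
  have hwy : w - y = t • (z - y) := by
    rw [hw]
    funext i
    simp only [Pi.sub_apply, Pi.smul_apply, smul_eq_mul]
    ring
  rw [hwy, dot_smul_right] at hdot
  have hdotnn : 0 ≤ dot q (z - y) := by
    have h1 : 0 ≤ t * dot q (z - y) := by linarith
    exact nonneg_of_mul_nonneg_right h1 ht0
  -- the width bound
  have hwid : ∀ i, |Real.log (w i) - q i| ≤ B := by
    intro i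
    rw [hB]
    have h1 := (sign_all hwpos hv hc hm s.length [] s le_rfl (by simp) (by simp)).1 i
      (by rw [hc]; simp)
    have hlen : (word s).length ≤ d := by simpa using valid_length_le hv
    have h2 := h1.bound hlen
    have h3 := P.hwin_le _ hlen
    have h4 := P.hLam4
    have h5 := win_pos P hlen
    have h6 : 2 * P.win (word s) / P.Lam ≤ P.Am := by
      rw [div_le_iff₀ (by linarith)]
      nlinarith
    linarith
  -- coordinate bound
  have hterm : ∀ i, q i * (z i - y i) ≤ C i + (if i = i₀ then z i₀ * L else 0) := by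
    intro i
    have hCi : C i = z i * (|Real.log (z i)| + B) +
        (|Real.log (y i)| + |Real.log (z i)| + B) * |z i - y i| := by rw [hC]
    have hzi := hz i
    have hb1 := hwid i
    have hn1 : 0 ≤ z i * (|Real.log (z i)| + B) := by positivity
    have hn2 : 0 ≤ (|Real.log (y i)| + |Real.log (z i)| + B) * |z i - y i| := by positivity
    rcases (hy0 i).eq_or_lt with hyi | hyi
    · -- a vanishing coordinate
      have hwi : w i = t * z i := by
        rw [hw]
        simp only
        rw [← hyi]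
        ring
      rw [hwi, Real.log_mul ht0.ne' hzi.ne', hlogt] at hb1
      have hq1 : q i ≤ L + Real.log (z i) + B := by
        have := (abs_le.1 hb1).1
        linarith
      have h1 : q i * (z i - y i) ≤ (L + Real.log (z i) + B) * z i := by
        rw [← hyi, sub_zero]
        exact mul_le_mul_of_nonneg_right hq1 hzi.le
      have h2 : Real.log (z i) * z i ≤ z i * |Real.log (z i)| := by
        rw [mul_comm]
        exact mul_le_mul_of_nonneg_left (le_abs_self _) hzi.le
      rw [hCi]
      by_cases hii : i = i₀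
      · subst hii
        rw [if_pos rfl]
        nlinarith
      · rw [if_neg hii]
        have h3 : L * z i ≤ 0 := mul_nonpos_of_nonpos_of_nonneg hLneg.le hzi.le
        nlinarith
    · -- a positive coordinate
      have hwi : w i = y i + t * (z i - y i) := by rw [hw]
      have hlog := abs_log_seg hyi hzi ht0.le ht1.le
      rw [← hwi] at hlog
      have hq1 : |q i| ≤ |Real.log (y i)| + |Real.log (z i)| + B := by
        have e : q i = Real.log (w i) - (Real.log (w i) - q i) := by ring
        have h1 : |q i| ≤ |Real.log (w i)| + |Real.log (w i) - q i| := by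
          calc |q i| = |Real.log (w i) - (Real.log (w i) - q i)| := by rw [← e]
            _ ≤ _ := abs_sub _ _
        linarith
      have h1 : q i * (z i - y i) ≤ |q i| * |z i - y i| := by
        rw [← abs_mul]
        exact le_abs_self _
      have h2 : |q i| * |z i - y i| ≤ (|Real.log (y i)| + |Real.log (z i)| + B) * |z i - y i| :=
        mul_le_mul_of_nonneg_right hq1 (abs_nonneg _)
      rw [hCi]
      by_cases hii : i = i₀
      · subst hii
        exact absurd hyi (by rw [hyi₀]; exact lt_irrefl _)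
      · rw [if_neg hii]
        linarith
  have hsum : dot q (z - y) ≤ ∑ i, (C i + (if i = i₀ then z i₀ * L else 0)) := by
    rw [dot_eq_sum]
    refine Finset.sum_le_sum fun i _ => ?_
    exact hterm i
  rw [Finset.sum_add_distrib, Finset.sum_ite_eq' Finset.univ i₀] at hsum
  simp only [Finset.mem_univ, if_true] at hsum
  rw [← hCs] at hsum
  have hzL : z i₀ * L = -(Cs + 1) := by
    rw [hL]
    field_simp
  rw [hzL] at hsum
  linarith

/-- The sublevel set of the Lyapunov function at a point of a class. -/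
def Kset (P : Par d) (R : Finset (Cplx d × Cplx d)) (z : Fin d → ℝ) : Set (Fin d → ℝ) :=
  {x | (∀ i, 0 < x i) ∧ x - z ∈ stoich R ∧ Wf P x ≤ Wf P z}

/-- The sublevel set at a minimum is compact. -/
theorem Kset_compact {R : Finset (Cplx d × Cplx d)} (hWR : WeaklyReversible R) {P : Par d}
    (hPD : P.D = diffSet R) {z : Fin d → ℝ} (hz : ∀ i, 0 < z i)
    (hdl : ∀ v ∈ P.D, |ev v (fun i => Real.log (z i))| < P.dl) : IsCompact (Kset P R z) := by
  classical
  have heq : Kset P R z = {x | (∀ i, 0 ≤ x i) ∧ x - z ∈ stoich R ∧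
      ∀ (q : Fin d → ℝ) (s : List (Fin d × Bool)), Valid P q s → coords s = Finset.univ →
        GG P x q s ≤ Wf P z} := by
    ext x
    constructor
    · rintro ⟨h1, h2, h3⟩
      refine ⟨fun i => (h1 i).le, h2, fun q s hv hc => le_trans (GG_le_Wf P h1 hv hc) h3⟩
    · rintro ⟨h1, h2, h3⟩
      have hpos := pos_of_below hWR hPD hz hdl h1 h2 h3
      refine ⟨hpos, h2, ?_⟩
      obtain ⟨q, s, hv, hc, hW, _⟩ := Wf_spec P hpos
      rw [hW]
      exact h3 q s hv hc
  have hclosed : IsClosed (Kset P R z) := by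
    rw [heq]
    have h1 : IsClosed {x : Fin d → ℝ | ∀ i, 0 ≤ x i} := by
      have : {x : Fin d → ℝ | ∀ i, 0 ≤ x i} = ⋂ i, {x | 0 ≤ x i} := by
        ext x; simp
      rw [this]
      exact isClosed_iInter fun i => isClosed_le continuous_const (continuous_apply i)
    have h2 : IsClosed {x : Fin d → ℝ | x - z ∈ stoich R} := by
      have hS : IsClosed ((stoich R : Submodule ℝ (Fin d → ℝ)) : Set (Fin d → ℝ)) :=
        Submodule.closed_of_finiteDimensional _
      exact hS.preimage (continuous_id.sub continuous_const)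
    have h3 : IsClosed {x : Fin d → ℝ | ∀ (q : Fin d → ℝ) (s : List (Fin d × Bool)), Valid P q s →
        coords s = Finset.univ → GG P x q s ≤ Wf P z} := by
      have : {x : Fin d → ℝ | ∀ (q : Fin d → ℝ) (s : List (Fin d × Bool)), Valid P q s →
          coords s = Finset.univ → GG P x q s ≤ Wf P z} =
          ⋂ (q : Fin d → ℝ), ⋂ (s : List (Fin d × Bool)), ⋂ (_ : Valid P q s),
            ⋂ (_ : coords s = Finset.univ), {x | GG P x q s ≤ Wf P z} := by
        ext x; simp
      rw [this]
      refine isClosed_iInter fun q => isClosed_iInter fun s => isClosed_iInter fun _ =>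
        isClosed_iInter fun _ => ?_
      exact isClosed_le (continuous_GG_x P q s) continuous_const
    exact h1.inter (h2.inter h3)
  refine Metric.isCompact_of_isClosed_isBounded hclosed ?_
  obtain ⟨Mb, hMb⟩ : ∃ Mb : ℝ, Mb = Real.exp (2 + 4 * P.Am) +
      |Wf P z + ∑ _i : Fin d, Real.exp (4 * P.Am)| := ⟨_, rfl⟩
  have hMb0 : 0 ≤ Mb := by
    rw [hMb]
    have := Real.exp_pos (2 + 4 * P.Am)
    have := abs_nonneg (Wf P z + ∑ _i : Fin d, Real.exp (4 * P.Am))
    linarith
  rw [isBounded_iff_forall_norm_le]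
  refine ⟨Mb, fun x hx => ?_⟩
  rw [pi_norm_le_iff_of_nonneg hMb0]
  intro i
  have h1 := coord_le_of_Wf_le P hx.1 hx.2.2 i
  rw [← hMb] at h1
  rw [Real.norm_eq_abs, abs_of_pos (hx.1 i)]
  exact h1

end Vale.Agent.Lib.P072G
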