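import Vale.Agent.Lib.P072G.Perm2

/-!
Strict decay of the Lyapunov function above its minimum on the class, and permanence.
-/

open Finset Filter Topology Vale.Agent.Lib.P072

namespace Vale.Agent.Lib.P072G

variable {d : ℕ}

/-- The Lyapunov function does not increase between two times. -/
theorem Wf_anti {R : Finset (Cplx d × Cplx d)} (hWR : WeaklyReversible R) {ε : ℝ} (hε : 0 < ε)
    {P : Par d} (hPD : P.D = diffSet R) (hPdl : (R.card : ℝ) * ε⁻¹ ≤ ε * Real.exp (P.dl - 1))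
    {k : ℝ → Cplx d × Cplx d → ℝ} (hk : ∀ t p, ε ≤ k t p ∧ k t p ≤ ε⁻¹) {T : ℝ}
    {x : ℝ → Fin d → ℝ} (hsol : IsSol R k T x) {a t : ℝ} (ha : 0 ≤ a) (hat : a ≤ t) (ht : t < T) :
    Wf P (x t) ≤ Wf P (x a) := by
  have hf : ContinuousOn (fun s => Wf P (x s)) (Set.Icc a t) :=
    hsol.continuousOn_comp (fun y hy => Wf_continuousAt P hy) ha ht
  have h := image_le_of_liminf_slope_right_le_deriv_boundary (f := fun s => Wf P (x s))
    (B := fun _ => Wf P (x a)) (B' := fun _ => 0) hf le_rfl continuousOn_const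
    (fun _ _ => hasDerivWithinAt_const _ _ _) ?_
  · exact h ⟨hat, le_rfl⟩
  · intro s hs r hr
    have hs' : s ∈ Set.Ico 0 T := ⟨le_trans ha hs.1, lt_trans hs.2 ht⟩
    have h1 := dini hWR hε hPD hPdl hk hsol hs' hr
    have hgtz : ∀ᶠ z in 𝓝[>] s, s < z := self_mem_nhdsWithin
    have h2 : ∀ᶠ z in 𝓝[>] s, slope (fun s => Wf P (x s)) s z < r := by
      filter_upwards [h1, hgtz] with z hz1 hz2
      have hzs : 0 < z - s := by linarith
      rw [slope_def_field]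
      rw [div_lt_iff₀ hzs]
      nlinarith
    exact h2.frequently

/-- The flux at a point close to a point with a maximal site not orthogonal to the class. -/
lemma flux_of_not_perp {R : Finset (Cplx d × Cplx d)} (hWR : WeaklyReversible R) {ε : ℝ} (hε : 0 < ε)
    {P : Par d} (hPD : P.D = diffSet R) {k : Cplx d × Cplx d → ℝ} (hk : ∀ p, ε ≤ k p ∧ k p ≤ ε⁻¹)
    {x : Fin d → ℝ} (hx : ∀ i, 0 < x i) {q : Fin d → ℝ} {δ : ℝ}
    (hδ : (R.card : ℝ) * (ε / 2)⁻¹ ≤ (ε / 2) * Real.exp δ)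
    (hsign : ∀ v ∈ diffSet R, 0 < ev v q → δ ≤ ev v (fun i => Real.log (x i)))
    (hgap : ∀ v ∈ P.D, ev v q ≠ 0 → P.kap * P.A0 / 2 ≤ |ev v q|)
    {μ : ℝ} (hμ0 : 0 < μ) (hμ : ∀ r ∈ R, μ ≤ monom x r.1) {r : Cplx d × Cplx d} (hr : r ∈ R)
    (hne : dot q (rxnVec r) ≠ 0) :
    dot q (massAction R k x) ≤ - (ε * μ / 2 * (P.kap * P.A0 / 2)) := by
  obtain ⟨z, hz, hdown⟩ := exists_down hWR hr hne
  have hfl := flux_strict hWR hε hk hx hδ hsign hz hdown
  have hm : (fun i => (z.1 i : ℝ) - (z.2 i : ℝ)) ∈ P.D := by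
    rw [hPD]
    exact down_mem_diffSet hWR hz
  have he : ev (fun i => (z.1 i : ℝ) - (z.2 i : ℝ)) q = hq q z.1 - hq q z.2 := ev_diff _ _ _
  have hpos : 0 < hq q z.1 - hq q z.2 := by linarith
  have hg := hgap _ hm (by rw [he]; exact hpos.ne')
  rw [he, abs_of_pos hpos] at hg
  have hk0 := P.hkap0
  have hA0 := A0_pos P
  have h1 : ε * μ ≤ k z * monom x z.1 :=
    mul_le_mul (hk z).1 (hμ z hz) hμ0.le (lt_of_lt_of_le hε (hk z).1).le
  have h2 : ε * μ / 2 * (P.kap * P.A0 / 2) ≤ k z * monom x z.1 / 2 * (hq q z.1 - hq q z.2) := by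
    apply mul_le_mul (by linarith) hg (by positivity)
    have := mul_pos hε hμ0
    linarith
  linarith

/-- The value of the Lyapunov function decreases at a definite rate above the minimum. -/
lemma dini_strict {R : Finset (Cplx d × Cplx d)} (hWR : WeaklyReversible R) {ε : ℝ} (hε : 0 < ε)
    {P : Par d} (hPD : P.D = diffSet R) (hPdl : (R.card : ℝ) * (ε / 2)⁻¹ ≤ (ε / 2) * Real.exp (P.dl - 1))
    {k : ℝ → Cplx d × Cplx d → ℝ} (hk : ∀ t p, ε ≤ k t p ∧ k t p ≤ ε⁻¹) {T : ℝ}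
    {x : ℝ → Fin d → ℝ} (hsol : IsSol R k T x) {c : Fin d → ℝ} (hc : ∀ i, 0 < c i)
    (hx0c : x 0 - c ∈ stoich R) {μ : ℝ} (hμ0 : 0 < μ) {s : ℝ} (hs : s ∈ Set.Ico 0 T)
    (hμ : ∀ r ∈ R, μ ≤ monom (x s) r.1) (hnear : ∀ᶠ z in 𝓝[>] s, Wf P c < Wf P (x z))
    {r : ℝ} (hr : 0 < r) :
    ∀ᶠ z in 𝓝[>] s, Wf P (x z) - Wf P (x s) ≤
      (z - s) * (- (ε * μ / 2 * (P.kap * P.A0 / 2)) + r / 2) := by
  classical
  have hxs := hsol.pos s hs
  have hder := hsol.der s hs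
  have hN0 := P.hNN0
  -- closeness of logarithms
  obtain ⟨ρ, hρ⟩ : ∃ ρ : ℝ, ρ = 1 / (P.NN + 1) := ⟨_, rfl⟩
  have hρ0 : 0 < ρ := by rw [hρ]; positivity
  have hρ1 : ρ ≤ 1 := by
    rw [hρ, div_le_one (by linarith)]
    linarith
  have hρN : P.NN * ρ ≤ 1 := by
    rw [hρ]
    have : P.NN * (1 / (P.NN + 1)) = P.NN / (P.NN + 1) := by ring
    rw [this, div_le_one (by linarith)]
    linarith
  have hgt : 𝓝[>] s ≤ 𝓝[Set.Ici s] s := nhdsWithin_mono s Set.Ioi_subset_Ici_self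
  have hcont : ∀ i, Tendsto (fun z => Real.log (x z i)) (𝓝[>] s) (𝓝 (Real.log (x s i))) := by
    intro i
    have h1 : ContinuousWithinAt x (Set.Ici s) s := hder.continuousWithinAt
    have h2 : ContinuousWithinAt (fun z => x z i) (Set.Ici s) s := continuousWithinAt_pi.1 h1 i
    have h3 : ContinuousWithinAt (fun z => Real.log (x z i)) (Set.Ici s) s :=
      h2.log (hxs i).ne'
    exact h3.tendsto.mono_left hgt
  have hclose : ∀ᶠ z in 𝓝[>] s, ∀ i, |Real.log (x z i) - Real.log (x s i)| ≤ ρ := by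
    rw [Filter.eventually_all]
    intro i
    have h1 := (hcont i).eventually (Metric.closedBall_mem_nhds _ hρ0)
    filter_upwards [h1] with z hz
    rw [Real.dist_eq] at hz
    exact hz
  -- the bound of the levels
  obtain ⟨Q, hQ⟩ : ∃ Q : ℝ, Q = ∑ i, (|Real.log (x s i)| + 1 + (P.Am + P.Cc + d)) := ⟨_, rfl⟩
  have hAm := A0_le_Am P
  have hA0 := P.hA0
  have hC := P.hC3
  have hdd : (0 : ℝ) ≤ d := Nat.cast_nonneg d
  have hterm0 : ∀ i, 0 ≤ |Real.log (x s i)| + 1 + (P.Am + P.Cc + d) := by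
    intro i
    have := abs_nonneg (Real.log (x s i))
    linarith
  have hQ0 : 0 ≤ Q := by
    rw [hQ]; exact Finset.sum_nonneg fun i _ => hterm0 i
  -- the linear approximation
  have hlo := (hasDerivWithinAt_iff_isLittleO.1 hder)
  have heta : 0 < r / (2 * (Q + 1)) := by positivity
  have happ : ∀ᶠ z in 𝓝[>] s, ‖x z - x s - (z - s) • massAction R (k s) (x s)‖ ≤
      r / (2 * (Q + 1)) * ‖z - s‖ := (hlo.def heta).filter_mono hgt
  have hdom : ∀ᶠ z in 𝓝[>] s, z < T := by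
    have : Set.Iio T ∈ 𝓝[>] s := mem_nhdsWithin_of_mem_nhds (Iio_mem_nhds hs.2)
    exact this
  have hgtz : ∀ᶠ z in 𝓝[>] s, s < z := self_mem_nhdsWithin
  filter_upwards [hclose, happ, hdom, hgtz, hnear] with z hz1 hz2 hz3 hz4 hz5
  have hzdom : z ∈ Set.Ico 0 T := ⟨le_trans hs.1 hz4.le, hz3⟩
  have hxz := hsol.pos z hzdom
  obtain ⟨q, hq1, hq2, hq3, hq4⟩ := max_pkg2 P hxz
  -- bounds
  have hqb : ∑ i, |q i| ≤ Q := by
    rw [hQ]
    refine Finset.sum_le_sum fun i _ => ?_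
    have h1 := hq3 i
    have h2 := hz1 i
    have h3 : |q i| ≤ |Real.log (x z i)| + |Real.log (x z i) - q i| := by
      have e : q i = Real.log (x z i) - (Real.log (x z i) - q i) := by ring
      calc |q i| = |Real.log (x z i) - (Real.log (x z i) - q i)| := by rw [← e]
        _ ≤ _ := abs_sub _ _
    have h4 : |Real.log (x z i)| ≤ |Real.log (x s i)| + |Real.log (x z i) - Real.log (x s i)| := by
      have : Real.log (x z i) = Real.log (x s i) + (Real.log (x z i) - Real.log (x s i)) := by ring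
      nth_rewrite 1 [this]
      exact abs_add_le _ _
    linarith
  -- the sign at `x s`
  have hsign : ∀ v ∈ diffSet R, 0 < ev v q →
      P.dl - 1 ≤ ev v (fun i => Real.log (x s i)) := by
    intro v hv hpos
    rw [← hPD] at hv
    have h1 := hq2 v hv hpos
    have h2 : ev v (fun i => Real.log (x z i)) - ev v (fun i => Real.log (x s i)) ≤ 1 := by
      have h3 : ev v (fun i => Real.log (x z i)) - ev v (fun i => Real.log (x s i)) =
          ∑ i, v i * (Real.log (x z i) - Real.log (x s i)) := by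
        unfold ev
        rw [← Finset.sum_sub_distrib]
        refine Finset.sum_congr rfl fun i _ => by ring
      rw [h3]
      have h4 : ∑ i, v i * (Real.log (x z i) - Real.log (x s i)) ≤ ∑ i, |v i| * ρ := by
        refine Finset.sum_le_sum fun i _ => ?_
        have h5 := le_abs_self (v i * (Real.log (x z i) - Real.log (x s i)))
        rw [abs_mul] at h5
        exact le_trans h5 (mul_le_mul_of_nonneg_left (hz1 i) (abs_nonneg _))
      rw [← Finset.sum_mul] at h4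
      have h6 := P.hNN v hv
      have h7 : (∑ i, |v i|) * ρ ≤ P.NN * ρ := mul_le_mul_of_nonneg_right h6 hρ0.le
      linarith
    linarith
  -- not orthogonal
  have hnp : ∃ r₀ ∈ R, dot q (rxnVec r₀) ≠ 0 := by
    by_contra hno
    push Not at hno
    have h1 := hq1 c hc
    rw [dot_stoich hno (hsol.mem_class hx0c hzdom)] at h1
    linarith
  obtain ⟨r₀, hr₀, hne⟩ := hnp
  have hflux := flux_of_not_perp hWR hε hPD (hk s) hxs hPdl hsign hq4 hμ0 hμ hr₀ hne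
  -- conclusion
  have h1 := hq1 (x s) hxs
  have hdec : x z - x s = (z - s) • massAction R (k s) (x s) +
      (x z - x s - (z - s) • massAction R (k s) (x s)) := by abel
  rw [hdec, dot_add_right', dot_smul_right] at h1
  have hzs : 0 < z - s := by linarith
  have h2 : (z - s) * dot q (massAction R (k s) (x s)) ≤
      (z - s) * (- (ε * μ / 2 * (P.kap * P.A0 / 2))) :=
    mul_le_mul_of_nonneg_left hflux hzs.le
  have h3 : dot q (x z - x s - (z - s) • massAction R (k s) (x s)) ≤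
      Q * (r / (2 * (Q + 1)) * ‖z - s‖) := by
    rw [dot_eq_sum]
    have h4 : ∀ i, q i * (x z - x s - (z - s) • massAction R (k s) (x s)) i ≤
        |q i| * (r / (2 * (Q + 1)) * ‖z - s‖) := by
      intro i
      have h5 := le_abs_self (q i * (x z - x s - (z - s) • massAction R (k s) (x s)) i)
      rw [abs_mul] at h5
      refine le_trans h5 (mul_le_mul_of_nonneg_left ?_ (abs_nonneg _))
      refine le_trans ?_ hz2
      exact norm_le_pi_norm (x z - x s - (z - s) • massAction R (k s) (x s)) i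
    refine le_trans (Finset.sum_le_sum fun i _ => h4 i) ?_
    rw [← Finset.sum_mul]
    exact mul_le_mul_of_nonneg_right hqb (by positivity)
  have h6 : ‖z - s‖ = z - s := by
    rw [Real.norm_eq_abs, abs_of_pos hzs]
  rw [h6] at h3
  have h7 : Q * (r / (2 * (Q + 1)) * (z - s)) ≤ (z - s) * (r / 2) := by
    have h8 : Q * (r / (2 * (Q + 1)) * (z - s)) = (z - s) * (r / 2) * (Q / (Q + 1)) := by
      field_simp
    rw [h8]
    have h9 : Q / (Q + 1) ≤ 1 := by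
      rw [div_le_one (by linarith)]
      linarith
    have h10 : 0 ≤ (z - s) * (r / 2) := by positivity
    nlinarith
  have h8 : (z - s) * (- (ε * μ / 2 * (P.kap * P.A0 / 2)) + r / 2) =
      (z - s) * (- (ε * μ / 2 * (P.kap * P.A0 / 2))) + (z - s) * (r / 2) := by ring
  rw [h8]
  linarith

/-- Linear decay above the minimum. -/
theorem Wf_decay {R : Finset (Cplx d × Cplx d)} (hWR : WeaklyReversible R) {ε : ℝ} (hε : 0 < ε)
    {P : Par d} (hPD : P.D = diffSet R)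
    (hPdl : (R.card : ℝ) * ε⁻¹ ≤ ε * Real.exp (P.dl - 1))
    (hPdl2 : (R.card : ℝ) * (ε / 2)⁻¹ ≤ (ε / 2) * Real.exp (P.dl - 1))
    {k : ℝ → Cplx d × Cplx d → ℝ} (hk : ∀ t p, ε ≤ k t p ∧ k t p ≤ ε⁻¹) {T : ℝ}
    {x : ℝ → Fin d → ℝ} (hsol : IsSol R k T x) {c : Fin d → ℝ} (hc : ∀ i, 0 < c i)
    (hx0c : x 0 - c ∈ stoich R) {μ : ℝ} (hμ0 : 0 < μ)
    (hμ : ∀ s ∈ Set.Ico 0 T, ∀ r ∈ R, μ ≤ monom (x s) r.1) {t : ℝ} (ht : t ∈ Set.Ico 0 T)
    (hgt : Wf P c < Wf P (x t)) :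
    Wf P (x t) ≤ Wf P (x 0) - (ε * μ / 2 * (P.kap * P.A0 / 2)) * t := by
  obtain ⟨ρ, hρ⟩ : ∃ ρ : ℝ, ρ = ε * μ / 2 * (P.kap * P.A0 / 2) := ⟨_, rfl⟩
  rw [← hρ]
  have hf : ContinuousOn (fun s => Wf P (x s)) (Set.Icc 0 t) :=
    hsol.continuousOn_comp (fun y hy => Wf_continuousAt P hy) le_rfl ht.2
  have hBc : ContinuousOn (fun s : ℝ => Wf P (x 0) - ρ * s) (Set.Icc 0 t) := by fun_prop
  have hB' : ∀ s ∈ Set.Ico 0 t, HasDerivWithinAt (fun s : ℝ => Wf P (x 0) - ρ * s) (-ρ)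
      (Set.Ici s) s := by
    intro s _
    have := ((hasDerivAt_id s).const_mul ρ).const_sub (Wf P (x 0))
    simpa using this.hasDerivWithinAt
  have h := image_le_of_liminf_slope_right_le_deriv_boundary (f := fun s => Wf P (x s))
    (B := fun s => Wf P (x 0) - ρ * s) (B' := fun _ => -ρ) hf (by simp) hBc hB' ?_
  · exact h ⟨ht.1, le_rfl⟩
  · intro s hs r hr
    have hs' : s ∈ Set.Ico 0 T := ⟨hs.1, lt_trans hs.2 ht.2⟩
    have hr' : 0 < r + ρ := by linarith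
    have hnear : ∀ᶠ z in 𝓝[>] s, Wf P c < Wf P (x z) := by
      have hlt : Set.Iio t ∈ 𝓝[>] s := mem_nhdsWithin_of_mem_nhds (Iio_mem_nhds hs.2)
      have hgtz : ∀ᶠ z in 𝓝[>] s, s < z := self_mem_nhdsWithin
      filter_upwards [hlt, hgtz] with z hz1 hz2
      have := Wf_anti hWR hε hPD hPdl hk hsol (le_trans hs.1 hz2.le) (le_of_lt hz1) ht.2
      linarith
    have h1 := dini_strict hWR hε hPD hPdl2 hk hsol hc hx0c hμ0 hs' (hμ s hs') hnear hr'
    rw [← hρ] at h1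
    have hgtz : ∀ᶠ z in 𝓝[>] s, s < z := self_mem_nhdsWithin
    have h2 : ∀ᶠ z in 𝓝[>] s, slope (fun s => Wf P (x s)) s z < r := by
      filter_upwards [h1, hgtz] with z hz1 hz2
      have hzs : 0 < z - s := by linarith
      rw [slope_def_field]
      rw [div_lt_iff₀ hzs]
      have h3 : (z - s) * (-ρ + (r + ρ) / 2) < r * (z - s) := by
        have : (z - s) * (r - (-ρ + (r + ρ) / 2)) > 0 := by
          apply mul_pos hzs
          linarith
        nlinarith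
      linarith
    exact h2.frequently

/-- Parameters adapted to a point. -/
lemma exists_par_at (R : Finset (Cplx d × Cplx d)) {ε : ℝ} (hε : 0 < ε) (z : Fin d → ℝ) :
    ∃ P : Par d, P.D = diffSet R ∧ (R.card : ℝ) * ε⁻¹ ≤ ε * Real.exp (P.dl - 1) ∧
      (R.card : ℝ) * (ε / 2)⁻¹ ≤ (ε / 2) * Real.exp (P.dl - 1) ∧
      ∀ v ∈ P.D, |ev v (fun i => Real.log (z i))| < P.dl := by
  classical
  obtain ⟨S₀, hS₀⟩ : ∃ S₀ : ℝ, S₀ = ∑ v ∈ diffSet R, |ev v (fun i => Real.log (z i))| := ⟨_, rfl⟩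
  have hS0 : 0 ≤ S₀ := by
    rw [hS₀]
    exact Finset.sum_nonneg fun v _ => abs_nonneg _
  obtain ⟨δ, hδ⟩ : ∃ δ : ℝ, δ = 4 * (R.card : ℝ) * ε⁻¹ * ε⁻¹ + S₀ + 1 := ⟨_, rfl⟩
  have hcard : (0 : ℝ) ≤ R.card := Nat.cast_nonneg _
  have hδ0 : 0 ≤ δ := by
    rw [hδ]
    positivity
  obtain ⟨P, hP, hPd⟩ := exists_par (diffSet R) (dl := δ + 1) (by linarith)
  have hexp : δ + 1 ≤ Real.exp δ := Real.add_one_le_exp δ
  have hδ1 : 4 * (R.card : ℝ) * ε⁻¹ * ε⁻¹ ≤ Real.exp δ := by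
    have : 0 ≤ S₀ + 1 := by linarith
    rw [hδ] at hexp ⊢
    linarith
  have hee : P.dl - 1 = δ := by rw [hPd]; ring
  have he1 : ε * (4 * (R.card : ℝ) * ε⁻¹ * ε⁻¹) = 4 * ((R.card : ℝ) * ε⁻¹) := by
    field_simp
  have hc1 : 0 ≤ (R.card : ℝ) * ε⁻¹ := by positivity
  refine ⟨P, hP, ?_, ?_, ?_⟩
  · rw [hee]
    have := mul_le_mul_of_nonneg_left hδ1 hε.le
    linarith
  · rw [hee]
    have h1 := mul_le_mul_of_nonneg_left hδ1 hε.le
    have hinv : (R.card : ℝ) * (ε / 2)⁻¹ = 2 * ((R.card : ℝ) * ε⁻¹) := by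
      field_simp
    rw [hinv]
    have h2 : ε / 2 * Real.exp δ = (ε * Real.exp δ) / 2 := by ring
    rw [h2]
    linarith
  · intro v hv
    rw [hP] at hv
    rw [hPd]
    have h1 : |ev v (fun i => Real.log (z i))| ≤ S₀ := by
      rw [hS₀]
      exact Finset.single_le_sum (f := fun v => |ev v (fun i => Real.log (z i))|)
        (fun w _ => abs_nonneg _) hv
    have h2 : 0 ≤ 4 * (R.card : ℝ) * ε⁻¹ * ε⁻¹ := by positivity
    rw [hδ]
    linarith

/-- Permanence of all weakly reversible mass-action systems. -/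
theorem permanent {R : Finset (Cplx d × Cplx d)} (hWR : WeaklyReversible R) {ε : ℝ} (hε : 0 < ε)
    {c : Fin d → ℝ} (hc : ∀ i, 0 < c i) :
    ∃ K : Set (Fin d → ℝ), IsCompact K ∧ (∀ x ∈ K, (∀ i, 0 < x i) ∧ x - c ∈ stoich R) ∧
      ∀ x₁ : Fin d → ℝ, (∀ i, 0 < x₁ i) → x₁ - c ∈ stoich R →
        ∃ K₁ : Set (Fin d → ℝ), IsCompact K₁ ∧ (∀ x ∈ K₁, (∀ i, 0 < x i) ∧ x - c ∈ stoich R) ∧
          ∃ T₀ : ℝ, ∀ (k : ℝ → Cplx d × Cplx d → ℝ) (T : ℝ) (x : ℝ → Fin d → ℝ),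
            (∀ t p, ε ≤ k t p ∧ k t p ≤ ε⁻¹) → IsSol R k T x → x 0 = x₁ →
            ∀ t ∈ Set.Ico 0 T, x t ∈ K₁ ∧ (T₀ ≤ t → x t ∈ K) := by
  classical
  obtain ⟨P₀, hP₀D, hP₀1, hP₀2, hP₀3⟩ := exists_par_at R hε c
  refine ⟨Kset P₀ R c, Kset_compact hWR hP₀D hc hP₀3, fun x hx => ⟨hx.1, hx.2.1⟩, ?_⟩
  intro x₁ hx₁ hx₁c
  obtain ⟨P₁, hP₁D, hP₁1, _, hP₁3⟩ := exists_par_at R hε x₁
  have hK₁ := Kset_compact hWR hP₁D hx₁ hP₁3
  refine ⟨Kset P₁ R x₁, hK₁, ?_, ?_⟩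
  · intro x hx
    refine ⟨hx.1, ?_⟩
    have : x - c = (x - x₁) + (x₁ - c) := by abel
    rw [this]
    exact Submodule.add_mem _ hx.2.1 hx₁c
  -- a lower bound of the monomials on `K₁`
  have hlow : ∀ r : Cplx d × Cplx d, ∃ m, 0 < m ∧ ∀ x ∈ Kset P₁ R x₁, m ≤ monom x r.1 := fun r =>
    exists_lower_of_pos hK₁ (contDiff_monom r.1).continuous fun x hx => monom_pos hx.1 r.1
  choose m hm hmle using hlow
  obtain ⟨μ, hμ0, hμ⟩ := exists_lower_fin R m (fun r _ => hm r)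
  obtain ⟨ρ, hρ⟩ : ∃ ρ : ℝ, ρ = ε * μ / 2 * (P₀.kap * P₀.A0 / 2) := ⟨_, rfl⟩
  have hρ0 : 0 < ρ := by
    rw [hρ]
    have := P₀.hkap0
    have := A0_pos P₀
    positivity
  refine ⟨(Wf P₀ x₁ - Wf P₀ c) / ρ, ?_⟩
  intro k T x hk hsol hx0 t ht
  have hx0' : x 0 - x₁ ∈ stoich R := by
    rw [hx0, sub_self]
    exact Submodule.zero_mem _
  have hx0c : x 0 - c ∈ stoich R := by
    rw [hx0]
    exact hx₁c
  have hin : ∀ s ∈ Set.Ico 0 T, x s ∈ Kset P₁ R x₁ := by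
    intro s hs
    refine ⟨hsol.pos s hs, hsol.mem_class hx0' hs, ?_⟩
    have := Wf_le_of_sol hWR hε hP₁D hP₁1 hk hsol hs
    rwa [hx0] at this
  refine ⟨hin t ht, fun hT₀ => ?_⟩
  refine ⟨hsol.pos t ht, hsol.mem_class hx0c ht, ?_⟩
  by_contra hgt
  push Not at hgt
  have hdec := Wf_decay hWR hε hP₀D hP₀1 hP₀2 hk hsol hc hx0c hμ0
    (fun s hs r hr => le_trans (hμ r hr) (hmle r _ (hin s hs))) ht hgt
  rw [← hρ, hx0] at hdec
  have h1 : Wf P₀ x₁ - Wf P₀ c ≤ ρ * t := by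
    rw [div_le_iff₀ hρ0] at hT₀
    linarith
  linarith

end Vale.Agent.Lib.P072G
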