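import Vale.Agent.Lib.P072G.Weights

/-!
A run of tied coordinates inside a maximal site, and the inequalities obtained from competitors.
-/

open Finset

namespace Vale.Agent.Lib.P072G

variable {d : ℕ}

/-- The slack allowed in natural completions. -/
noncomputable def Par.Tt (P : Par d) : ℝ := 2 * P.Am + P.Cc

/-- The cost of a natural completion. -/
noncomputable def Par.c0 (P : Par d) : ℝ := 4 * P.Am + P.Cc

/-- The total loss per unit of mass. -/
noncomputable def Par.K0 (P : Par d) : ℝ := 5 * P.Am + P.Cc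

/-- The coordinates of a run. -/
def runI (a : Fin d) (t : List (Fin d)) : Finset (Fin d) := insert a t.toFinset

lemma valid_ties_inv {P : Par d} {q : Fin d → ℝ} {t : List (Fin d)} {Q : List (Fin d × Bool)}
    (h : Valid P q (ties t Q)) : Valid P q Q ∧ t.Nodup ∧ ∀ i ∈ t, i ∉ coords Q := by
  classical
  induction t with
  | nil => simpa using h
  | cons i t ih =>
    simp only [ties_cons, Valid] at h
    obtain ⟨h1, h2, h3⟩ := ih h.1
    have h4 := h.2.1
    simp only [coords_ties, Finset.mem_union, List.mem_toFinset, not_or] at h4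
    refine ⟨h1, List.nodup_cons.2 ⟨h4.1, h2⟩, ?_⟩
    intro j hj
    rcases List.mem_cons.1 hj with rfl | hj'
    · exact h4.2
    · exact h3 j hj'

lemma valid_append_disj {P : Par d} {q : Fin d → ℝ} {T Q : List (Fin d × Bool)}
    (h : Valid P q (T ++ Q)) : Disjoint (coords T) (coords Q) := by
  classical
  induction T with
  | nil => simp
  | cons e T ih =>
    simp only [List.cons_append, Valid] at h
    have h1 := ih h.1
    rw [coords_cons, Finset.disjoint_insert_left]
    refine ⟨?_, h1⟩
    intro hmem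
    exact h.2.1 (by rw [coords_append]; exact Finset.mem_union_right _ hmem)

/-- The data of a run in a maximal site. -/
structure RunCtx (P : Par d) (x q : Fin d → ℝ) (Pr T' : List (Fin d × Bool)) (a : Fin d) (b : Bool)
    (t : List (Fin d)) : Prop where
  hx : ∀ i, 0 < x i
  hv : Valid P q (T' ++ ties t ((a, b) :: Pr))
  hall : coords (T' ++ ties t ((a, b) :: Pr)) = Finset.univ
  hmax : ∀ (q' : Fin d → ℝ) (l' : List (Fin d × Bool)), Valid P q' l' → coords l' = Finset.univ →
    GG P x q' l' ≤ GG P x q (T' ++ ties t ((a, b) :: Pr))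
  htq : ∀ i ∈ t, q i = q a

namespace RunCtx

variable {P : Par d} {x q : Fin d → ℝ} {Pr T' : List (Fin d × Bool)} {a : Fin d} {b : Bool}
  {t : List (Fin d)} (h : RunCtx P x q Pr T' a b t)

include h

lemma vQ : Valid P q (ties t ((a, b) :: Pr)) := valid_append_right h.hv

lemma vQ0 : Valid P q ((a, b) :: Pr) := (valid_ties_inv h.vQ).1

lemma vPr : Valid P q Pr := h.vQ0.1

lemma lvl : LvlOK P q Pr (q a) b := lvlOK_of_step P h.vQ0.2.2

lemma tnd : t.Nodup := (valid_ties_inv h.vQ).2.1

lemma aPr : a ∉ coords Pr := h.vQ0.2.1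

lemma tdis : ∀ i ∈ t, i ∉ coords ((a, b) :: Pr) := (valid_ties_inv h.vQ).2.2

lemma qI : ∀ i ∈ runI a t, q i = q a := by
  classical
  intro i hi
  simp only [runI, Finset.mem_insert, List.mem_toFinset] at hi
  rcases hi with rfl | hi
  · rfl
  · exact h.htq i hi

lemma aI : a ∈ runI a t := by
  classical
  simp [runI]

lemma Ine : (runI a t).Nonempty := ⟨a, h.aI⟩

lemma coordsQ : coords (ties t ((a, b) :: Pr)) = runI a t ∪ coords Pr := by
  classical
  rw [coords_ties, coords_cons]
  ext i
  simp only [runI, Finset.mem_union, List.mem_toFinset, Finset.mem_insert]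
  tauto

lemma Idis : Disjoint (runI a t) (coords Pr) := by
  classical
  rw [Finset.disjoint_left]
  intro i hi
  simp only [runI, Finset.mem_insert, List.mem_toFinset] at hi
  rcases hi with rfl | hi
  · exact h.aPr
  · have := h.tdis i hi
    simp only [coords_cons, Finset.mem_insert, not_or] at this
    exact this.2

lemma card : (runI a t).card - 1 = t.length := by
  classical
  have hnot : a ∉ t := by
    intro hi
    have := h.tdis a hi
    simp at this
  have : (runI a t).card = t.length + 1 := by
    unfold runI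
    rw [Finset.card_insert_of_notMem (by simpa using hnot), List.toFinset_card_of_nodup h.tnd]
  omega

lemma card_le : (word Pr).length + 1 + t.length ≤ d := by
  have h1 := valid_length_le h.vQ
  have h2 : (ties t ((a, b) :: Pr)).length = t.length + (Pr.length + 1) := by
    simp [ties]
  simp only [word_length]
  omega

lemma lowdis : Disjoint (coords T') (runI a t ∪ coords Pr) := by
  rw [← h.coordsQ]
  exact valid_append_disj h.hv

lemma compl : (runI a t ∪ coords Pr)ᶜ = coords T' := by
  classical
  have h1 := h.hall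
  rw [coords_append, h.coordsQ] at h1
  ext i
  simp only [Finset.mem_compl]
  have h2 : i ∈ coords T' ∪ (runI a t ∪ coords Pr) := by rw [h1]; simp
  have h3 := h.lowdis
  constructor
  · intro hi
    rcases Finset.mem_union.1 h2 with h4 | h4
    · exact h4
    · exact absurd h4 hi
  · intro hi h4
    exact Finset.disjoint_left.1 h3 hi h4

lemma GGQ : GG P x q (ties t ((a, b) :: Pr)) = GG P x q Pr + q a * (∑ i ∈ runI a t, x i) -
    OmB P b (word Pr) t.length * Real.exp (q a) := by
  classical
  rw [GG_ties P x q h.tnd h.htq]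
  simp only [GG, word_cons, OmB]
  have hnot : a ∉ t.toFinset := by
    intro hi
    have := h.tdis a (by simpa using hi)
    simp at this
  unfold runI
  rw [Finset.sum_insert hnot]
  ring

lemma GG_le : GG P x q (T' ++ ties t ((a, b) :: Pr)) ≤ GG P x q (ties t ((a, b) :: Pr)) +
    ∑ i ∈ coords T', (ent (x i) + P.Am * x i) := GG_tail_le P h.hx T' _ h.hv

lemma Tt_ok : 2 * P.Am ≤ P.Tt := by
  unfold Par.Tt
  linarith [P.hC3]

lemma Xpos : 0 ≤ ∑ i ∈ coords T', x i := Finset.sum_nonneg fun i _ => (h.hx i).le

/-- Competitor with the same coordinates at another level. -/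
lemma MI_level {L' : ℝ} {b' : Bool} (hL' : LvlOK P q Pr L' b')
    (hlow : ∀ i ∈ coords T', Real.log (x i) ≤ L' + P.Tt) :
    L' * (∑ i ∈ runI a t, x i) - OmB P b' (word Pr) t.length * Real.exp L' ≤
      q a * (∑ i ∈ runI a t, x i) - OmB P b (word Pr) t.length * Real.exp (q a) +
        P.K0 * ∑ i ∈ coords T', x i := by
  classical
  obtain ⟨l₂, hv₂, hc₂, _, ⟨e₀, he₀, he₀I⟩, hG₂⟩ := exists_block P h.vPr hL' h.Ine h.Idis x
  rw [h.card] at hG₂
  have hhead : ∀ e ∈ l₂.head?, setLev q (runI a t) L' e.1 = L' := by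
    intro e he
    have : e = e₀ := by
      rw [Option.mem_def] at he he₀
      rw [he] at he₀
      exact Option.some.inj he₀
    rw [this, setLev_mem _ _ he₀I]
  have hcomp := competitor P h.hx h.Tt_ok h.hmax hv₂ (by
    intro i hi e he
    rw [hhead e he]
    apply hlow
    rw [hc₂] at hi
    rw [← h.compl]
    exact Finset.mem_compl.2 hi)
  rw [hc₂, h.compl, hG₂] at hcomp
  have h1 := h.GG_le
  rw [h.GGQ] at h1
  have h2 : ∑ i ∈ coords T', (ent (x i) + P.Am * x i) -
      ∑ i ∈ coords T', (ent (x i) - (P.Tt + 2 * P.Am) * x i) = P.K0 * ∑ i ∈ coords T', x i := by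
    rw [← Finset.sum_sub_distrib, Finset.mul_sum]
    refine Finset.sum_congr rfl fun i _ => ?_
    unfold Par.Tt Par.K0
    ring
  linarith

/-- Competitor keeping a part of the coordinates at the same level. -/
lemma MI_keep {H : Finset (Fin d)} (hH : H ⊆ runI a t) (hne : H.Nonempty)
    (hlow : ∀ i, i ∈ runI a t \ H ∨ i ∈ coords T' → Real.log (x i) ≤ q a + P.Tt) :
    (OmB P b (word Pr) t.length - OmB P b (word Pr) (H.card - 1)) * Real.exp (q a) +
      ∑ i ∈ runI a t \ H, (ent (x i) - P.c0 * x i) ≤
      q a * (∑ i ∈ runI a t \ H, x i) + P.K0 * ∑ i ∈ coords T', x i := by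
  classical
  have hdisH : Disjoint H (coords Pr) := Finset.disjoint_of_subset_left hH h.Idis
  obtain ⟨l₂, hv₂, hc₂, _, ⟨e₀, he₀, he₀I⟩, hG₂⟩ := exists_block P h.vPr h.lvl hne hdisH x
  have hhead : ∀ e ∈ l₂.head?, setLev q H (q a) e.1 = q a := by
    intro e he
    have : e = e₀ := by
      rw [Option.mem_def] at he he₀
      rw [he] at he₀
      exact Option.some.inj he₀
    rw [this, setLev_mem _ _ he₀I]
  have hcompl : (coords l₂)ᶜ = (runI a t \ H) ∪ coords T' := by
    rw [hc₂, ← h.compl]
    ext i
    simp only [Finset.mem_compl, Finset.mem_union, Finset.mem_sdiff, not_or]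
    have hc : i ∈ coords T' ∪ (runI a t ∪ coords Pr) := by
      have h1 := h.hall
      rw [coords_append, h.coordsQ] at h1
      rw [h1]; simp
    have hdis := h.lowdis
    constructor
    · rintro ⟨h1, h2⟩
      rcases Finset.mem_union.1 hc with h3 | h3
      · right
        exact ⟨fun h4 => Finset.disjoint_left.1 hdis h3 (Finset.mem_union_left _ h4),
          fun h4 => Finset.disjoint_left.1 hdis h3 (Finset.mem_union_right _ h4)⟩
      · rcases Finset.mem_union.1 h3 with h4 | h4
        · exact Or.inl ⟨h4, h1⟩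
        · exact absurd h4 h2
    · rintro (⟨h1, h2⟩ | ⟨h1, h2⟩)
      · exact ⟨h2, fun h3 => Finset.disjoint_left.1 h.Idis h1 h3⟩
      · exact ⟨fun h3 => h1 (hH h3), h2⟩
  have hcomp := competitor P h.hx h.Tt_ok h.hmax hv₂ (by
    intro i hi e he
    rw [hhead e he]
    apply hlow
    have : i ∈ (coords l₂)ᶜ := Finset.mem_compl.2 hi
    rw [hcompl] at this
    exact Finset.mem_union.1 this)
  have hdis2 : Disjoint (runI a t \ H) (coords T') := by
    rw [Finset.disjoint_left]
    intro i hi hi2
    exact Finset.disjoint_left.1 h.lowdis hi2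
      (Finset.mem_union_left _ (Finset.mem_sdiff.1 hi).1)
  rw [hcompl, hG₂, Finset.sum_union hdis2] at hcomp
  have h1 := h.GG_le
  rw [h.GGQ] at h1
  have hsplit : ∑ i ∈ runI a t, x i = ∑ i ∈ runI a t \ H, x i + ∑ i ∈ H, x i :=
    (Finset.sum_sdiff hH).symm
  rw [hsplit] at h1
  have h2 : ∑ i ∈ coords T', (ent (x i) + P.Am * x i) -
      ∑ i ∈ coords T', (ent (x i) - (P.Tt + 2 * P.Am) * x i) = P.K0 * ∑ i ∈ coords T', x i := by
    rw [← Finset.sum_sub_distrib, Finset.mul_sum]
    refine Finset.sum_congr rfl fun i _ => ?_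
    unfold Par.Tt Par.K0
    ring
  have h3 : P.Tt + 2 * P.Am = P.c0 := by
    unfold Par.Tt Par.c0; ring
  rw [h3] at hcomp h2
  nlinarith

/-- Competitor removing all the coordinates of the run. -/
lemma MI_drop (hlow : ∀ i, i ∈ runI a t ∨ i ∈ coords T' → ∀ e ∈ Pr.head?,
      Real.log (x i) ≤ q e.1 + P.Tt) :
    ∑ i ∈ runI a t, (ent (x i) - P.c0 * x i) + OmB P b (word Pr) t.length * Real.exp (q a) ≤
      q a * (∑ i ∈ runI a t, x i) + P.K0 * ∑ i ∈ coords T', x i := by
  classical
  have hcompl : (coords Pr)ᶜ = runI a t ∪ coords T' := by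
    rw [← h.compl]
    ext i
    simp only [Finset.mem_compl, Finset.mem_union, not_or]
    have hc : i ∈ coords T' ∪ (runI a t ∪ coords Pr) := by
      have h1 := h.hall
      rw [coords_append, h.coordsQ] at h1
      rw [h1]; simp
    have hdis := h.lowdis
    constructor
    · intro h1
      by_cases h3 : i ∈ runI a t
      · exact Or.inl h3
      · right
        rcases Finset.mem_union.1 hc with h4 | h4
        · exact ⟨fun h5 => Finset.disjoint_left.1 hdis h4 (Finset.mem_union_left _ h5),
            fun h5 => Finset.disjoint_left.1 hdis h4 (Finset.mem_union_right _ h5)⟩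
        · rcases Finset.mem_union.1 h4 with h5 | h5
          · exact absurd h5 h3
          · exact absurd h5 h1
    · rintro (h1 | ⟨_, h2⟩)
      · exact fun h3 => Finset.disjoint_left.1 h.Idis h1 h3
      · exact h2
  have hcomp := competitor P h.hx h.Tt_ok h.hmax h.vPr (by
    intro i hi e he
    apply hlow
    · have : i ∈ (coords Pr)ᶜ := Finset.mem_compl.2 hi
      rw [hcompl] at this
      exact Finset.mem_union.1 this
    · exact he)
  have hdis2 : Disjoint (runI a t) (coords T') := by
    rw [Finset.disjoint_left]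
    intro i hi hi2
    exact Finset.disjoint_left.1 h.lowdis hi2 (Finset.mem_union_left _ hi)
  rw [hcompl, Finset.sum_union hdis2] at hcomp
  have h1 := h.GG_le
  rw [h.GGQ] at h1
  have h2 : ∑ i ∈ coords T', (ent (x i) + P.Am * x i) -
      ∑ i ∈ coords T', (ent (x i) - (P.Tt + 2 * P.Am) * x i) = P.K0 * ∑ i ∈ coords T', x i := by
    rw [← Finset.sum_sub_distrib, Finset.mul_sum]
    refine Finset.sum_congr rfl fun i _ => ?_
    unfold Par.Tt Par.K0
    ring
  have h3 : P.Tt + 2 * P.Am = P.c0 := by
    unfold Par.Tt Par.c0; ring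
  rw [h3] at hcomp h2
  linarith

end RunCtx

end Vale.Agent.Lib.P072G
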