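import Vale.Agent.Lib.P072G.Chain

/-!
The sign property of a maximal site: if a vector of `D` pairs positively with the levels then it
pairs with `log x` to at least `dl`.
-/

open Finset

namespace Vale.Agent.Lib.P072G

variable {d : ℕ}

/-- The order in a run: decreasing in `log x`, ties broken by the index. -/
noncomputable def key (x : Fin d → ℝ) (i : Fin d) : ℝ ×ₗ Fin d := toLex (- Real.log (x i), i)

/-- The coordinates before `a` in the run `I`. -/
noncomputable def Hs (x : Fin d → ℝ) (I : Finset (Fin d)) (a : Fin d) : Finset (Fin d) :=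
  I.filter (fun i => key x i < key x a)

lemma Hs_sub (x : Fin d → ℝ) (I : Finset (Fin d)) (a : Fin d) : Hs x I a ⊆ I :=
  Finset.filter_subset _ _

lemma not_mem_Hs (x : Fin d → ℝ) (I : Finset (Fin d)) (a : Fin d) : a ∉ Hs x I a := by
  simp [Hs]

lemma key_le_log {x : Fin d → ℝ} {i j : Fin d} (h : key x i ≤ key x j) :
    Real.log (x j) ≤ Real.log (x i) := by
  unfold key at h
  rw [Prod.Lex.toLex_le_toLex] at h
  rcases h with h | ⟨h, _⟩
  · simp only at h
    linarith
  · simp only at h
    linarith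

lemma ord_of_not_mem {x : Fin d → ℝ} {I : Finset (Fin d)} {a i : Fin d} (hi : i ∈ I \ Hs x I a) :
    Real.log (x i) ≤ Real.log (x a) := by
  have h1 := Finset.mem_sdiff.1 hi
  have h2 : ¬ key x i < key x a := fun h => h1.2 (Finset.mem_filter.2 ⟨h1.1, h⟩)
  exact key_le_log (not_lt.1 h2)

lemma Hs_card_lt {x : Fin d → ℝ} {I : Finset (Fin d)} {a u : Fin d} (hu : u ∈ Hs x I a) :
    (Hs x I u).card < (Hs x I a).card := by
  apply Finset.card_lt_card
  rw [Finset.ssubset_iff_of_subset]
  · exact ⟨u, hu, not_mem_Hs x I u⟩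
  · intro i hi
    have h1 := Finset.mem_filter.1 hi
    have h2 := (Finset.mem_filter.1 hu).2
    exact Finset.mem_filter.2 ⟨h1.1, lt_trans h1.2 h2⟩

lemma Hs_card_lt_I {x : Fin d → ℝ} {I : Finset (Fin d)} {a : Fin d} (ha : a ∈ I) :
    (Hs x I a).card < I.card := by
  apply Finset.card_lt_card
  rw [Finset.ssubset_iff_of_subset (Hs_sub x I a)]
  exact ⟨a, ha, not_mem_Hs x I a⟩

/-- The top coordinate carries a fixed fraction of the mass. -/
lemma top_mass {x : Fin d → ℝ} (hx : ∀ i, 0 < x i) {I : Finset (Fin d)} {a : Fin d} (ha : a ∈ I)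
    (hH : Hs x I a = ∅) : Real.log (∑ i ∈ I, x i) ≤ Real.log (x a) + d := by
  have h1 : ∀ i ∈ I, x i ≤ x a := by
    intro i hi
    have h2 : i ∈ I \ Hs x I a := by simp [hH, hi]
    have h3 := ord_of_not_mem h2
    exact (Real.log_le_log_iff (hx i) (hx a)).1 h3
  have h2 : ∑ i ∈ I, x i ≤ I.card * x a := by
    calc ∑ i ∈ I, x i ≤ ∑ _i ∈ I, x a := Finset.sum_le_sum h1
      _ = _ := by rw [Finset.sum_const, nsmul_eq_mul]
  have hIpos : 0 < I.card := Finset.card_pos.2 ⟨a, ha⟩
  have hIr : (0 : ℝ) < I.card := by exact_mod_cast hIpos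
  have hM : 0 < ∑ i ∈ I, x i := Finset.sum_pos (fun i _ => hx i) ⟨a, ha⟩
  have h3 := Real.log_le_log hM h2
  rw [Real.log_mul hIr.ne' (hx a).ne'] at h3
  have h4 : Real.log (I.card : ℝ) ≤ I.card := by
    have := Real.log_le_sub_one_of_pos hIr
    linarith
  have h5 : (I.card : ℝ) ≤ d := by
    have : I.card ≤ d := by
      calc I.card ≤ (Finset.univ : Finset (Fin d)).card := Finset.card_le_univ _
        _ = d := by simp
    exact_mod_cast this
  linarith

/-- The width of a coordinate with respect to a later word. -/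
def Wid (P : Par d) (x q : Fin d → ℝ) (u : Fin d) (W : List Bool) : Prop :=
  |Real.log (x u) - q u| ≤ P.Cc + d ∨
    ∃ z w, W = z ++ true :: w ∧ |Real.log (x u) - q u| ≤ 2 * P.win w + P.Cc + d

lemma Wid.ext {P : Par d} {x q : Fin d → ℝ} {u : Fin d} {W : List Bool}
    (h : Wid P x q u W) (z : List Bool) : Wid P x q u (z ++ W) := by
  rcases h with h | ⟨z', w, hW, h⟩
  · exact Or.inl h
  · exact Or.inr ⟨z ++ z', w, by rw [hW]; simp, h⟩

lemma Wid.bound {P : Par d} {x q : Fin d → ℝ} {u : Fin d} {W : List Bool}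
    (h : Wid P x q u W) (hW : W.length ≤ d) :
    |Real.log (x u) - q u| ≤ 2 * P.win W / P.Lam + P.Cc + d := by
  have hL : 0 < P.Lam := by linarith [P.hLam4]
  have hA := win_pos P hW
  rcases h with h | ⟨z, w, hWe, h⟩
  · have : 0 ≤ 2 * P.win W / P.Lam := by positivity
    linarith
  · have hlen : z.length + w.length + 1 ≤ d := by
      rw [hWe] at hW
      simp at hW
      omega
    have h1 := P.hwin_true z w hlen
    rw [← hWe] at h1
    have h2 : 2 * P.win w ≤ 2 * P.win W / P.Lam := by
      rw [le_div_iff₀ hL]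
      nlinarith
    linarith

namespace RunCtx

variable {P : Par d} {x q : Fin d → ℝ} {Pr T' : List (Fin d × Bool)} {a : Fin d} {b : Bool}
  {t : List (Fin d)} (h : RunCtx P x q Pr T' a b t)

include h

lemma wid (hlowb : ∀ i ∈ coords T', Real.log (x i) ≤
      q a - P.win (word (ties t ((a, b) :: Pr))) / 2 + P.Cc)
    (hstrict : ∀ e ∈ Pr.head?, q a < q e.1) {u : Fin d} (hu : u ∈ runI a t) {k : ℕ}
    (hk : (Hs x (runI a t) u).card ≤ k) (hkt : k ≤ t.length) :
    Wid P x q u (List.replicate k true ++ b :: word Pr) := by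
  classical
  obtain ⟨hA1, hA2⟩ := h.winA
  have hlen := h.card_le
  have hlen' : Pr.length + 1 + t.length ≤ d := by simpa using hlen
  have hqu : q u = q a := h.qI u hu
  have hup := h.up hlowb hstrict
  have hym := h.y_le_m hu
  have hC := P.hC3
  have hA0 := P.hA0
  have hd : (0 : ℝ) ≤ d := Nat.cast_nonneg d
  by_cases hH : Hs x (runI a t) u = ∅
  · have htop := top_mass h.hx hu hH
    cases b with
    | false =>
      have h1 := hup.1 rfl
      have h2 := h.lo_false rfl hlowb hstrict
      left
      rw [hqu, abs_le]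
      constructor <;> linarith
    | true =>
      have h1 := hup.2 rfl
      have h2 := h.lo_true rfl hlowb hstrict
      right
      refine ⟨List.replicate k true, word Pr, rfl, ?_⟩
      rw [hqu, abs_le]
      constructor <;> linarith
  · have hne : (Hs x (runI a t) u).Nonempty := Finset.nonempty_iff_ne_empty.2 hH
    obtain ⟨n, hn⟩ : ∃ n, (Hs x (runI a t) u).card = n + 1 :=
      ⟨(Hs x (runI a t) u).card - 1, by have := Finset.card_pos.2 hne; omega⟩
    have hlow := h.mem_low hlowb hstrict hu (Hs_sub x _ u) hne (not_mem_Hs x _ u)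
      (fun i hi => ord_of_not_mem hi)
    rw [hn] at hlow
    simp only [Nat.add_sub_cancel] at hlow
    right
    refine ⟨List.replicate (k - (n + 1)) true, List.replicate n true ++ b :: word Pr, ?_, ?_⟩
    · have hk' : k = (k - (n + 1)) + 1 + n := by omega
      conv_lhs => rw [hk']
      rw [List.replicate_add, List.replicate_add, List.append_assoc, List.append_assoc]
      simp
    · have hwin := P.hwin_ge (List.replicate n true ++ b :: word Pr) (by simp; omega)
      rw [hqu, abs_le]
      constructor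
      · linarith
      · cases b with
        | false =>
          have h1 := hup.1 rfl
          linarith
        | true =>
          have h1 := hup.2 rfl
          have h2 := P.hwin_true (List.replicate n true) (word Pr) (by simp; omega)
          have h3 := P.hLam4
          nlinarith

end RunCtx

/-- The final estimate for the sign of `ev v (log x)`. -/
lemma sign_core {P : Par d} {x q : Fin d → ℝ} {v : Fin d → ℝ} (hvD : v ∈ P.D) {a' : Fin d} {c : ℝ}
    {W : List Bool} (hWlen : W.length ≤ d) (hva : v a' ≠ 0) (hevq : ev v q = v a' * (q a' - c))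
    (hWid : ∀ i, v i ≠ 0 → i ≠ a' → Wid P x q i W)
    (hsep1 : 0 < q a' - c → P.win W - P.Cc - d ≤ Real.log (x a') - c)
    (hsep2 : q a' - c < 0 → P.win W - P.Cc - d ≤ c - Real.log (x a'))
    (hpos : 0 < ev v q) : P.dl ≤ ev v (fun i => Real.log (x i)) := by
  classical
  obtain ⟨A, hA⟩ : ∃ A, A = P.win W := ⟨_, rfl⟩
  rw [← hA] at hsep1 hsep2
  have hA1 : P.A0 ≤ A := by rw [hA]; exact P.hwin_ge W hWlen
  have hk0 := P.hkap0
  have hN0 := P.hNN0
  have hdl := P.hdl0
  have hd : (0 : ℝ) ≤ d := Nat.cast_nonneg d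
  have hC := P.hC3
  have hbig := P.hA0big
  have hLam : 0 < P.Lam := by linarith [P.hLam4]
  have hkv : P.kap ≤ |v a'| := P.hkap_D v hvD a' hva
  -- separation
  have hCd : P.Cc + d ≤ P.A0 / 2 := by
    have h1 : 0 ≤ P.NN * (P.Cc + d) := by positivity
    have h2 : P.kap * (P.Cc + d) ≤ P.kap * (P.A0 / 2) := by nlinarith
    exact le_of_mul_le_mul_left h2 hk0
  have hA0 := P.hA0
  have hsepm : P.kap * (A - P.Cc - d) ≤ v a' * (Real.log (x a') - c) := by
    rw [hevq] at hpos
    have hApos : 0 ≤ A - P.Cc - d := by linarith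
    rcases lt_or_gt_of_ne hva with hneg | hpo
    · have h1 : q a' - c < 0 := by
        by_contra hcon
        push Not at hcon
        have := mul_nonpos_of_nonpos_of_nonneg hneg.le hcon
        linarith
      have h2 := hsep2 h1
      rw [abs_of_neg hneg] at hkv
      have h3 : P.kap * (A - P.Cc - d) ≤ (- v a') * (c - Real.log (x a')) :=
        mul_le_mul hkv h2 hApos (by linarith)
      linarith
    · have h1 : 0 < q a' - c := by
        by_contra hcon
        push Not at hcon
        have := mul_nonpos_of_nonneg_of_nonpos hpo.le hcon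
        linarith
      have h2 := hsep1 h1
      rw [abs_of_pos hpo] at hkv
      exact mul_le_mul hkv h2 hApos hpo.le
  -- the rest of the sum
  obtain ⟨B, hB⟩ : ∃ B, B = 2 * A / P.Lam + P.Cc + d := ⟨_, rfl⟩
  have hB0 : 0 ≤ B := by
    rw [hB]
    have : 0 ≤ 2 * A / P.Lam := by
      apply div_nonneg _ hLam.le
      linarith
    linarith
  have hrest : - (P.NN * B) ≤ ∑ i ∈ Finset.univ.erase a', v i * (Real.log (x i) - q i) := by
    have h1 : ∀ i ∈ Finset.univ.erase a', - (|v i| * B) ≤ v i * (Real.log (x i) - q i) := by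
      intro i hi
      by_cases hvi : v i = 0
      · simp [hvi]
      · have h2 := (hWid i hvi (Finset.ne_of_mem_erase hi)).bound hWlen
        rw [← hA, ← hB] at h2
        have h3 : |v i * (Real.log (x i) - q i)| ≤ |v i| * B := by
          rw [abs_mul]
          exact mul_le_mul_of_nonneg_left h2 (abs_nonneg _)
        linarith [neg_abs_le (v i * (Real.log (x i) - q i))]
    have h2 := Finset.sum_le_sum h1
    rw [Finset.sum_neg_distrib, ← Finset.sum_mul] at h2
    have h3 : ∑ i ∈ Finset.univ.erase a', |v i| ≤ P.NN := by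
      refine le_trans ?_ (P.hNN v hvD)
      exact Finset.sum_le_sum_of_subset_of_nonneg (Finset.erase_subset _ _)
        (fun i _ _ => abs_nonneg _)
    have h4 : (∑ i ∈ Finset.univ.erase a', |v i|) * B ≤ P.NN * B :=
      mul_le_mul_of_nonneg_right h3 hB0
    linarith
  -- identity
  have hid : ev v (fun i => Real.log (x i)) = v a' * (Real.log (x a') - c) +
      ∑ i ∈ Finset.univ.erase a', v i * (Real.log (x i) - q i) := by
    have h1 : ev v (fun i => Real.log (x i)) - ev v q = ∑ i, v i * (Real.log (x i) - q i) := by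
      unfold ev
      rw [← Finset.sum_sub_distrib]
      refine Finset.sum_congr rfl fun i _ => by ring
    rw [← Finset.add_sum_erase _ _ (Finset.mem_univ a')] at h1
    rw [hevq] at h1
    linarith
  -- conclusion
  have h5 : P.NN * (2 * A / P.Lam) ≤ (P.kap / 2) * A := by
    have h6 := P.hLamN
    have h7 : P.NN * (2 * A / P.Lam) = (2 * P.NN * A) / P.Lam := by ring
    rw [h7, div_le_iff₀ hLam]
    have h8 : 0 ≤ A := by linarith
    nlinarith
  have h9 : P.NN * B = P.NN * (2 * A / P.Lam) + P.NN * (P.Cc + d) := by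
    rw [hB]; ring
  rw [hid]
  have h10 : (P.kap / 2) * P.A0 ≤ (P.kap / 2) * A :=
    mul_le_mul_of_nonneg_left hA1 (by positivity)
  nlinarith

lemma key_inj {x : Fin d → ℝ} {i j : Fin d} (h : key x i = key x j) : i = j := by
  unfold key at h
  have := toLex.injective h
  exact (Prod.ext_iff.1 this).2

namespace RunCtx

variable {P : Par d} {x q : Fin d → ℝ} {Pr T' : List (Fin d × Bool)} {a : Fin d} {b : Bool}
  {t : List (Fin d)} (h : RunCtx P x q Pr T' a b t)

include h

/-- The sign property for a vector whose last coordinate lies in the run, with no coordinate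
before it in the run. -/
lemma sign_top (hlowb : ∀ i ∈ coords T', Real.log (x i) ≤
      q a - P.win (word (ties t ((a, b) :: Pr))) / 2 + P.Cc)
    (hstrict : ∀ e ∈ Pr.head?, q a < q e.1)
    (hWidPr : ∀ u ∈ coords Pr, Wid P x q u (word Pr))
    {v : Fin d → ℝ} (hvD : v ∈ P.D) {a' : Fin d} (ha' : a' ∈ runI a t) (hva : v a' ≠ 0)
    (hsupp : ∀ i, v i ≠ 0 → i ≠ a' → i ∈ coords Pr) (hH : Hs x (runI a t) a' = ∅)
    (hpos : 0 < ev v q) : P.dl ≤ ev v (fun i => Real.log (x i)) := by
  classical
  obtain ⟨hA1, hA2⟩ := h.winA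
  have hlen := h.card_le
  have hqa : q a' = q a := h.qI a' ha'
  have haPr : a' ∉ coords Pr := Finset.disjoint_left.1 h.Idis ha'
  have hcS : elim v a' ∈ SS P.D (coords Pr) :=
    SS_solve P.D hvD haPr hva (fun i hi => by
      by_cases hia : i = a'
      · exact Or.inl hia
      · exact Or.inr (hsupp i hi hia))
  have hevq := ev_elim v q a' hva
  have htop := top_mass h.hx ha' hH
  have hym := h.y_le_m ha'
  have hup := h.up hlowb hstrict
  have hA0 := P.hA0
  have hC := P.hC3
  have hd : (0 : ℝ) ≤ d := Nat.cast_nonneg d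
  have hlvl := h.lvl
  have hvPr := h.vPr
  refine sign_core hvD (W := word Pr) (by omega) hva hevq
    (fun i hi hia => hWidPr i (hsupp i hi hia)) ?_ ?_ hpos
  · intro hgt
    rw [hqa] at hgt
    cases b with
    | false =>
      have h2 := h.lo_false rfl hlowb hstrict
      rcases hlvl.nonflat rfl _ hcS with h3 | h3
      · exfalso; linarith
      · linarith
    | true =>
      have h2 := h.lo_true rfl hlowb hstrict
      obtain ⟨c₀, hc₀, hLc₀⟩ := hlvl.flat rfl
      have hne : ev c₀ q ≠ ev (elim v a') q := by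
        rw [← hLc₀]
        exact (sub_pos.1 hgt).ne'
      have hg := gap P hvPr hc₀ hcS hne
      rw [← hLc₀, abs_of_pos hgt] at hg
      linarith
  · intro hlt
    rw [hqa] at hlt
    cases b with
    | false =>
      have h2 := h.center hlowb hstrict rfl hcS (by linarith)
      linarith
    | true =>
      have h2 := hup.2 rfl
      obtain ⟨c₀, hc₀, hLc₀⟩ := hlvl.flat rfl
      have hne : ev c₀ q ≠ ev (elim v a') q := by
        rw [← hLc₀]
        exact (sub_neg.1 hlt).ne
      have hg := gap P hvPr hc₀ hcS hne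
      rw [← hLc₀, abs_of_neg hlt] at hg
      linarith

/-- The sign property for a vector whose last coordinate lies in the run, after some coordinates
of the run. -/
lemma sign_tie (hlowb : ∀ i ∈ coords T', Real.log (x i) ≤
      q a - P.win (word (ties t ((a, b) :: Pr))) / 2 + P.Cc)
    (hstrict : ∀ e ∈ Pr.head?, q a < q e.1)
    (hWidPr : ∀ u ∈ coords Pr, Wid P x q u (word Pr))
    {v : Fin d → ℝ} (hvD : v ∈ P.D) {a' : Fin d} (ha' : a' ∈ runI a t) (hva : v a' ≠ 0)
    (hsupp : ∀ i, v i ≠ 0 → i ≠ a' → i ∈ Hs x (runI a t) a' ∨ i ∈ coords Pr)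
    (hH : (Hs x (runI a t) a').Nonempty)
    (hpos : 0 < ev v q) : P.dl ≤ ev v (fun i => Real.log (x i)) := by
  classical
  obtain ⟨hA1, hA2⟩ := h.winA
  have hlen := h.card_le
  have hlen' : Pr.length + 1 + t.length ≤ d := by simpa using hlen
  have hqa : q a' = q a := h.qI a' ha'
  have haPr : a' ∉ coords Pr := Finset.disjoint_left.1 h.Idis ha'
  obtain ⟨H, hHd⟩ : ∃ H, H = Hs x (runI a t) a' := ⟨_, rfl⟩
  rw [← hHd] at hsupp hH
  have hHsub : H ⊆ runI a t := hHd ▸ Hs_sub x _ a'
  have haH : a' ∉ H := hHd ▸ not_mem_Hs x _ a'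
  have hdisH : Disjoint H (coords Pr) := Finset.disjoint_of_subset_left hHsub h.Idis
  obtain ⟨l₂, hv₂, hc₂, hw₂, _, _⟩ := exists_block P h.vPr h.lvl hH hdisH x
  have hcongr : ∀ i ∈ coords l₂, setLev q H (q a) i = q i := by
    intro i hi
    rw [hc₂] at hi
    by_cases hiH : i ∈ H
    · rw [setLev_mem _ _ hiH, h.qI i (hHsub hiH)]
    · rw [setLev_not_mem _ _ hiH]
  have hvq : Valid P q l₂ := Valid_congr hcongr hv₂
  have hcardlt : H.card < (runI a t).card := hHd ▸ Hs_card_lt_I ha'
  have hcard := h.card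
  have hHpos : 0 < H.card := Finset.card_pos.2 hH
  have hcS : elim v a' ∈ SS P.D (coords l₂) :=
    SS_solve P.D hvD (by rw [hc₂]; simp [haH, haPr]) hva (fun i hi => by
      by_cases hia : i = a'
      · exact Or.inl hia
      · right
        rw [hc₂]
        exact Finset.mem_union.2 (hsupp i hi hia))
  have hevq := ev_elim v q a' hva
  obtain ⟨W, hW⟩ : ∃ W, W = List.replicate (H.card - 1) true ++ b :: word Pr := ⟨_, rfl⟩
  rw [← hW] at hw₂
  have hWlen : W.length ≤ d := by
    rw [hW]; simp; omega
  have hlow := h.mem_low hlowb hstrict ha' hHsub hH haH (fun i hi => by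
    rw [hHd] at hi
    exact ord_of_not_mem hi)
  rw [← hW] at hlow
  have hym := h.y_le_m ha'
  have hup := h.up hlowb hstrict
  have hA0 := P.hA0
  have hC := P.hC3
  have hd : (0 : ℝ) ≤ d := Nat.cast_nonneg d
  have hWpos := win_pos P hWlen
  -- the tie center
  obtain ⟨u, huH⟩ := hH
  have huU : u ∈ coords l₂ := by rw [hc₂]; exact Finset.mem_union_left _ huH
  have hqu : q u = q a := h.qI u (hHsub huH)
  have hgap : ∀ hne : q a ≠ ev (elim v a') q, 3 * P.win W ≤ |q a - ev (elim v a') q| := by
    intro hne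
    have hne' : ev (Pi.single u 1) q ≠ ev (elim v a') q := by
      rw [ev_single, hqu]; exact hne
    have hg := gap P hvq (SS_tie P.D huU) hcS hne'
    rwa [ev_single, hqu, hw₂] at hg
  -- the upper bound of the coordinate
  have hy : Real.log (x a') ≤ q a + P.win W / 2 + P.Cc := by
    cases b with
    | false =>
      have h1 := hup.1 rfl
      linarith
    | true =>
      have h1 := hup.2 rfl
      have h2 := P.hwin_true (List.replicate (H.card - 1) true) (word Pr) (by simp; omega)
      rw [← hW] at h2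
      have h3 := P.hLam4
      have h4 : 4 * P.win (word Pr) ≤ P.win W := by nlinarith
      linarith
  refine sign_core hvD (W := W) hWlen hva hevq ?_ ?_ ?_ hpos
  · intro i hi hia
    rcases hsupp i hi hia with hiH | hiPr
    · have hk : (Hs x (runI a t) i).card ≤ H.card - 1 := by
        have := Hs_card_lt (hHd ▸ hiH)
        rw [← hHd] at this
        omega
      rw [hW]
      exact h.wid hlowb hstrict (hHsub hiH) hk (by omega)
    · have h1 := (hWidPr i hiPr).ext (List.replicate (H.card - 1) true ++ [b])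
      rw [hW]
      simpa using h1
  · intro hgt
    rw [hqa] at hgt
    have hg := hgap (sub_pos.1 hgt).ne'
    rw [abs_of_pos hgt] at hg
    linarith
  · intro hlt
    rw [hqa] at hlt
    have hg := hgap (sub_neg.1 hlt).ne
    rw [abs_of_neg hlt] at hg
    linarith

lemma sign (hlowb : ∀ i ∈ coords T', Real.log (x i) ≤
      q a - P.win (word (ties t ((a, b) :: Pr))) / 2 + P.Cc)
    (hstrict : ∀ e ∈ Pr.head?, q a < q e.1)
    (hWidPr : ∀ u ∈ coords Pr, Wid P x q u (word Pr))
    {v : Fin d → ℝ} (hvD : v ∈ P.D) (hs : ∀ i, v i ≠ 0 → i ∈ runI a t ∨ i ∈ coords Pr)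
    (hI : ∃ i ∈ runI a t, v i ≠ 0) (hpos : 0 < ev v q) :
    P.dl ≤ ev v (fun i => Real.log (x i)) := by
  classical
  have hne : ((runI a t).filter (fun i => v i ≠ 0)).Nonempty := by
    obtain ⟨i, hi, hvi⟩ := hI
    exact ⟨i, Finset.mem_filter.2 ⟨hi, hvi⟩⟩
  obtain ⟨a', ha'm, hmaxk⟩ := Finset.exists_max_image _ (key x) hne
  obtain ⟨ha', hva⟩ := Finset.mem_filter.1 ha'm
  have hsupp : ∀ i, v i ≠ 0 → i ≠ a' → i ∈ Hs x (runI a t) a' ∨ i ∈ coords Pr := by
    intro i hi hia
    rcases hs i hi with hiI | hiPr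
    · left
      refine Finset.mem_filter.2 ⟨hiI, ?_⟩
      have h1 := hmaxk i (Finset.mem_filter.2 ⟨hiI, hi⟩)
      exact lt_of_le_of_ne h1 (fun h2 => hia (key_inj h2))
    · exact Or.inr hiPr
  by_cases hH : Hs x (runI a t) a' = ∅
  · refine h.sign_top hlowb hstrict hWidPr hvD ha' hva ?_ hH hpos
    intro i hi hia
    rcases hsupp i hi hia with h1 | h1
    · rw [hH] at h1
      simp at h1
    · exact h1
  · exact h.sign_tie hlowb hstrict hWidPr hvD ha' hva hsupp (Finset.nonempty_iff_ne_empty.2 hH) hpos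

end RunCtx

/-- The newest run of a chain. -/
lemma newest_run {P : Par d} {q : Fin d → ℝ} :
    ∀ Q : List (Fin d × Bool), Valid P q Q → Q ≠ [] →
    ∃ (t : List (Fin d)) (a : Fin d) (b : Bool) (Pr : List (Fin d × Bool)),
      Q = ties t ((a, b) :: Pr) ∧ (∀ i ∈ t, q i = q a) ∧ (∀ e ∈ Pr.head?, q a < q e.1) := by
  intro Q
  induction Q with
  | nil => intro _ h; exact absurd rfl h
  | cons e Q₀ ih =>
    intro hv _
    by_cases hQ₀ : Q₀ = []
    · subst hQ₀
      exact ⟨[], e.1, e.2, [], by simp, by simp, by simp⟩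
    · obtain ⟨t, a, b, Pr, hQ, htq, hst⟩ := ih hv.1 hQ₀
      obtain ⟨h₀, hh₀, hl₀⟩ := head_ties t a b Pr q htq
      rw [← hQ] at hh₀
      have hle : q e.1 ≤ q a := by
        have := hv.2.2.sorted h₀ hh₀
        rwa [hl₀] at this
      rcases lt_or_eq_of_le hle with hlt | heq
      · refine ⟨[], e.1, e.2, Q₀, by simp, by simp, ?_⟩
        intro e' he'
        rw [head_eq_of_mem he' hh₀, hl₀]
        exact hlt
      · have hdig := digit_of_tie hv hh₀ (by rw [heq, hl₀])
        refine ⟨e.1 :: t, a, b, Pr, ?_, ?_, hst⟩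
        · simp only [ties_cons]
          rw [← hQ, ← hdig]
        · intro i hi
          rcases List.mem_cons.1 hi with rfl | hi'
          · exact heq
          · exact htq i hi'

/-- Widths and the sign property along the chain, by induction on its old part. -/
theorem sign_all {P : Par d} {x q : Fin d → ℝ} (hx : ∀ i, 0 < x i) {s : List (Fin d × Bool)}
    (hv : Valid P q s) (hall : coords s = Finset.univ)
    (hmax : ∀ (q' : Fin d → ℝ) (l' : List (Fin d × Bool)), Valid P q' l' →
      coords l' = Finset.univ → GG P x q' l' ≤ GG P x q s) (n : ℕ) :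
    ∀ T Q : List (Fin d × Bool), Q.length ≤ n → s = T ++ Q →
      (∀ e ∈ T.getLast?, ∀ e' ∈ Q.head?, q e.1 < q e'.1) →
      (∀ u ∈ coords Q, Wid P x q u (word Q)) ∧
      (∀ v ∈ P.D, (∀ i, v i ≠ 0 → i ∈ coords Q) → 0 < ev v q →
        P.dl ≤ ev v (fun i => Real.log (x i))) := by
  classical
  induction n with
  | zero =>
    intro T Q hQ _ _
    have : Q = [] := List.length_eq_zero_iff.1 (by omega)
    subst this
    refine ⟨by simp, ?_⟩
    intro v _ hs hpos
    exfalso
    have : ev v q = 0 := by
      unfold ev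
      refine Finset.sum_eq_zero fun i _ => ?_
      by_cases hvi : v i = 0
      · simp [hvi]
      · have := hs i hvi
        simp at this
    linarith
  | succ n ih =>
    intro T Q hQ hs hbd
    by_cases hQne : Q = []
    · subst hQne
      exact ih T [] (by simp) hs hbd
    have hvQ : Valid P q Q := valid_append_right (hs ▸ hv)
    obtain ⟨t, a, b, Pr, hQe, htq, hst⟩ := newest_run Q hvQ hQne
    have hlist : s = (T ++ ties t [(a, b)]) ++ Pr := by
      rw [hs, hQe]; simp [ties]
    have hPrlen : Pr.length ≤ n := by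
      have h1 : Q.length = t.length + (Pr.length + 1) := by
        rw [hQe]; simp [ties]
      omega
    obtain ⟨hWidPr, hsignPr⟩ := ih (T ++ ties t [(a, b)]) Pr hPrlen hlist (by
      intro e he e' he'
      rw [getLast_run] at he
      have : e = (a, b) := (Option.some.inj he).symm
      rw [this]
      exact hst e' he')
    have hs' : s = T ++ ties t ((a, b) :: Pr) := by rw [hs, hQe]
    have hctx : RunCtx P x q Pr T a b t := by
      refine ⟨hx, hs' ▸ hv, hs' ▸ hall, ?_, htq⟩
      intro q₁ l₁ hv₁ hc₁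
      rw [← hs']
      exact hmax q₁ l₁ hv₁ hc₁
    obtain ⟨h₀, hh₀, hl₀⟩ := head_ties t a b Pr q htq
    have hlowb : ∀ i ∈ coords T, Real.log (x i) ≤
        q a - P.win (word (ties t ((a, b) :: Pr))) / 2 + P.Cc := by
      intro i hi
      have h1 := low_bound hx hv hall hmax T.length T (ties t ((a, b) :: Pr)) le_rfl hs' (by
        intro e₁ he₁ e₂ he₂
        rw [← hQe] at he₂
        exact hbd e₁ he₁ e₂ he₂) i hi h₀ hh₀
      rwa [hl₀] at h1
    have hcoordsQ : coords Q = runI a t ∪ coords Pr := by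
      rw [hQe]; exact hctx.coordsQ
    constructor
    · intro u hu
      rw [hcoordsQ] at hu
      rw [hQe, hctx.wordQ]
      rcases Finset.mem_union.1 hu with huI | huPr
      · refine hctx.wid hlowb hst huI ?_ le_rfl
        have h1 := Hs_card_lt_I (x := x) huI
        have h2 := hctx.card
        omega
      · have h1 := (hWidPr u huPr).ext (List.replicate t.length true ++ [b])
        simpa using h1
    · intro v hvD hsupp hpos
      by_cases hI : ∃ i ∈ runI a t, v i ≠ 0
      · refine hctx.sign hlowb hst hWidPr hvD ?_ hI hpos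
        intro i hi
        have := hsupp i hi
        rw [hcoordsQ] at this
        exact Finset.mem_union.1 this
      · push Not at hI
        refine hsignPr v hvD ?_ hpos
        intro i hi
        have h1 := hsupp i hi
        rw [hcoordsQ] at h1
        rcases Finset.mem_union.1 h1 with h2 | h2
        · exact absurd (hI i h2) hi
        · exact h2

/-- The sign property of a maximal site. -/
theorem sign_of_max {P : Par d} {x q : Fin d → ℝ} (hx : ∀ i, 0 < x i) {s : List (Fin d × Bool)}
    (hv : Valid P q s) (hall : coords s = Finset.univ)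
    (hmax : ∀ (q' : Fin d → ℝ) (l' : List (Fin d × Bool)), Valid P q' l' →
      coords l' = Finset.univ → GG P x q' l' ≤ GG P x q s)
    {v : Fin d → ℝ} (hvD : v ∈ P.D) (hpos : 0 < ev v q) :
    P.dl ≤ ev v (fun i => Real.log (x i)) :=
  (sign_all hx hv hall hmax s.length [] s le_rfl (by simp) (by simp)).2 v hvD
    (fun i _ => by rw [hall]; simp) hpos

end Vale.Agent.Lib.P072G
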