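import Mathlib

/-!
Window sizes indexed by words in `{0,1}`: a digit `1` makes all later windows larger than the
current one by a factor `Λ`, a digit `0` makes all later windows smaller by a factor `Λ`.
-/

namespace Vale.Agent.Lib.P072G

/-- The factor of the digit after a word of length `n`. -/
noncomputable def Rr (Λ : ℝ) (D n : ℕ) : ℝ := Λ ^ (2 ^ (D - n))

/-- The window after a word, the newest digit being the head. -/
noncomputable def winF (Λ Ac : ℝ) (D : ℕ) : List Bool → ℝ
  | [] => Ac
  | b :: w => if b then winF Λ Ac D w * Rr Λ D w.length else winF Λ Ac D w / Rr Λ D w.length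

section
variable {Λ Ac : ℝ} {D : ℕ}

lemma Rr_pos (hΛ : 1 ≤ Λ) (n : ℕ) : 0 < Rr Λ D n := pow_pos (by linarith) _

lemma Rr_succ {n : ℕ} (hn : n + 1 ≤ D) : (Rr Λ D (n + 1)) ^ 2 = Rr Λ D n := by
  unfold Rr
  rw [← pow_mul]
  congr 1
  rw [show D - n = (D - (n + 1)) + 1 by omega, pow_succ]

lemma Rr_ge (hΛ : 1 ≤ Λ) (n : ℕ) : Λ ≤ Rr Λ D n := by
  unfold Rr
  calc Λ = Λ ^ 1 := (pow_one Λ).symm
    _ ≤ Λ ^ (2 ^ (D - n)) := pow_le_pow_right₀ hΛ (Nat.one_le_two_pow)

lemma Rr_one_le (hΛ : 1 ≤ Λ) (n : ℕ) : 1 ≤ Rr Λ D n := le_trans hΛ (Rr_ge hΛ n)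

lemma winF_pos (hΛ : 1 ≤ Λ) (hA : 0 < Ac) (w : List Bool) : 0 < winF Λ Ac D w := by
  induction w with
  | nil => exact hA
  | cons b w ih =>
    simp only [winF]
    have := Rr_pos (D := D) hΛ w.length
    split_ifs
    · exact mul_pos ih this
    · exact div_pos ih this

lemma winF_step_le (hΛ : 1 ≤ Λ) (hA : 0 < Ac) (b : Bool) (w : List Bool) :
    winF Λ Ac D (b :: w) ≤ winF Λ Ac D w * Rr Λ D w.length := by
  simp only [winF]
  have h0 := winF_pos (D := D) hΛ hA w
  have h1 := Rr_one_le (D := D) hΛ w.length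
  split_ifs
  · exact le_rfl
  · calc winF Λ Ac D w / Rr Λ D w.length ≤ winF Λ Ac D w := div_le_self h0.le h1
      _ ≤ winF Λ Ac D w * Rr Λ D w.length := le_mul_of_one_le_right h0.le h1

lemma winF_step_ge (hΛ : 1 ≤ Λ) (hA : 0 < Ac) (b : Bool) (w : List Bool) :
    winF Λ Ac D w / Rr Λ D w.length ≤ winF Λ Ac D (b :: w) := by
  simp only [winF]
  have h0 := winF_pos (D := D) hΛ hA w
  have h1 := Rr_one_le (D := D) hΛ w.length
  split_ifs
  · calc winF Λ Ac D w / Rr Λ D w.length ≤ winF Λ Ac D w := div_le_self h0.le h1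
      _ ≤ winF Λ Ac D w * Rr Λ D w.length := le_mul_of_one_le_right h0.le h1
  · exact le_rfl

lemma winF_le (hΛ : 1 ≤ Λ) (hA : 0 < Ac) (z w : List Bool) (h : z.length + w.length ≤ D) :
    winF Λ Ac D (z ++ w) ≤ winF Λ Ac D w * ((Rr Λ D w.length) ^ 2 / Λ) := by
  have hΛ0 : 0 < Λ := by linarith
  induction z using List.reverseRecOn generalizing w with
  | nil =>
    simp only [List.nil_append]
    have h0 := winF_pos (D := D) hΛ hA w
    refine le_mul_of_one_le_right h0.le ?_
    rw [one_le_div hΛ0]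
    have h1 := Rr_ge (D := D) hΛ w.length
    nlinarith
  | append_singleton z b ih =>
    simp only [List.length_append, List.length_cons, List.length_nil] at h
    have hlen : z.length + (b :: w).length ≤ D := by
      simp only [List.length_cons]; omega
    have h1 := ih (b :: w) hlen
    have hrr : (Rr Λ D (b :: w).length) ^ 2 = Rr Λ D w.length := by
      simp only [List.length_cons]
      exact Rr_succ (by omega)
    rw [hrr] at h1
    rw [List.append_assoc, List.singleton_append]
    refine le_trans h1 ?_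
    have h2 := winF_step_le (D := D) hΛ hA b w
    have h3 := Rr_pos (D := D) hΛ w.length
    have h4 : 0 ≤ Rr Λ D w.length / Λ := by positivity
    calc winF Λ Ac D (b :: w) * (Rr Λ D w.length / Λ)
        ≤ (winF Λ Ac D w * Rr Λ D w.length) * (Rr Λ D w.length / Λ) :=
          mul_le_mul_of_nonneg_right h2 h4
      _ = _ := by ring

lemma winF_ge (hΛ : 1 ≤ Λ) (hA : 0 < Ac) (z w : List Bool) (h : z.length + w.length ≤ D) :
    winF Λ Ac D w / ((Rr Λ D w.length) ^ 2 / Λ) ≤ winF Λ Ac D (z ++ w) := by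
  have hΛ0 : 0 < Λ := by linarith
  induction z using List.reverseRecOn generalizing w with
  | nil =>
    simp only [List.nil_append]
    have h0 := winF_pos (D := D) hΛ hA w
    refine div_le_self h0.le ?_
    rw [one_le_div hΛ0]
    have h1 := Rr_ge (D := D) hΛ w.length
    nlinarith
  | append_singleton z b ih =>
    simp only [List.length_append, List.length_cons, List.length_nil] at h
    have hlen : z.length + (b :: w).length ≤ D := by
      simp only [List.length_cons]; omega
    have h1 := ih (b :: w) hlen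
    have hrr : (Rr Λ D (b :: w).length) ^ 2 = Rr Λ D w.length := by
      simp only [List.length_cons]
      exact Rr_succ (by omega)
    rw [hrr] at h1
    rw [List.append_assoc, List.singleton_append]
    refine le_trans ?_ h1
    have h2 := winF_step_ge (D := D) hΛ hA b w
    have h3 := Rr_pos (D := D) hΛ w.length
    have h5 : 0 < Rr Λ D w.length / Λ := by positivity
    rw [le_div_iff₀ h5]
    have h6 : winF Λ Ac D w / (Rr Λ D w.length ^ 2 / Λ) * (Rr Λ D w.length / Λ)
        = winF Λ Ac D w / Rr Λ D w.length := by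
      field_simp
    rw [h6]
    exact h2

/-- A digit `1` makes all later windows larger by `Λ`. -/
lemma winF_true (hΛ : 1 ≤ Λ) (hA : 0 < Ac) (z w : List Bool) (h : z.length + w.length + 1 ≤ D) :
    Λ * winF Λ Ac D w ≤ winF Λ Ac D (z ++ true :: w) := by
  have hΛ0 : 0 < Λ := by linarith
  have h1 := winF_ge (D := D) hΛ hA z (true :: w) (by simp only [List.length_cons]; omega)
  have hrr : (Rr Λ D (true :: w).length) ^ 2 = Rr Λ D w.length := by
    simp only [List.length_cons]
    exact Rr_succ (by omega)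
  rw [hrr] at h1
  refine le_trans (le_of_eq ?_) h1
  simp only [winF, if_true]
  have h3 := Rr_pos (D := D) hΛ w.length
  field_simp

/-- A digit `0` makes all later windows smaller by `Λ`. -/
lemma winF_false (hΛ : 1 ≤ Λ) (hA : 0 < Ac) (z w : List Bool) (h : z.length + w.length + 1 ≤ D) :
    Λ * winF Λ Ac D (z ++ false :: w) ≤ winF Λ Ac D w := by
  have hΛ0 : 0 < Λ := by linarith
  have h1 := winF_le (D := D) hΛ hA z (false :: w) (by simp only [List.length_cons]; omega)
  have hrr : (Rr Λ D (false :: w).length) ^ 2 = Rr Λ D w.length := by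
    simp only [List.length_cons]
    exact Rr_succ (by omega)
  rw [hrr] at h1
  have h2 : winF Λ Ac D (false :: w) * (Rr Λ D w.length / Λ) = winF Λ Ac D w / Λ := by
    simp only [winF]
    simp only [Bool.false_eq_true, if_false]
    have h3 := Rr_pos (D := D) hΛ w.length
    field_simp
  rw [h2] at h1
  calc Λ * winF Λ Ac D (z ++ false :: w) ≤ Λ * (winF Λ Ac D w / Λ) :=
        mul_le_mul_of_nonneg_left h1 hΛ0.le
    _ = _ := by field_simp

/-- The range of the windows. -/
lemma winF_range (hΛ : 1 ≤ Λ) (hA : 0 < Ac) (w : List Bool) (h : w.length ≤ D) :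
    Ac / ((Rr Λ D 0) ^ 2 / Λ) ≤ winF Λ Ac D w ∧ winF Λ Ac D w ≤ Ac * ((Rr Λ D 0) ^ 2 / Λ) := by
  have h1 := winF_ge (D := D) hΛ hA w [] (by simpa using h)
  have h2 := winF_le (D := D) hΛ hA w [] (by simpa using h)
  simp only [List.append_nil, List.length_nil, winF] at h1 h2
  exact ⟨h1, h2⟩

end

end Vale.Agent.Lib.P072G
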