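import Vale.Agent.Lib.P072G.Closure
import Vale.Agent.Lib.P072G.Window

/-!
Sites: chains of coordinates with digits and levels. Validity, the value of a site, the gap between
distinct centers, and the natural completion of a valid chain.
-/

open Finset

namespace Vale.Agent.Lib.P072G

variable {d : ℕ}

/-- The weight of a flat site with window `A`. -/
noncomputable def EE (A : ℝ) : ℝ := (1 + A) * Real.exp (-A)

/-- The entropy function. -/
noncomputable def ent (t : ℝ) : ℝ := t * Real.log t - t

/-- Parameters of the construction. -/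
structure Par (d : ℕ) where
  D : Finset (Fin d → ℝ)
  win : List Bool → ℝ
  Lam : ℝ
  A0 : ℝ
  Am : ℝ
  kap : ℝ
  hwin_ge : ∀ w : List Bool, w.length ≤ d → A0 ≤ win w
  hwin_le : ∀ w : List Bool, w.length ≤ d → win w ≤ Am
  hwin_true : ∀ z w : List Bool, z.length + w.length + 1 ≤ d → Lam * win w ≤ win (z ++ true :: w)
  hwin_false : ∀ z w : List Bool, z.length + w.length + 1 ≤ d → Lam * win (z ++ false :: w) ≤ win w
  hkap0 : 0 < kap
  hkap1 : kap ≤ 1
  hkap_diff : ∀ V : Finset (Fin d), ∀ c₁ ∈ SS D V, ∀ c₂ ∈ SS D V, ∀ u, (c₁ - c₂) u ≠ 0 →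
    kap ≤ |(c₁ - c₂) u|
  hkap_D : ∀ v ∈ D, ∀ u, v u ≠ 0 → kap ≤ |v u|
  hgap : 6 ≤ kap ^ d * Lam
  hA0 : 8 ≤ A0
  Cc : ℝ
  hC3 : 3 ≤ Cc
  hTail : 8 * (5 * Am + Cc) * ((d : ℝ) + 1) * Real.exp (2 * Cc) ≤ Real.exp (A0 / 2)
  hLam4 : 4 ≤ Lam
  hExpC : 2 * ((d : ℝ) + 1) * (2 * Cc + (d : ℝ) + 2 + 4 * Am) ≤ Real.exp Cc
  hTieSum : ((d : ℝ) + 1) * Lam ≤ Real.exp (3 * A0)
  hEEsum : ((d : ℝ) + 1) * (1 + A0) ≤ Real.exp A0
  NN : ℝ
  dl : ℝ
  hNN : ∀ v ∈ D, ∑ i, |v i| ≤ NN
  hNN0 : 0 ≤ NN
  hdl0 : 0 ≤ dl
  hLamN : 4 * NN ≤ kap * Lam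
  hA0big : dl + (kap + NN) * (Cc + (d : ℝ)) ≤ (kap / 2) * A0

/-- The set of coordinates of a chain; the newest entry is the head. -/
def coords (l : List (Fin d × Bool)) : Finset (Fin d) := (l.map Prod.fst).toFinset

/-- The digits of a chain. -/
def word (l : List (Fin d × Bool)) : List Bool := l.map Prod.snd

/-- The weight of an entry with digit `b` after the word `w`. -/
noncomputable def wgt (P : Par d) (b : Bool) (w : List Bool) : ℝ := if b then EE (P.win w) else 1

/-- Conditions on a new entry `(a, b)` after the chain `l`. -/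
structure StepOK (P : Par d) (q : Fin d → ℝ) (l : List (Fin d × Bool)) (a : Fin d) (b : Bool) :
    Prop where
  sorted : ∀ e ∈ l.head?, q a ≤ q e.1
  flat : b = true → ∃ c ∈ SS P.D (coords l), q a = ev c q
  nonflat : b = false → ∀ c ∈ SS P.D (coords l),
    q a ≤ ev c q - P.win (word l) / 2 ∨ ev c q + 2 * P.win (word l) ≤ q a

/-- Validity of a chain with levels `q`. -/
def Valid (P : Par d) (q : Fin d → ℝ) : List (Fin d × Bool) → Prop
  | [] => True
  | e :: l => Valid P q l ∧ e.1 ∉ coords l ∧ StepOK P q l e.1 e.2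

/-- The value of a chain with levels `q` at the point `x`. -/
noncomputable def GG (P : Par d) (x q : Fin d → ℝ) : List (Fin d × Bool) → ℝ
  | [] => 0
  | e :: l => GG P x q l + (q e.1 * x e.1 - wgt P e.2 (word l) * Real.exp (q e.1))

@[simp] lemma coords_nil : coords ([] : List (Fin d × Bool)) = ∅ := rfl

@[simp] lemma coords_cons (e : Fin d × Bool) (l : List (Fin d × Bool)) :
    coords (e :: l) = insert e.1 (coords l) := by
  simp [coords]

@[simp] lemma word_nil : word ([] : List (Fin d × Bool)) = [] := rfl

@[simp] lemma word_cons (e : Fin d × Bool) (l : List (Fin d × Bool)) :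
    word (e :: l) = e.2 :: word l := rfl

lemma coords_append (l₁ l₂ : List (Fin d × Bool)) :
    coords (l₁ ++ l₂) = coords l₁ ∪ coords l₂ := by
  simp [coords, List.toFinset_append]

lemma word_append (l₁ l₂ : List (Fin d × Bool)) :
    word (l₁ ++ l₂) = word l₁ ++ word l₂ := by
  simp [word]

@[simp] lemma word_length (l : List (Fin d × Bool)) : (word l).length = l.length := by
  simp [word]

lemma head_mem_coords {l : List (Fin d × Bool)} {e : Fin d × Bool} (h : e ∈ l.head?) :
    e.1 ∈ coords l := by
  cases l with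
  | nil => simp at h
  | cons e' l' =>
    simp only [List.head?_cons, Option.mem_def, Option.some.injEq] at h
    subst h
    simp

lemma valid_length {P : Par d} {q : Fin d → ℝ} {l : List (Fin d × Bool)} (h : Valid P q l) :
    l.length = (coords l).card := by
  induction l with
  | nil => simp
  | cons e l ih =>
    simp only [Valid] at h
    simp only [List.length_cons, coords_cons]
    rw [Finset.card_insert_of_notMem h.2.1, ih h.1]

lemma valid_length_le {P : Par d} {q : Fin d → ℝ} {l : List (Fin d × Bool)} (h : Valid P q l) :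
    l.length ≤ d := by
  rw [valid_length h]
  calc (coords l).card ≤ (Finset.univ : Finset (Fin d)).card := Finset.card_le_univ _
    _ = d := by simp

lemma valid_append_right {P : Par d} {q : Fin d → ℝ} {l₀ l : List (Fin d × Bool)}
    (h : Valid P q (l₀ ++ l)) : Valid P q l := by
  induction l₀ with
  | nil => simpa using h
  | cons e l₀ ih =>
    simp only [List.cons_append, Valid] at h
    exact ih h.1

/-- Validity only depends on the levels of the coordinates of the chain. -/
lemma Valid_congr {P : Par d} {q q' : Fin d → ℝ} {l : List (Fin d × Bool)}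
    (h : ∀ i ∈ coords l, q i = q' i) (hv : Valid P q l) : Valid P q' l := by
  induction l with
  | nil => trivial
  | cons e l ih =>
    simp only [Valid] at hv ⊢
    have hsub : ∀ i ∈ coords l, q i = q' i := fun i hi =>
      h i (by simp only [coords_cons]; exact Finset.mem_insert_of_mem hi)
    have hee : q e.1 = q' e.1 := h e.1 (by simp)
    have hev : ∀ c ∈ SS P.D (coords l), ev c q = ev c q' := fun c hc =>
      ev_congr (SS_supp P.D hc) hsub
    refine ⟨ih hsub hv.1, hv.2.1, ?_, ?_, ?_⟩
    · intro e' he'
      rw [← hee, ← hsub e'.1 (head_mem_coords he')]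
      exact hv.2.2.sorted e' he'
    · intro hb
      obtain ⟨c, hc, hqc⟩ := hv.2.2.flat hb
      exact ⟨c, hc, by rw [← hee, hqc, hev c hc]⟩
    · intro hb c hc
      have := hv.2.2.nonflat hb c hc
      rw [← hee, ← hev c hc]
      exact this

lemma GG_congr (P : Par d) (x : Fin d → ℝ) {q q' : Fin d → ℝ} {l : List (Fin d × Bool)}
    (h : ∀ i ∈ coords l, q i = q' i) : GG P x q l = GG P x q' l := by
  induction l with
  | nil => rfl
  | cons e l ih =>
    simp only [GG]
    rw [ih fun i hi => h i (by simp only [coords_cons]; exact Finset.mem_insert_of_mem hi),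
      h e.1 (by simp)]

/-- Find the newest entry on which `f` does not vanish. -/
lemma exists_split (f : Fin d → ℝ) (l : List (Fin d × Bool)) (h : ∃ i ∈ coords l, f i ≠ 0) :
    ∃ l₀ u b l', l = l₀ ++ (u, b) :: l' ∧ f u ≠ 0 ∧ ∀ i ∈ coords l₀, f i = 0 := by
  induction l with
  | nil => simp at h
  | cons e l ih =>
    by_cases he : f e.1 ≠ 0
    · exact ⟨[], e.1, e.2, l, rfl, he, by simp⟩
    · push Not at he
      have h' : ∃ i ∈ coords l, f i ≠ 0 := by
        obtain ⟨i, hi, hfi⟩ := h
        simp only [coords_cons, Finset.mem_insert] at hi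
        rcases hi with rfl | hi
        · exact absurd he hfi
        · exact ⟨i, hi, hfi⟩
      obtain ⟨l₀, u, b, l', hl, hu, h0⟩ := ih h'
      refine ⟨e :: l₀, u, b, l', by simp [hl], hu, ?_⟩
      intro i hi
      simp only [coords_cons, Finset.mem_insert] at hi
      rcases hi with rfl | hi
      · exact he
      · exact h0 i hi

lemma gap_aux (P : Par d) (q : Fin d → ℝ) (n : ℕ) : ∀ l : List (Fin d × Bool), l.length ≤ n →
    Valid P q l → ∀ c₁ ∈ SS P.D (coords l), ∀ c₂ ∈ SS P.D (coords l), ev c₁ q ≠ ev c₂ q →
    ∃ z w, word l = z ++ false :: w ∧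
      P.kap ^ l.length * (P.win w / 2) ≤ |ev c₁ q - ev c₂ q| := by
  have hk0 := P.hkap0
  have hk1 := P.hkap1
  induction n with
  | zero =>
    intro l hl _ c₁ h₁ c₂ h₂ hne
    have : l = [] := List.length_eq_zero_iff.1 (by omega)
    subst this
    exfalso
    apply hne
    rw [ev_congr (q' := 0) (SS_supp P.D h₁) (by simp), ev_congr (q' := 0) (SS_supp P.D h₂) (by simp)]
    simp [ev]
  | succ n ih =>
    intro l hl hv c₁ h₁ c₂ h₂ hne
    have hsub : ev (c₁ - c₂) q ≠ 0 := by
      rw [ev_sub]; exact sub_ne_zero.2 hne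
    have hex : ∃ i ∈ coords l, (c₁ - c₂) i ≠ 0 := by
      by_contra hno
      push Not at hno
      apply hsub
      unfold ev
      refine Finset.sum_eq_zero fun i _ => ?_
      by_cases hi : i ∈ coords l
      · rw [hno i hi]; simp
      · have h3 : c₁ i = 0 := by
          by_contra h
          exact hi (SS_supp P.D h₁ i h)
        have h4 : c₂ i = 0 := by
          by_contra h
          exact hi (SS_supp P.D h₂ i h)
        simp [h3, h4]
    obtain ⟨l₀, u, b, l', hl', hu, h0⟩ := exists_split (c₁ - c₂) l hex
    subst hl'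
    have hv' : Valid P q ((u, b) :: l') := valid_append_right hv
    have hvl' : Valid P q l' := hv'.1
    have huU : u ∉ coords l' := hv'.2.1
    have hstep : StepOK P q l' u b := hv'.2.2
    have hlen : (l₀ ++ (u, b) :: l').length = l₀.length + l'.length + 1 := by
      simp; omega
    have hV : coords l' ⊂ coords (l₀ ++ (u, b) :: l') := by
      rw [Finset.ssubset_iff_of_subset]
      · exact ⟨u, by simp [coords_append], huU⟩
      · intro i hi
        simp only [coords_append, coords_cons, Finset.mem_union, Finset.mem_insert]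
        exact Or.inr (Or.inr hi)
    have hsup : ∀ i, (c₁ - c₂) i ≠ 0 → i = u ∨ i ∈ coords l' := by
      intro i hi
      have hi' : i ∈ coords (l₀ ++ (u, b) :: l') := by
        by_contra hn
        have h3 : c₁ i = 0 := by
          by_contra h
          exact hn (SS_supp P.D h₁ i h)
        have h4 : c₂ i = 0 := by
          by_contra h
          exact hn (SS_supp P.D h₂ i h)
        apply hi
        simp [h3, h4]
      simp only [coords_append, coords_cons, Finset.mem_union, Finset.mem_insert] at hi'
      rcases hi' with hi' | hi' | hi'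
      · exact absurd (h0 i hi') hi
      · exact Or.inl hi'
      · exact Or.inr hi'
    have hc' : elim (c₁ - c₂) u ∈ SS P.D (coords l') :=
      SS_elim P.D hV (by simp [coords_append]) huU h₁ h₂ hsup hu
    have hev := ev_elim (c₁ - c₂) q u hu
    have hkapu : P.kap ≤ |(c₁ - c₂) u| := P.hkap_diff _ c₁ h₁ c₂ h₂ u hu
    rw [ev_sub] at hev
    have hpowle : P.kap ^ (l₀ ++ (u, b) :: l').length ≤ P.kap * P.kap ^ l'.length := by
      rw [hlen, ← pow_succ']
      exact pow_le_pow_of_le_one hk0.le hk1 (by omega)
    cases b with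
    | false =>
      refine ⟨word l₀, word l', by simp [word_append], ?_⟩
      have hnf := hstep.nonflat rfl _ hc'
      have hwp : 0 ≤ P.win (word l') := by
        have := P.hwin_ge (word l') (by simp; exact valid_length_le hvl')
        linarith [P.hA0]
      have habs : P.win (word l') / 2 ≤ |q u - ev (elim (c₁ - c₂) u) q| := by
        rcases hnf with h | h
        · rw [abs_of_nonpos (by linarith)]; linarith
        · rw [abs_of_nonneg (by linarith)]; linarith
      rw [hev, abs_mul]
      calc P.kap ^ (l₀ ++ (u, false) :: l').length * (P.win (word l') / 2)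
          ≤ P.kap * 1 * (P.win (word l') / 2) := by
            refine mul_le_mul_of_nonneg_right ?_ (by linarith)
            refine le_trans hpowle (mul_le_mul_of_nonneg_left ?_ hk0.le)
            exact pow_le_one₀ hk0.le hk1
        _ ≤ |(c₁ - c₂) u| * |q u - ev (elim (c₁ - c₂) u) q| := by
            rw [mul_one]
            exact mul_le_mul hkapu habs (by linarith) (abs_nonneg _)
    | true =>
      obtain ⟨c'', hc'', hqu⟩ := hstep.flat rfl
      have hne' : ev c'' q ≠ ev (elim (c₁ - c₂) u) q := by
        intro heq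
        apply hsub
        rw [ev_sub, hev, hqu, heq]
        simp
      obtain ⟨z, w, hw, hb⟩ := ih l' (by omega) hvl' c'' hc'' _ hc' hne'
      refine ⟨word l₀ ++ true :: z, w, by simp [word_append, hw], ?_⟩
      rw [hev, hqu, abs_mul]
      have hw0 : 0 ≤ P.win w / 2 := by
        have h5 : (word l').length = z.length + w.length + 1 := by rw [hw]; simp; omega
        have h6 : (word l').length ≤ d := by simpa using valid_length_le hvl'
        have := P.hwin_ge w (by omega)
        linarith [P.hA0]
      have hwp : 0 ≤ P.kap ^ l'.length * (P.win w / 2) := by positivity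
      calc P.kap ^ (l₀ ++ (u, true) :: l').length * (P.win w / 2)
          ≤ (P.kap * P.kap ^ l'.length) * (P.win w / 2) :=
            mul_le_mul_of_nonneg_right hpowle hw0
        _ = P.kap * (P.kap ^ l'.length * (P.win w / 2)) := by ring
        _ ≤ |(c₁ - c₂) u| * |ev c'' q - ev (elim (c₁ - c₂) u) q| :=
            mul_le_mul hkapu hb hwp (abs_nonneg _)

/-- Two centers with distinct values differ by at least three times the current window. -/
lemma gap (P : Par d) {q : Fin d → ℝ} {l : List (Fin d × Bool)} (hv : Valid P q l)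
    {c₁ c₂ : Fin d → ℝ} (h₁ : c₁ ∈ SS P.D (coords l)) (h₂ : c₂ ∈ SS P.D (coords l))
    (hne : ev c₁ q ≠ ev c₂ q) : 3 * P.win (word l) ≤ |ev c₁ q - ev c₂ q| := by
  obtain ⟨z, w, hw, hb⟩ := gap_aux P q _ l le_rfl hv c₁ h₁ c₂ h₂ hne
  have hlen : z.length + w.length + 1 ≤ d := by
    have h1 : (word l).length = z.length + w.length + 1 := by rw [hw]; simp; omega
    have h2 := valid_length_le hv
    simp only [word_length] at h1
    omega
  have hf := P.hwin_false z w hlen
  rw [← hw] at hf
  have hwl0 : 0 ≤ P.win (word l) := by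
    have := P.hwin_ge (word l) (by simpa using valid_length_le hv)
    linarith [P.hA0]
  have hk0 := P.hkap0
  have hk1 := P.hkap1
  have hpow : P.kap ^ d ≤ P.kap ^ l.length :=
    pow_le_pow_of_le_one hk0.le hk1 (valid_length_le hv)
  have hgap := P.hgap
  have hLam : 0 ≤ P.Lam := by
    by_contra hn
    push Not at hn
    have : P.kap ^ d * P.Lam < 0 := mul_neg_of_pos_of_neg (by positivity) hn
    linarith
  calc 3 * P.win (word l) = 6 * (P.win (word l) / 2) := by ring
    _ ≤ (P.kap ^ d * P.Lam) * (P.win (word l) / 2) :=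
        mul_le_mul_of_nonneg_right hgap (by linarith)
    _ = P.kap ^ d * ((P.Lam * P.win (word l)) / 2) := by ring
    _ ≤ P.kap ^ l.length * (P.win w / 2) := by
        refine mul_le_mul hpow (by linarith) (by positivity) (by positivity)
    _ ≤ _ := hb

/-- Upper bound of one term of a site by the entropy. -/
lemma term_le_ent {x p ω B : ℝ} (hx : 0 < x) (hω : 0 < ω) (hB : - Real.log ω ≤ B) :
    p * x - ω * Real.exp p ≤ ent x + B * x := by
  have h1 := Real.add_one_le_exp (p + Real.log ω - Real.log x)
  have h2 : Real.exp (p + Real.log ω - Real.log x) = ω * Real.exp p / x := by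
    rw [Real.exp_sub, Real.exp_add, Real.exp_log hω, Real.exp_log hx]
    ring
  rw [h2, le_div_iff₀ hx] at h1
  unfold ent
  nlinarith

lemma EE_pos {A : ℝ} (hA : 0 ≤ A) : 0 < EE A := by
  unfold EE
  have := Real.exp_pos (-A)
  positivity

lemma EE_le_one {A : ℝ} (hA : 0 ≤ A) : EE A ≤ 1 := by
  unfold EE
  have h1 := Real.add_one_le_exp A
  have h2 : Real.exp (-A) * Real.exp A = 1 := by
    rw [← Real.exp_add]; simp
  have h3 := Real.exp_pos (-A)
  nlinarith

lemma log_EE_ge {A : ℝ} (hA : 0 ≤ A) : - Real.log (EE A) ≤ A := by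
  unfold EE
  rw [Real.log_mul (by linarith) (Real.exp_pos _).ne', Real.log_exp]
  have : 0 ≤ Real.log (1 + A) := Real.log_nonneg (by linarith)
  linarith

section natural

variable (P : Par d)

lemma wgt_term_le {x : ℝ} (hx : 0 < x) {w : List Bool} (hw : w.length ≤ d) (b : Bool) (p : ℝ) :
    p * x - wgt P b w * Real.exp p ≤ ent x + P.Am * x := by
  have hA0 := P.hA0
  have h1 := P.hwin_ge w hw
  have h2 := P.hwin_le w hw
  cases b with
  | true =>
    simp only [wgt, if_true]
    refine term_le_ent hx (EE_pos (by linarith)) ?_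
    exact le_trans (log_EE_ge (by linarith)) h2
  | false =>
    simp only [wgt, Bool.false_eq_true, if_false]
    refine term_le_ent hx one_pos ?_
    simp only [Real.log_one, neg_zero]
    linarith

/-- Upper bound for the value of the new part of a chain. -/
lemma GG_tail_le {x q : Fin d → ℝ} (hx : ∀ i, 0 < x i) (T l : List (Fin d × Bool))
    (hv : Valid P q (T ++ l)) :
    GG P x q (T ++ l) ≤ GG P x q l + ∑ i ∈ coords T, (ent (x i) + P.Am * x i) := by
  induction T with
  | nil => simp
  | cons e T ih =>
    simp only [List.cons_append, Valid] at hv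
    simp only [List.cons_append, GG, coords_cons]
    have h1 := ih hv.1
    have hnot : e.1 ∉ coords T := fun h =>
      hv.2.1 (by rw [coords_append]; exact Finset.mem_union_left _ h)
    rw [Finset.sum_insert hnot]
    have hlen : (word (T ++ l)).length ≤ d := by simpa using valid_length_le hv.1
    have h2 := wgt_term_le P (hx e.1) hlen e.2 (q e.1)
    linarith

/-- Cost of a flat site. -/
lemma flat_term {x c A T Am : ℝ} (hx : 0 < x) (hA : 0 ≤ A) (hA2 : A ≤ 2 * Am)
    (h1 : c - A ≤ Real.log x) (h2 : Real.log x ≤ c + T) :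
    ent x - (T + 2 * Am) * x ≤ c * x - EE A * Real.exp c := by
  have h3 : EE A * Real.exp c ≤ (1 + A) * x := by
    unfold EE
    have h4 : Real.exp (-A) * Real.exp c ≤ x := by
      rw [← Real.exp_add]
      calc Real.exp (-A + c) ≤ Real.exp (Real.log x) := Real.exp_le_exp.2 (by linarith)
        _ = x := Real.exp_log hx
    calc (1 + A) * Real.exp (-A) * Real.exp c = (1 + A) * (Real.exp (-A) * Real.exp c) := by ring
      _ ≤ (1 + A) * x := mul_le_mul_of_nonneg_left h4 (by linarith)
  unfold ent
  have h5 : x * Real.log x ≤ x * (c + T) := mul_le_mul_of_nonneg_left h2 hx.le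
  have h6 : A * x ≤ 2 * Am * x := mul_le_mul_of_nonneg_right hA2 hx.le
  nlinarith

/-- One step of the natural completion. -/
lemma natural_step {x : Fin d → ℝ} (hx : ∀ i, 0 < x i) {T : ℝ} (hT : 2 * P.Am ≤ T)
    {q : Fin d → ℝ} {l : List (Fin d × Bool)} (hv : Valid P q l) {a : Fin d} (ha : a ∉ coords l)
    (hhead : ∀ e ∈ l.head?, Real.log (x a) ≤ q e.1 + T) :
    ∃ (p : ℝ) (b : Bool), Valid P (Function.update q a p) ((a, b) :: l) ∧
      Real.log (x a) ≤ p + T ∧
      ent (x a) - (T + 2 * P.Am) * x a ≤ p * x a - wgt P b (word l) * Real.exp p := by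
  classical
  have hlen : (word l).length ≤ d := by simpa using valid_length_le hv
  have hA1 := P.hwin_ge (word l) hlen
  have hA2 := P.hwin_le (word l) hlen
  have hA0 := P.hA0
  obtain ⟨A, hA⟩ : ∃ A, A = P.win (word l) := ⟨_, rfl⟩
  rw [← hA] at hA1 hA2
  have hAm : A ≤ 2 * P.Am := by linarith
  have hT0 : 0 ≤ T := by linarith
  have hxa := hx a
  have hcongr : ∀ p : ℝ, ∀ i ∈ coords l, q i = Function.update q a p i := by
    intro p i hi
    rw [Function.update_of_ne]
    rintro rfl
    exact ha hi
  have hvu : ∀ p : ℝ, Valid P (Function.update q a p) l := fun p => Valid_congr (hcongr p) hv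
  have hevu : ∀ p : ℝ, ∀ c ∈ SS P.D (coords l), ev c (Function.update q a p) = ev c q :=
    fun p c hc => (ev_congr (SS_supp P.D hc) (hcongr p)).symm
  -- building the step
  have hval : ∀ (p : ℝ) (b : Bool), (∀ e ∈ l.head?, p ≤ q e.1) →
      (b = true → ∃ c ∈ SS P.D (coords l), p = ev c q) →
      (b = false → ∀ c ∈ SS P.D (coords l), p ≤ ev c q - A / 2 ∨ ev c q + 2 * A ≤ p) →
      Valid P (Function.update q a p) ((a, b) :: l) := by
    intro p b h1 h2 h3
    refine ⟨hvu p, ha, ?_, ?_, ?_⟩
    · intro e he
      simp only [Function.update_self]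
      rw [← hcongr p e.1 (head_mem_coords he)]
      exact h1 e he
    · intro hb
      obtain ⟨c, hc, hpc⟩ := h2 hb
      exact ⟨c, hc, by simp only [Function.update_self]; rw [hevu p c hc]; exact hpc⟩
    · intro hb c hc
      simp only [Function.update_self]
      rw [hevu p c hc, ← hA]
      exact h3 hb c hc
  by_cases hc : ∃ c ∈ SS P.D (coords l), (∀ e ∈ l.head?, ev c q ≤ q e.1) ∧
      ev c q - A + 2 ≤ Real.log (x a) ∧ Real.log (x a) < ev c q + 2 * A
  · -- flat at a center
    obtain ⟨c, hcS, hcle, hc1, hc2⟩ := hc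
    refine ⟨ev c q, true, hval _ _ hcle (fun _ => ⟨c, hcS, rfl⟩) (by simp), by linarith, ?_⟩
    simp only [wgt, if_true, ← hA]
    exact flat_term hxa (by linarith) hAm (by linarith) (by linarith)
  by_cases htie : ∃ e ∈ l.head?, q e.1 ≤ Real.log (x a)
  · -- tie with the last coordinate
    obtain ⟨e, he, hle⟩ := htie
    have heU := head_mem_coords he
    refine ⟨q e.1, true, hval _ _ ?_ (fun _ => ⟨Pi.single e.1 1, SS_tie P.D heU, (ev_single _ _).symm⟩)
      (by simp), hhead e he, ?_⟩
    · intro e' he'
      have : e' = e := by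
        rw [Option.mem_def] at he he'
        rw [he] at he'
        exact (Option.some.inj he').symm
      rw [this]
    · simp only [wgt, if_true, ← hA]
      exact flat_term hxa (by linarith) hAm (by linarith) (hhead e he)
  · -- non-flat
    push Not at hc htie
    refine ⟨Real.log (x a), false, hval _ _ ?_ (by simp) ?_, by linarith, ?_⟩
    · intro e he
      exact (htie e he).le
    · intro _ c hcS
      by_cases hle : ∀ e ∈ l.head?, ev c q ≤ q e.1
      · by_cases hw : ev c q - A + 2 ≤ Real.log (x a)
        · right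
          have := hc c hcS hle hw
          linarith
        · left
          push Not at hw
          linarith
      · push Not at hle
        obtain ⟨e, he, hlt⟩ := hle
        left
        have heU := head_mem_coords he
        have hg := gap P hv hcS (SS_tie P.D heU) (by
          rw [ev_single]; exact hlt.ne')
        rw [ev_single, abs_of_pos (by linarith), ← hA] at hg
        have := htie e he
        linarith
    · simp only [wgt, Bool.false_eq_true, if_false, Real.exp_log hxa, ent, one_mul]
      have : 0 ≤ (T + 2 * P.Am) * x a := by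
        have : 0 ≤ P.Am := by linarith
        positivity
      nlinarith

/-- The natural completion of a valid chain. -/
theorem natural {x : Fin d → ℝ} (hx : ∀ i, 0 < x i) {T : ℝ} (hT : 2 * P.Am ≤ T) (n : ℕ) :
    ∀ (R : Finset (Fin d)), R.card = n → ∀ (q : Fin d → ℝ) (l : List (Fin d × Bool)), Valid P q l →
    Disjoint R (coords l) → (∀ i ∈ R, ∀ e ∈ l.head?, Real.log (x i) ≤ q e.1 + T) →
    ∃ (q' : Fin d → ℝ) (l' : List (Fin d × Bool)), Valid P q' (l' ++ l) ∧
      (∀ i ∈ coords l, q' i = q i) ∧ coords (l' ++ l) = coords l ∪ R ∧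
      GG P x q l + ∑ i ∈ R, (ent (x i) - (T + 2 * P.Am) * x i) ≤ GG P x q' (l' ++ l) := by
  classical
  induction n with
  | zero =>
    intro R hR q l hv _ _
    have : R = ∅ := Finset.card_eq_zero.1 hR
    subst this
    exact ⟨q, [], hv, fun _ _ => rfl, by simp, by simp⟩
  | succ n ih =>
    intro R hR q l hv hdis hhead
    have hne : R.Nonempty := by
      rw [← Finset.card_pos]; omega
    obtain ⟨a, haR, hamax⟩ := Finset.exists_max_image R (fun i => Real.log (x i)) hne
    have ha : a ∉ coords l := Finset.disjoint_left.1 hdis haR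
    obtain ⟨p, b, hv₁, hp, hterm⟩ := natural_step P hx hT hv ha (hhead a haR)
    obtain ⟨q₁, hq₁⟩ : ∃ q₁, q₁ = Function.update q a p := ⟨_, rfl⟩
    rw [← hq₁] at hv₁
    have hq₁a : q₁ a = p := by rw [hq₁]; simp
    have hq₁o : ∀ i ∈ coords l, q₁ i = q i := by
      intro i hi
      rw [hq₁, Function.update_of_ne]
      rintro rfl
      exact ha hi
    have hcardR : (R.erase a).card = n := by
      rw [Finset.card_erase_of_mem haR]; omega
    have hdis' : Disjoint (R.erase a) (coords ((a, b) :: l)) := by
      rw [Finset.disjoint_left]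
      intro i hi
      simp only [coords_cons, Finset.mem_insert, not_or]
      refine ⟨Finset.ne_of_mem_erase hi, ?_⟩
      exact Finset.disjoint_left.1 hdis (Finset.mem_of_mem_erase hi)
    have hhead' : ∀ i ∈ R.erase a, ∀ e ∈ ((a, b) :: l).head?, Real.log (x i) ≤ q₁ e.1 + T := by
      intro i hi e he
      simp only [List.head?_cons, Option.mem_def, Option.some.injEq] at he
      subst he
      simp only [hq₁a]
      exact le_trans (hamax i (Finset.mem_of_mem_erase hi)) hp
    obtain ⟨q', l', hv', hq', hcoords, hG⟩ := ih (R.erase a) hcardR q₁ _ hv₁ hdis' hhead'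
    refine ⟨q', l' ++ [(a, b)], ?_, ?_, ?_, ?_⟩
    · simpa using hv'
    · intro i hi
      rw [hq' i (by simp only [coords_cons]; exact Finset.mem_insert_of_mem hi), hq₁o i hi]
    · have : l' ++ [(a, b)] ++ l = l' ++ (a, b) :: l := by simp
      rw [this, hcoords]
      ext i
      simp only [coords_cons, Finset.mem_union, Finset.mem_insert, Finset.mem_erase]
      constructor
      · rintro ((rfl | h) | ⟨_, h⟩)
        · exact Or.inr haR
        · exact Or.inl h
        · exact Or.inr h
      · rintro (h | h)
        · exact Or.inl (Or.inr h)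
        · by_cases hia : i = a
          · exact Or.inl (Or.inl hia)
          · exact Or.inr ⟨hia, h⟩
    · have : l' ++ [(a, b)] ++ l = l' ++ (a, b) :: l := by simp
      rw [this]
      refine le_trans ?_ hG
      simp only [GG]
      have hG' : GG P x q₁ l = GG P x q l := GG_congr P x hq₁o
      rw [hG', hq₁a, ← Finset.add_sum_erase R _ haR]
      linarith

end natural

end Vale.Agent.Lib.P072G
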