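import Vale.Agent.Lib.P072G.Site

/-!
Runs of tied coordinates, their values, and the comparison of a maximal site with its competitors.
-/

open Finset

namespace Vale.Agent.Lib.P072G

variable {d : ℕ} (P : Par d)

/-- Total weight of `n` tied coordinates after the word `w`. -/
noncomputable def tieOm (w : List Bool) : ℕ → ℝ
  | 0 => 0
  | n + 1 => tieOm w n + EE (P.win (List.replicate n true ++ w))

/-- Total weight of a block with `n` tied coordinates after its first coordinate. -/
noncomputable def OmB (b : Bool) (w : List Bool) (n : ℕ) : ℝ := wgt P b w + tieOm P (b :: w) n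

/-- Entries tied with the chain `Q`, the newest first. -/
def ties (t : List (Fin d)) (Q : List (Fin d × Bool)) : List (Fin d × Bool) :=
  t.map (fun i => (i, true)) ++ Q

@[simp] lemma ties_nil (Q : List (Fin d × Bool)) : ties [] Q = Q := rfl

@[simp] lemma ties_cons (i : Fin d) (t : List (Fin d)) (Q : List (Fin d × Bool)) :
    ties (i :: t) Q = (i, true) :: ties t Q := rfl

lemma word_ties (t : List (Fin d)) (Q : List (Fin d × Bool)) :
    word (ties t Q) = List.replicate t.length true ++ word Q := by
  induction t with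
  | nil => simp
  | cons i t ih =>
    simp only [ties_cons, word_cons, ih, List.length_cons, List.replicate_succ, List.cons_append]

lemma coords_ties (t : List (Fin d)) (Q : List (Fin d × Bool)) :
    coords (ties t Q) = t.toFinset ∪ coords Q := by
  classical
  induction t with
  | nil => simp
  | cons i t ih =>
    simp only [ties_cons, coords_cons, ih, List.toFinset_cons, Finset.insert_union]

lemma GG_ties (x q : Fin d → ℝ) {t : List (Fin d)} {Q : List (Fin d × Bool)} {L : ℝ}
    (ht : t.Nodup) (hq : ∀ i ∈ t, q i = L) :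
    GG P x q (ties t Q) = GG P x q Q + L * (∑ i ∈ t.toFinset, x i) -
      tieOm P (word Q) t.length * Real.exp L := by
  classical
  induction t with
  | nil => simp [tieOm]
  | cons i t ih =>
    have hnd := List.nodup_cons.1 ht
    have hqi : q i = L := hq i (by simp)
    simp only [ties_cons, GG, List.toFinset_cons, List.length_cons, tieOm, wgt, if_true, word_ties]
    rw [ih hnd.2 (fun j hj => hq j (by simp [hj])), Finset.sum_insert (by simpa using hnd.1), hqi]
    ring

lemma valid_ties {q : Fin d → ℝ} {t : List (Fin d)} {Q : List (Fin d × Bool)} {L : ℝ}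
    (hQ : Valid P q Q) (hhead : ∃ e ∈ Q.head?, q e.1 = L) (ht : t.Nodup) (hq : ∀ i ∈ t, q i = L)
    (hdis : ∀ i ∈ t, i ∉ coords Q) : Valid P q (ties t Q) := by
  classical
  induction t with
  | nil => simpa using hQ
  | cons i t ih =>
    have hnd := List.nodup_cons.1 ht
    have hqi : q i = L := hq i (by simp)
    have ih' := ih hnd.2 (fun j hj => hq j (by simp [hj])) (fun j hj => hdis j (by simp [hj]))
    simp only [ties_cons, Valid]
    refine ⟨ih', ?_, ?_, ?_, ?_⟩
    · simp only [coords_ties, Finset.mem_union, List.mem_toFinset, not_or]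
      exact ⟨hnd.1, hdis i (by simp)⟩
    · intro e he
      cases t with
      | nil =>
        simp only [ties_nil] at he
        obtain ⟨e₀, he₀, hL⟩ := hhead
        have : e = e₀ := by
          rw [Option.mem_def] at he he₀
          rw [he] at he₀
          exact Option.some.inj he₀
        rw [this, hL, hqi]
      | cons j t =>
        simp only [ties_cons, List.head?_cons, Option.mem_def, Option.some.injEq] at he
        subst he
        simp only
        rw [hqi, hq j (by simp)]
    · intro _
      obtain ⟨e₀, he₀, hL⟩ := hhead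
      have hin : e₀.1 ∈ coords (ties t Q) := by
        rw [coords_ties]
        exact Finset.mem_union_right _ (head_mem_coords he₀)
      refine ⟨Pi.single e₀.1 1, SS_tie P.D hin, ?_⟩
      rw [ev_single, hqi, hL]
    · simp

/-- The conditions on a level `L` and a digit `b` after the chain `l`. -/
structure LvlOK (q : Fin d → ℝ) (l : List (Fin d × Bool)) (L : ℝ) (b : Bool) : Prop where
  sorted : ∀ e ∈ l.head?, L ≤ q e.1
  flat : b = true → ∃ c ∈ SS P.D (coords l), L = ev c q
  nonflat : b = false → ∀ c ∈ SS P.D (coords l),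
    L ≤ ev c q - P.win (word l) / 2 ∨ ev c q + 2 * P.win (word l) ≤ L

lemma lvlOK_of_step {q : Fin d → ℝ} {l : List (Fin d × Bool)} {a : Fin d} {b : Bool}
    (h : StepOK P q l a b) : LvlOK P q l (q a) b :=
  ⟨h.sorted, h.flat, h.nonflat⟩

/-- The levels `q` changed to `L` on the set `I`. -/
noncomputable def setLev (q : Fin d → ℝ) (I : Finset (Fin d)) (L : ℝ) : Fin d → ℝ :=
  fun i => if i ∈ I then L else q i

lemma setLev_mem (q : Fin d → ℝ) {I : Finset (Fin d)} (L : ℝ) {i : Fin d} (h : i ∈ I) :
    setLev q I L i = L := by simp [setLev, h]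

lemma setLev_not_mem (q : Fin d → ℝ) {I : Finset (Fin d)} (L : ℝ) {i : Fin d} (h : i ∉ I) :
    setLev q I L i = q i := by simp [setLev, h]

/-- A block at level `L` on a nonempty set `I`, on top of the valid chain `l`. -/
lemma exists_block {q : Fin d → ℝ} {l : List (Fin d × Bool)} (hv : Valid P q l) {L : ℝ} {b : Bool}
    (hL : LvlOK P q l L b) {I : Finset (Fin d)} (hI : I.Nonempty)
    (hdis : Disjoint I (coords l)) (x : Fin d → ℝ) :
    ∃ l₂ : List (Fin d × Bool), Valid P (setLev q I L) l₂ ∧ coords l₂ = I ∪ coords l ∧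
      word l₂ = List.replicate (I.card - 1) true ++ b :: word l ∧
      (∃ e ∈ l₂.head?, e.1 ∈ I) ∧
      GG P x (setLev q I L) l₂ = GG P x q l + L * (∑ i ∈ I, x i) -
        OmB P b (word l) (I.card - 1) * Real.exp L := by
  classical
  obtain ⟨q₂, hq₂⟩ : ∃ q₂, q₂ = setLev q I L := ⟨_, rfl⟩
  have hq₂o : ∀ i ∈ coords l, q i = q₂ i := by
    intro i hi
    rw [hq₂, setLev_not_mem]
    exact fun h => Finset.disjoint_left.1 hdis h hi
  have hq₂I : ∀ i ∈ I, q₂ i = L := fun i hi => by rw [hq₂, setLev_mem _ _ hi]
  have hv₂ : Valid P q₂ l := Valid_congr hq₂o hv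
  have hlist : I.toList ≠ [] := by
    intro h
    have : I = ∅ := Finset.toList_eq_nil.1 h
    simp [this] at hI
  obtain ⟨a, t, hat⟩ : ∃ a t, I.toList = a :: t := List.exists_cons_of_ne_nil hlist
  have hnd : (a :: t).Nodup := by rw [← hat]; exact Finset.nodup_toList I
  have hnd' := List.nodup_cons.1 hnd
  have hmem : ∀ i, i ∈ a :: t ↔ i ∈ I := fun i => by rw [← hat]; exact Finset.mem_toList
  have haI : a ∈ I := (hmem a).1 (by simp)
  have htI : ∀ i ∈ t, i ∈ I := fun i hi => (hmem i).1 (by simp [hi])
  have hcard : I.card - 1 = t.length := by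
    rw [← Finset.length_toList, hat]; simp
  have hfinset : I = insert a t.toFinset := by
    ext i
    simp only [Finset.mem_insert, List.mem_toFinset]
    rw [← hmem i]
    simp
  have hstep : StepOK P q₂ l a b := by
    refine ⟨?_, ?_, ?_⟩
    · intro e he
      rw [hq₂I a haI, ← hq₂o e.1 (head_mem_coords he)]
      exact hL.sorted e he
    · intro hb
      obtain ⟨c, hc, hLc⟩ := hL.flat hb
      refine ⟨c, hc, ?_⟩
      rw [hq₂I a haI, hLc]
      exact ev_congr (SS_supp P.D hc) hq₂o
    · intro hb c hc
      rw [hq₂I a haI, ← ev_congr (SS_supp P.D hc) hq₂o]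
      exact hL.nonflat hb c hc
  have haU : a ∉ coords l := Finset.disjoint_left.1 hdis haI
  have hvQ : Valid P q₂ ((a, b) :: l) := ⟨hv₂, haU, hstep⟩
  have hvT : Valid P q₂ (ties t ((a, b) :: l)) := by
    refine valid_ties P hvQ ⟨(a, b), by simp, hq₂I a haI⟩ hnd'.2 (fun i hi => hq₂I i (htI i hi)) ?_
    intro i hi
    simp only [coords_cons, Finset.mem_insert, not_or]
    refine ⟨fun h => hnd'.1 (h ▸ hi), fun h => Finset.disjoint_left.1 hdis (htI i hi) h⟩
  refine ⟨ties t ((a, b) :: l), ?_, ?_, ?_, ?_, ?_⟩
  · rw [← hq₂]; exact hvT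
  · rw [coords_ties, coords_cons, hfinset]
    ext i
    simp only [Finset.mem_union, List.mem_toFinset, Finset.mem_insert]
    tauto
  · rw [word_ties, hcard]
    simp
  · cases t with
    | nil => exact ⟨(a, b), by simp, haI⟩
    | cons j t => exact ⟨(j, true), by simp, htI j (by simp)⟩
  · rw [← hq₂, GG_ties P x q₂ hnd'.2 (fun i hi => hq₂I i (htI i hi))]
    simp only [GG, word_cons]
    rw [hq₂I a haI, GG_congr P x hq₂o, hfinset, Finset.sum_insert (by simpa using hnd'.1)]
    simp only [OmB]
    have : (insert a t.toFinset).card - 1 = t.length := by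
      rw [← hfinset]; exact hcard
    rw [this]
    ring

/-- A chain with a head can be completed naturally; the comparison with a maximal site `s`. -/
lemma competitor {x : Fin d → ℝ} (hx : ∀ i, 0 < x i) {T : ℝ} (hT : 2 * P.Am ≤ T)
    {q : Fin d → ℝ} {s : List (Fin d × Bool)}
    (hmax : ∀ (q' : Fin d → ℝ) (l' : List (Fin d × Bool)), Valid P q' l' →
      coords l' = Finset.univ → GG P x q' l' ≤ GG P x q s)
    {q₂ : Fin d → ℝ} {l₂ : List (Fin d × Bool)} (hv₂ : Valid P q₂ l₂)
    (hh : ∀ i ∉ coords l₂, ∀ e ∈ l₂.head?, Real.log (x i) ≤ q₂ e.1 + T) :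
    GG P x q₂ l₂ + ∑ i ∈ (coords l₂)ᶜ, (ent (x i) - (T + 2 * P.Am) * x i) ≤ GG P x q s := by
  classical
  obtain ⟨q', l', hv', _, hc, hG⟩ := natural P hx hT _ (coords l₂)ᶜ rfl q₂ l₂ hv₂
    (disjoint_compl_left) (fun i hi e he => hh i (Finset.mem_compl.1 hi) e he)
  refine le_trans hG (hmax q' _ hv' ?_)
  rw [hc]
  simp

end Vale.Agent.Lib.P072G
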