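import Vale.Agent.Lib.P072G.Ties

/-!
Bounds for the weights and elementary inequalities.
-/

open Finset

namespace Vale.Agent.Lib.P072G

variable {d : ℕ} (P : Par d)

lemma EE_anti {u v : ℝ} (hu : 0 ≤ u) (huv : u ≤ v) : EE v ≤ EE u := by
  unfold EE
  have h1 := Real.add_one_le_exp (v - u)
  have h2 : 1 + v ≤ (1 + u) * Real.exp (v - u) := by nlinarith
  have h3 : Real.exp (-v) * Real.exp (v - u) = Real.exp (-u) := by
    rw [← Real.exp_add]; congr 1; ring
  have h4 := Real.exp_pos (-v)
  calc (1 + v) * Real.exp (-v) ≤ ((1 + u) * Real.exp (v - u)) * Real.exp (-v) :=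
        mul_le_mul_of_nonneg_right h2 h4.le
    _ = (1 + u) * (Real.exp (-v) * Real.exp (v - u)) := by ring
    _ = _ := by rw [h3]

lemma A0_pos : 0 < P.A0 := by linarith [P.hA0]

lemma A0_le_Am : P.A0 ≤ P.Am :=
  le_trans (P.hwin_ge [] (by simp)) (P.hwin_le [] (by simp))

lemma win_pos {w : List Bool} (h : w.length ≤ d) : 0 < P.win w :=
  lt_of_lt_of_le (A0_pos P) (P.hwin_ge w h)

lemma tieOm_nonneg (w : List Bool) (n : ℕ) (h : w.length + n ≤ d) : 0 ≤ tieOm P w n := by
  induction n with
  | zero => simp [tieOm]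
  | succ n ih =>
    simp only [tieOm]
    have h1 := ih (by omega)
    have h2 := win_pos P (w := List.replicate n true ++ w) (by simp; omega)
    have h3 := EE_pos h2.le
    linarith

lemma tieOm_mono (w : List Bool) {m n : ℕ} (hmn : m ≤ n) (h : w.length + n ≤ d) :
    tieOm P w m ≤ tieOm P w n := by
  induction n, hmn using Nat.le_induction with
  | base => exact le_rfl
  | succ n hn ih =>
    simp only [tieOm]
    have h1 := ih (by omega)
    have h2 := win_pos P (w := List.replicate n true ++ w) (by simp; omega)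
    have h3 := EE_pos h2.le
    linarith

/-- The difference of two weights contains the term of the first omitted position. -/
lemma tieOm_diff (w : List Bool) {m n : ℕ} (hmn : m < n) (h : w.length + n ≤ d) :
    EE (P.win (List.replicate m true ++ w)) ≤ tieOm P w n - tieOm P w m := by
  have h1 := tieOm_mono P w (Nat.succ_le_of_lt hmn) h
  simp only [tieOm] at h1
  linarith

lemma tieOm_le_of (w : List Bool) (n : ℕ) (h : w.length + n ≤ d) {B : ℝ} (hB0 : 0 ≤ B)
    (hB : ∀ j < n, B ≤ P.win (List.replicate j true ++ w)) :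
    tieOm P w n ≤ n * EE B := by
  induction n with
  | zero => simp [tieOm]
  | succ n ih =>
    simp only [tieOm]
    have h1 := ih (by omega) (fun j hj => hB j (by omega))
    have h2 := EE_anti hB0 (hB n (by omega))
    push_cast
    linarith

lemma exp_neg_mul_self {A : ℝ} : Real.exp (-A) * Real.exp A = 1 := by
  rw [← Real.exp_add]; simp

lemma OmB_false_ge (w : List Bool) (n : ℕ) (h : w.length + 1 + n ≤ d) : 1 ≤ OmB P false w n := by
  simp only [OmB, wgt, Bool.false_eq_true, if_false]
  have := tieOm_nonneg P (false :: w) n (by simp; omega)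
  linarith

lemma OmB_false_le (w : List Bool) (n : ℕ) (h : w.length + 1 + n ≤ d) : OmB P false w n ≤ 2 := by
  simp only [OmB, wgt, Bool.false_eq_true, if_false]
  have h0 := A0_pos P
  have h1 := tieOm_le_of P (false :: w) n (by simp; omega) h0.le
    (fun j hj => P.hwin_ge _ (by simp; omega))
  have h2 : (n : ℝ) * EE P.A0 ≤ 1 := by
    have h3 : (n : ℝ) ≤ d := by
      have : n ≤ d := by omega
      exact_mod_cast this
    have h4 := P.hEEsum
    have h5 := Real.exp_pos (-P.A0)
    have h6 : Real.exp (-P.A0) * Real.exp P.A0 = 1 := exp_neg_mul_self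
    unfold EE
    have h7 : (n : ℝ) * (1 + P.A0) ≤ Real.exp P.A0 := by nlinarith
    calc (n : ℝ) * ((1 + P.A0) * Real.exp (-P.A0)) = ((n : ℝ) * (1 + P.A0)) * Real.exp (-P.A0) := by ring
      _ ≤ Real.exp P.A0 * Real.exp (-P.A0) := mul_le_mul_of_nonneg_right h7 h5.le
      _ = 1 := by rw [mul_comm]; exact h6
  linarith

lemma OmB_true_ge (w : List Bool) (n : ℕ) (h : w.length + 1 + n ≤ d) :
    EE (P.win w) ≤ OmB P true w n := by
  simp only [OmB, wgt, if_true]
  have := tieOm_nonneg P (true :: w) n (by simp; omega)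
  linarith

lemma OmB_true_le (w : List Bool) (n : ℕ) (h : w.length + 1 + n ≤ d) :
    OmB P true w n ≤ 2 * EE (P.win w) := by
  simp only [OmB, wgt, if_true]
  obtain ⟨A, hA⟩ : ∃ A, A = P.win w := ⟨_, rfl⟩
  rw [← hA]
  have hA1 : P.A0 ≤ A := by rw [hA]; exact P.hwin_ge w (by omega)
  have hA0 := P.hA0
  have hL := P.hLam4
  have hB0 : 0 ≤ P.Lam * A := by
    apply mul_nonneg <;> linarith
  have h1 := tieOm_le_of P (true :: w) n (by simp; omega) hB0
    (fun j hj => by
      rw [hA]
      exact P.hwin_true (List.replicate j true) w (by simp; omega))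
  have h2 : (n : ℝ) * EE (P.Lam * A) ≤ EE A := by
    have h3 : (n : ℝ) ≤ d := by
      have : n ≤ d := by omega
      exact_mod_cast this
    have h4 := P.hTieSum
    unfold EE
    have h5 : Real.exp (3 * P.A0) ≤ Real.exp ((P.Lam - 1) * A) := by
      apply Real.exp_le_exp.2
      nlinarith
    have h6 : Real.exp (-(P.Lam * A)) * Real.exp ((P.Lam - 1) * A) = Real.exp (-A) := by
      rw [← Real.exp_add]; congr 1; ring
    have h7 : 1 + P.Lam * A ≤ P.Lam * (1 + A) := by nlinarith
    have h8 := Real.exp_pos (-(P.Lam * A))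
    have hd : (0:ℝ) ≤ d := Nat.cast_nonneg d
    have hn : (0:ℝ) ≤ n := Nat.cast_nonneg n
    calc (n : ℝ) * ((1 + P.Lam * A) * Real.exp (-(P.Lam * A)))
        ≤ (n : ℝ) * ((P.Lam * (1 + A)) * Real.exp (-(P.Lam * A))) := by
          apply mul_le_mul_of_nonneg_left _ hn
          exact mul_le_mul_of_nonneg_right h7 h8.le
      _ = ((n : ℝ) * P.Lam) * ((1 + A) * Real.exp (-(P.Lam * A))) := by ring
      _ ≤ Real.exp ((P.Lam - 1) * A) * ((1 + A) * Real.exp (-(P.Lam * A))) := by
          apply mul_le_mul_of_nonneg_right _ (mul_nonneg (by linarith) h8.le)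
          have : (n : ℝ) * P.Lam ≤ ((d : ℝ) + 1) * P.Lam := by
            apply mul_le_mul_of_nonneg_right _ (by linarith)
            linarith
          linarith
      _ = (1 + A) * (Real.exp (-(P.Lam * A)) * Real.exp ((P.Lam - 1) * A)) := by ring
      _ = (1 + A) * Real.exp (-A) := by rw [h6]
  linarith

lemma exp_neg_mul_anti {s t K : ℝ} (hs : 0 ≤ s) (hst : s ≤ t) (hK : 1 ≤ K) :
    Real.exp (-t) * (t + K) ≤ Real.exp (-s) * (s + K) := by
  have h1 := Real.add_one_le_exp (t - s)
  have h2 : t + K ≤ (s + K) * Real.exp (t - s) := by nlinarith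
  have h3 : Real.exp (-t) * Real.exp (t - s) = Real.exp (-s) := by
    rw [← Real.exp_add]; congr 1; ring
  have h4 := Real.exp_pos (-t)
  calc Real.exp (-t) * (t + K) ≤ Real.exp (-t) * ((s + K) * Real.exp (t - s)) :=
        mul_le_mul_of_nonneg_left h2 h4.le
    _ = (Real.exp (-t) * Real.exp (t - s)) * (s + K) := by ring
    _ = _ := by rw [h3]

/-- Entropy of a sum. -/
lemma sum_ent_ge {x : Fin d → ℝ} (hx : ∀ i, 0 < x i) {I : Finset (Fin d)} (hI : I.Nonempty) :
    (∑ i ∈ I, x i) * (Real.log (∑ i ∈ I, x i) - ((d : ℝ) + 1)) ≤ ∑ i ∈ I, ent (x i) := by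
  obtain ⟨M, hM⟩ : ∃ M, M = ∑ i ∈ I, x i := ⟨_, rfl⟩
  rw [← hM]
  have hM0 : 0 < M := by
    rw [hM]
    exact Finset.sum_pos (fun i _ => hx i) hI
  have h1 : ∀ i ∈ I, x i * Real.log M - M - x i ≤ ent (x i) := by
    intro i _
    have h2 := Real.one_sub_inv_le_log_of_pos (div_pos (hx i) hM0)
    rw [Real.log_div (hx i).ne' hM0.ne', inv_div] at h2
    have h3 : x i * (1 - M / x i) ≤ x i * (Real.log (x i) - Real.log M) :=
      mul_le_mul_of_nonneg_left h2 (hx i).le
    have h4 : x i * (1 - M / x i) = x i - M := by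
      have := (hx i).ne'
      field_simp
    unfold ent
    have h5 : x i * (Real.log (x i) - Real.log M) = x i * Real.log (x i) - x i * Real.log M := by ring
    linarith [hx i]
  have h2 := Finset.sum_le_sum h1
  rw [Finset.sum_sub_distrib, Finset.sum_sub_distrib, ← Finset.sum_mul, ← hM,
    Finset.sum_const, nsmul_eq_mul] at h2
  have h3 : (I.card : ℝ) ≤ d := by
    have : I.card ≤ d := by
      calc I.card ≤ (Finset.univ : Finset (Fin d)).card := Finset.card_le_univ _
        _ = d := by simp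
    exact_mod_cast this
  nlinarith

end Vale.Agent.Lib.P072G
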